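import Vale.Agent.Lib.P143L.CoreDefs

/-!
The algebra of the inclusion probabilities of the weighted spanning tree of a finite graph.
-/

namespace Vale.Agent.Lib.P143L

open MeasureTheory Filter Topology
open scoped ENNReal

universe u

variable {V : Type u}

lemma wt_pos (L : Sym2 V → ℝ) (T : Finset (Sym2 V)) : 0 < wt L T := Real.exp_pos _

open Classical in
/-- The numerator of `qH`. -/
noncomputable def numT (W : Finset V) (H : Finset (Sym2 V)) (L : Sym2 V → ℝ) (S : Finset (Sym2 V)) : ℝ :=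
  ∑ T ∈ trees W H, if S ⊆ T then wt L T else 0

open Classical in
lemma qH_eq_num (W : Finset V) (H : Finset (Sym2 V)) (L : Sym2 V → ℝ) (S : Finset (Sym2 V)) :
    qH W H L S = numT W H L S / Zw W H L := by
  unfold qH numT
  congr 1
  rw [Finset.sum_filter]

lemma numT_nonneg (W : Finset V) (H : Finset (Sym2 V)) (L : Sym2 V → ℝ) (S : Finset (Sym2 V)) :
    0 ≤ numT W H L S := by
  classical
  unfold numT
  refine Finset.sum_nonneg fun T _ => ?_
  split_ifs
  · exact (wt_pos L T).le
  · exact le_rfl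

lemma numT_le_Zw (W : Finset V) (H : Finset (Sym2 V)) (L : Sym2 V → ℝ) (S : Finset (Sym2 V)) :
    numT W H L S ≤ Zw W H L := by
  classical
  unfold numT Zw
  refine Finset.sum_le_sum fun T _ => ?_
  split_ifs
  · exact le_rfl
  · exact (wt_pos L T).le

lemma numT_empty (W : Finset V) (H : Finset (Sym2 V)) (L : Sym2 V → ℝ) :
    numT W H L ∅ = Zw W H L := by
  classical
  unfold numT Zw
  refine Finset.sum_congr rfl fun T _ => ?_
  simp

lemma tiltE_self (L : Sym2 V → ℝ) (e : Sym2 V) (r : ℝ) : tiltE L e r e = L e + r := by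
  unfold tiltE
  exact @Function.update_self _ _ (fun a b => Classical.propDecidable (a = b)) _ _ _

lemma tiltE_ne (L : Sym2 V → ℝ) (e : Sym2 V) (r : ℝ) {g : Sym2 V} (hg : g ≠ e) : tiltE L e r g = L g := by
  unfold tiltE
  exact @Function.update_of_ne _ _ (fun a b => Classical.propDecidable (a = b)) _ _ hg _ _

lemma wt_tiltE (L : Sym2 V → ℝ) (e : Sym2 V) (r : ℝ) (T : Finset (Sym2 V)) [Decidable (e ∈ T)] :
    wt (tiltE L e r) T = wt L T + (if e ∈ T then (Real.exp r - 1) * wt L T else 0) := by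
  classical
  unfold wt
  split_ifs with he
  · have h1 : ∑ g ∈ T, tiltE L e r g = (∑ g ∈ T, L g) + r := by
      rw [← Finset.add_sum_erase T _ he, ← Finset.add_sum_erase T L he]
      have h2 : ∑ g ∈ T.erase e, tiltE L e r g = ∑ g ∈ T.erase e, L g := by
        refine Finset.sum_congr rfl fun g hg => ?_
        rw [tiltE_ne L e r (Finset.ne_of_mem_erase hg)]
      rw [h2, tiltE_self]
      ring
    rw [h1, Real.exp_add]
    ring
  · have h2 : ∑ g ∈ T, tiltE L e r g = ∑ g ∈ T, L g := by
      refine Finset.sum_congr rfl fun g hg => ?_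
      rw [tiltE_ne L e r (fun h => he (h ▸ hg))]
    rw [h2]
    ring

open Classical in
lemma numT_tilt (W : Finset V) (H : Finset (Sym2 V)) (L : Sym2 V → ℝ) (e : Sym2 V) (r : ℝ)
    (S : Finset (Sym2 V)) :
    numT W H (tiltE L e r) S = numT W H L S + (Real.exp r - 1) * numT W H L (insert e S) := by
  unfold numT
  rw [Finset.mul_sum, ← Finset.sum_add_distrib]
  refine Finset.sum_congr rfl fun T _ => ?_
  rw [wt_tiltE]
  by_cases hS : S ⊆ T <;> by_cases he : e ∈ T
  · have : insert e S ⊆ T := Finset.insert_subset he hS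
    simp [hS, he, this]
  · have : ¬ insert e S ⊆ T := fun h => he (h (Finset.mem_insert_self _ _))
    simp [hS, he, this]
  · have : ¬ insert e S ⊆ T := fun h => hS ((Finset.subset_insert _ _).trans h)
    simp [hS, this]
  · have : ¬ insert e S ⊆ T := fun h => hS ((Finset.subset_insert _ _).trans h)
    simp [hS, this]

lemma Zw_tilt (W : Finset V) (H : Finset (Sym2 V)) (L : Sym2 V → ℝ) (e : Sym2 V) (r : ℝ) :
    Zw W H (tiltE L e r) = Zw W H L + (Real.exp r - 1) * numT W H L {e} := by
  classical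
  rw [← numT_empty, numT_tilt, numT_empty]
  congr 2

section pos

variable {W : Finset V} {H : Finset (Sym2 V)}

open Classical in
/-- Tilt of a single edge. -/
theorem qH_tilt_aux (hZ : ∀ L, 0 < Zw W H L) (L : Sym2 V → ℝ) (e : Sym2 V) (r : ℝ) (S : Finset (Sym2 V)) :
    qH W H (tiltE L e r) S * (1 + (Real.exp r - 1) * qH W H L {e}) =
      qH W H L S + (Real.exp r - 1) * qH W H L (insert e S) := by
  have h0 := hZ L
  have h1 := hZ (tiltE L e r)
  have h2 : 1 + (Real.exp r - 1) * qH W H L {e} = Zw W H (tiltE L e r) / Zw W H L := by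
    rw [Zw_tilt, qH_eq_num]
    field_simp
  rw [h2, qH_eq_num, qH_eq_num, qH_eq_num, numT_tilt]
  field_simp

theorem qH_mem_aux (hZ : ∀ L, 0 < Zw W H L) (L : Sym2 V → ℝ) (S : Finset (Sym2 V)) :
    0 ≤ qH W H L S ∧ qH W H L S ≤ 1 := by
  rw [qH_eq_num]
  have h0 := hZ L
  exact ⟨div_nonneg (numT_nonneg _ _ _ _) h0.le, (div_le_one h0).mpr (numT_le_Zw _ _ _ _)⟩

theorem qH_empty_aux (hZ : ∀ L, 0 < Zw W H L) (L : Sym2 V → ℝ) : qH W H L ∅ = 1 := by
  rw [qH_eq_num, numT_empty, div_self (hZ L).ne']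

theorem qH_le_aux (hZ : ∀ L, 0 < Zw W H L) (L : Sym2 V → ℝ) (S : Finset (Sym2 V)) {g : Sym2 V} (hg : g ∈ S) :
    qH W H L S ≤ qH W H L {g} := by
  classical
  rw [qH_eq_num, qH_eq_num]
  apply div_le_div_of_nonneg_right _ (hZ L).le
  unfold numT
  refine Finset.sum_le_sum fun T _ => ?_
  by_cases hS : S ⊆ T
  · have : ({g} : Finset (Sym2 V)) ⊆ T := Finset.singleton_subset_iff.mpr (hS hg)
    simp [hS, this]
  · rw [if_neg hS]
    split_ifs
    · exact (wt_pos L T).le
    · exact le_rfl

theorem qH_ge_aux (hZ : ∀ L, 0 < Zw W H L) (L : Sym2 V → ℝ) (S : Finset (Sym2 V)) :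
    1 - ∑ g ∈ S, (1 - qH W H L {g}) ≤ qH W H L S := by
  classical
  have h0 := hZ L
  have h1 : ∀ g, 1 - qH W H L {g} = (Zw W H L - numT W H L {g}) / Zw W H L := by
    intro g
    rw [qH_eq_num]
    field_simp
  simp_rw [h1]
  rw [← Finset.sum_div, qH_eq_num, le_div_iff₀ h0, sub_mul, div_mul_cancel₀ _ h0.ne', one_mul]
  -- pointwise
  have h2 : ∀ g, Zw W H L - numT W H L {g} = ∑ T ∈ trees W H, if g ∈ T then 0 else wt L T := by
    intro g
    unfold Zw numT
    rw [← Finset.sum_sub_distrib]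
    refine Finset.sum_congr rfl fun T _ => ?_
    by_cases hg : g ∈ T
    · have : ({g} : Finset (Sym2 V)) ⊆ T := Finset.singleton_subset_iff.mpr hg
      simp [hg, this]
    · have : ¬ ({g} : Finset (Sym2 V)) ⊆ T := fun h => hg (h (Finset.mem_singleton_self g))
      simp [hg, this]
  simp_rw [h2]
  rw [Finset.sum_comm]
  unfold Zw numT
  rw [sub_le_iff_le_add, ← Finset.sum_add_distrib]
  refine Finset.sum_le_sum fun T _ => ?_
  by_cases hS : S ⊆ T
  · rw [if_pos hS]
    have : 0 ≤ ∑ g ∈ S, (if g ∈ T then (0 : ℝ) else wt L T) := by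
      refine Finset.sum_nonneg fun g _ => ?_
      split_ifs
      · exact le_rfl
      · exact (wt_pos L T).le
    linarith
  · rw [if_neg hS, zero_add]
    obtain ⟨g, hg, hgT⟩ := Finset.not_subset.mp hS
    have : (if g ∈ T then (0 : ℝ) else wt L T) ≤ ∑ g ∈ S, (if g ∈ T then (0 : ℝ) else wt L T) := by
      apply Finset.single_le_sum (f := fun g => if g ∈ T then (0 : ℝ) else wt L T) _ hg
      intro x _
      show 0 ≤ if x ∈ T then (0 : ℝ) else wt L T
      split_ifs
      · exact le_rfl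
      · exact (wt_pos L T).le
    rwa [if_neg hgT] at this

lemma continuous_wt (T : Finset (Sym2 V)) : Continuous (fun L : Sym2 V → ℝ => wt L T) := by
  unfold wt
  fun_prop

theorem qH_cont_aux (hZ : ∀ L, 0 < Zw W H L) (S : Finset (Sym2 V)) :
    Continuous (fun L : Sym2 V → ℝ => qH W H L S) := by
  classical
  simp_rw [qH_eq_num]
  apply Continuous.div
  · unfold numT
    refine continuous_finsetSum _ fun T _ => ?_
    split_ifs
    · exact continuous_wt T
    · exact continuous_const
  · unfold Zw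
    exact continuous_finsetSum _ fun T _ => continuous_wt T
  · exact fun L => (hZ L).ne'

theorem qH_notMem_aux (L : Sym2 V → ℝ) {g : Sym2 V} {S : Finset (Sym2 V)} (hg : g ∈ S) (hn : g ∉ H) :
    qH W H L S = 0 := by
  classical
  rw [qH_eq_num]
  have : numT W H L S = 0 := by
    unfold numT
    refine Finset.sum_eq_zero fun T hT => ?_
    have hT' : T ⊆ H := by
      have := (Finset.mem_filter.mp hT).1
      exact Finset.mem_powerset.mp this
    rw [if_neg]
    exact fun h => hn (hT' (h hg))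
  rw [this, zero_div]

lemma wt_zero (T : Finset (Sym2 V)) : wt (0 : Sym2 V → ℝ) T = 1 := by
  simp [wt]

theorem ustProb_eq_aux (hZ : ∀ L, 0 < Zw W H L) (A B : Finset (Sym2 V)) [DecidableEq (Sym2 V)] (hBA : B ⊆ A) :
    ustProb W H A B = ∑ S ∈ (A \ B).powerset, (-1 : ℝ) ^ S.card * qH W H 0 (B ∪ S) := by
  classical
  have hZ0 : Zw W H 0 = ((trees W H).card : ℝ) := by
    unfold Zw
    simp [wt_zero]
  have hcard : (0 : ℝ) < ((trees W H).card : ℝ) := hZ0 ▸ hZ 0
  simp_rw [qH_eq_num, hZ0, ← mul_div_assoc]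
  rw [← Finset.sum_div]
  unfold ustProb
  congr 1
  rw [Finset.card_filter]
  simp only [Nat.cast_sum, Nat.cast_ite, Nat.cast_one, Nat.cast_zero]
  have h2 : ∀ S : Finset (Sym2 V), numT W H 0 (B ∪ S) = ∑ T ∈ trees W H, if B ∪ S ⊆ T then (1 : ℝ) else 0 := by
    intro S
    unfold numT
    simp [wt_zero]
  simp_rw [h2, Finset.mul_sum]
  rw [Finset.sum_comm]
  refine Finset.sum_congr rfl fun T _ => ?_
  by_cases hB : B ⊆ T
  · -- `B ⊆ T`
    have h3 : ∀ S ∈ (A \ B).powerset, (-1 : ℝ) ^ S.card * (if B ∪ S ⊆ T then (1 : ℝ) else 0)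
        = if S ⊆ (A \ B) ∩ T then (-1 : ℝ) ^ S.card else 0 := by
      intro S hS
      have hS' : S ⊆ A \ B := Finset.mem_powerset.mp hS
      by_cases hST : S ⊆ T
      · have h4 : B ∪ S ⊆ T := Finset.union_subset hB hST
        have h5 : S ⊆ (A \ B) ∩ T := Finset.subset_inter hS' hST
        simp [h4, h5]
      · have h4 : ¬ B ∪ S ⊆ T := fun h => hST (Finset.subset_union_right.trans h)
        have h5 : ¬ S ⊆ (A \ B) ∩ T := fun h => hST (h.trans Finset.inter_subset_right)
        simp [h4, h5]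
    rw [Finset.sum_congr rfl h3]
    have h6 : ∑ S ∈ (A \ B).powerset, (if S ⊆ (A \ B) ∩ T then (-1 : ℝ) ^ S.card else 0)
        = ∑ S ∈ ((A \ B) ∩ T).powerset, (-1 : ℝ) ^ S.card := by
      rw [← Finset.sum_filter]
      apply Finset.sum_congr _ (fun _ _ => rfl)
      ext S
      simp only [Finset.mem_filter, Finset.mem_powerset]
      exact ⟨fun h => h.2, fun h => ⟨h.trans Finset.inter_subset_left, h⟩⟩
    rw [h6]
    have h7 := Finset.sum_powerset_neg_one_pow_card (x := (A \ B) ∩ T)
    have h8 : ∑ S ∈ ((A \ B) ∩ T).powerset, (-1 : ℝ) ^ S.card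
        = ((∑ S ∈ ((A \ B) ∩ T).powerset, (-1 : ℤ) ^ S.card : ℤ) : ℝ) := by
      push_cast
      rfl
    rw [h8, h7]
    by_cases he : (A \ B) ∩ T = ∅
    · rw [if_pos, if_pos he]
      · simp
      · ext x
        simp only [Finset.mem_inter]
        constructor
        · rintro ⟨h1, h2⟩
          by_contra hx
          have : x ∈ (A \ B) ∩ T := Finset.mem_inter.mpr ⟨Finset.mem_sdiff.mpr ⟨h2, hx⟩, h1⟩
          rw [he] at this
          simp at this
        · exact fun h => ⟨hB h, hBA h⟩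
    · rw [if_neg, if_neg he]
      · simp
      · intro h
        apply he
        rw [Finset.eq_empty_iff_forall_notMem]
        intro x hx
        obtain ⟨h1, h2⟩ := Finset.mem_inter.mp hx
        obtain ⟨h3, h4⟩ := Finset.mem_sdiff.mp h1
        apply h4
        have h5 := (Finset.ext_iff.mp h x).mp
        simp only [Finset.mem_inter] at h5
        exact h5 ⟨h2, h3⟩
  · -- `B` is not contained in `T`
    rw [if_neg]
    · symm
      refine Finset.sum_eq_zero fun S _ => ?_
      have : ¬ B ∪ S ⊆ T := fun h => hB (Finset.subset_union_left.trans h)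
      simp [this]
    · intro h
      apply hB
      intro x hx
      have h5 := (Finset.ext_iff.mp h x).mpr hx
      simp only [Finset.mem_inter] at h5
      exact h5.1

end pos

end Vale.Agent.Lib.P143L
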