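import Vale.Agent.Lib.P143L.Bridge1
import Vale.Agent.Lib.P143L.Bridge2

/-!
The finite volume algebra of the inclusion probabilities for a finite connected subgraph.
-/

namespace Vale.Agent.Lib.P143L

universe u

variable {V : Type u}

open Classical in
/-- finite volume algebra -/
theorem qH_tilt {G : SimpleGraph V} {W : Finset V} {H : Finset (Sym2 V)} (h : IsFinConn G W H)
    (L : Sym2 V → ℝ) (e : Sym2 V) (r : ℝ) (S : Finset (Sym2 V)) :
    qH W H (tiltE L e r) S * (1 + (Real.exp r - 1) * qH W H L {e}) =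
      qH W H L S + (Real.exp r - 1) * qH W H L (insert e S) :=
  qH_tilt_aux (Zw_pos h) L e r S

theorem qH_mem {G : SimpleGraph V} {W : Finset V} {H : Finset (Sym2 V)} (h : IsFinConn G W H)
    (L : Sym2 V → ℝ) (S : Finset (Sym2 V)) : 0 ≤ qH W H L S ∧ qH W H L S ≤ 1 :=
  qH_mem_aux (Zw_pos h) L S

theorem qH_empty {G : SimpleGraph V} {W : Finset V} {H : Finset (Sym2 V)} (h : IsFinConn G W H)
    (L : Sym2 V → ℝ) : qH W H L ∅ = 1 :=
  qH_empty_aux (Zw_pos h) L

theorem qH_le {G : SimpleGraph V} {W : Finset V} {H : Finset (Sym2 V)} (h : IsFinConn G W H)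
    (L : Sym2 V → ℝ) (S : Finset (Sym2 V)) {g : Sym2 V} (hg : g ∈ S) : qH W H L S ≤ qH W H L {g} :=
  qH_le_aux (Zw_pos h) L S hg

theorem qH_ge {G : SimpleGraph V} {W : Finset V} {H : Finset (Sym2 V)} (h : IsFinConn G W H)
    (L : Sym2 V → ℝ) (S : Finset (Sym2 V)) : 1 - ∑ g ∈ S, (1 - qH W H L {g}) ≤ qH W H L S :=
  qH_ge_aux (Zw_pos h) L S

theorem qH_cont {G : SimpleGraph V} {W : Finset V} {H : Finset (Sym2 V)} (h : IsFinConn G W H)
    (S : Finset (Sym2 V)) : Continuous (fun L : Sym2 V → ℝ => qH W H L S) :=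
  qH_cont_aux (Zw_pos h) S

theorem qH_notMem {G : SimpleGraph V} {W : Finset V} {H : Finset (Sym2 V)} (_h : IsFinConn G W H)
    (L : Sym2 V → ℝ) {g : Sym2 V} {S : Finset (Sym2 V)} (hg : g ∈ S) (hn : g ∉ H) : qH W H L S = 0 :=
  qH_notMem_aux L hg hn

/-- the cylinder formula: uniform tree with L = 0 -/
theorem ustProb_eq {G : SimpleGraph V} {W : Finset V} {H : Finset (Sym2 V)} (h : IsFinConn G W H)
    (A B : Finset (Sym2 V)) [DecidableEq (Sym2 V)] (hBA : B ⊆ A) :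
    ustProb W H A B = ∑ S ∈ (A \ B).powerset, (-1 : ℝ) ^ S.card * qH W H 0 (B ∪ S) :=
  ustProb_eq_aux (Zw_pos h) A B hBA

end Vale.Agent.Lib.P143L
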