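import Vale.Agent.Lib.P143L.CoreDefs
import Vale.Agent.Lib.P143.Tree

/-!
The weighted spanning tree law of a finite connected graph: the marginal of an edge is given by the
Dirichlet principle. Obtained from the Cauchy-Binet formula for the reduced incidence matrix.
-/

namespace Vale.Agent.Lib.P143L

open scoped RealInnerProductSpace Matrix
open Vale.Agent.Lib.P143

universe u

set_option linter.unusedSectionVars false

section Generic

variable {F Vt : Type*} [Fintype F] [DecidableEq F] [Fintype Vt] [DecidableEq Vt]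

/-- The reduced incidence matrix with columns scaled by the square roots of the conductances. -/
noncomputable def incC (head tail : F → Vt) (r : Vt) (c : F → ℝ) : Matrix {v : Vt // v ≠ r} F ℝ :=
  fun v f => incM head tail r v f * √(c f)

theorem dW_incC (head tail : F → Vt) (r : Vt) (c : F → ℝ) (hc : ∀ f, 0 ≤ c f) (T : Finset F) :
    dW (incC head tail r c) T = dW (incM head tail r) T * ∏ f ∈ T, c f := by
  by_cases h : T.card = Fintype.card {v : Vt // v ≠ r}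
  · rw [dW_of_card _ h, dW_of_card _ h]
    have e1 : (incC head tail r c).submatrix id (fun i => (eT T h i : F))
        = ((incM head tail r).submatrix id (fun i => (eT T h i : F))) *
          Matrix.diagonal (fun i => √(c (eT T h i : F))) := by
      ext v j
      simp [incC, Matrix.mul_diagonal]
    rw [e1, Matrix.det_mul, Matrix.det_diagonal, mul_pow, ← Finset.prod_pow]
    congr 1
    have e2 : ∀ i, √(c (eT T h i : F)) ^ 2 = c (eT T h i : F) := fun i => Real.sq_sqrt (hc _)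
    simp_rw [e2]
    rw [← Finset.prod_coe_sort T]
    exact Equiv.prod_comp (eT T h) (fun x : T => c (x : F))
  · rw [dW_of_not_card _ h, dW_of_not_card _ h, zero_mul]

/-- The coordinates of the gradient of a potential. -/
noncomputable def gradX (head tail : F → Vt) (c : F → ℝ) (φ : Vt → ℝ) : F → ℝ :=
  fun h => √(c h) * (φ (head h) - φ (tail h))

variable {H E : Type*} [NormedAddCommGroup H] [InnerProductSpace ℝ H] [CompleteSpace H]

theorem vecOf_gradX (ψ : E → H) (ι : F → E) (head tail : F → Vt) (r : Vt) (c : F → ℝ) (φ : Vt → ℝ) :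
    vecOf ψ ι (gradX head tail c φ)
      = ∑ v : {v : Vt // v ≠ r}, (φ v.1 - φ r) • vecOf ψ ι (incC head tail r c v) := by
  unfold vecOf
  simp_rw [Finset.smul_sum, smul_smul]
  rw [Finset.sum_comm]
  refine Finset.sum_congr rfl (fun f _ => ?_)
  rw [← Finset.sum_smul]
  congr 1
  unfold gradX incC incM
  have key : ∀ a : Vt, ∑ v : {v : Vt // v ≠ r}, (φ v.1 - φ r) * (if v.1 = a then (1 : ℝ) else 0)
      = φ a - φ r := by
    intro a
    have h1 := Fintype.sum_eq_add_sum_subtype_ne (fun v : Vt => (φ v - φ r) * (if v = a then (1 : ℝ) else 0)) r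
    simp only [sub_self, zero_mul, zero_add] at h1
    rw [← h1]
    simp
  have e : ∀ v : {v : Vt // v ≠ r}, (φ v.1 - φ r) * (((if v.1 = head f then (1 : ℝ) else 0) - (if v.1 = tail f then (1 : ℝ) else 0)) * √(c f))
      = √(c f) * ((φ v.1 - φ r) * (if v.1 = head f then (1 : ℝ) else 0) - (φ v.1 - φ r) * (if v.1 = tail f then (1 : ℝ) else 0)) := by
    intro v; ring
  simp_rw [e]
  rw [← Finset.mul_sum, Finset.sum_sub_distrib, key, key]
  ring

theorem gradX_mem (ψ : E → H) (ι : F → E) (head tail : F → Vt) (r : Vt) (c : F → ℝ) (φ : Vt → ℝ) :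
    vecOf ψ ι (gradX head tail c φ) ∈ rowSpan ψ ι (incC head tail r c) := by
  rw [vecOf_gradX ψ ι head tail r c φ]
  exact Submodule.sum_mem _ (fun v _ => Submodule.smul_mem _ _ (Submodule.subset_span ⟨v, rfl⟩))

theorem exists_gradX (ψ : E → H) (ι : F → E) (head tail : F → Vt) (r : Vt) (c : F → ℝ) {y : H}
    (hy : y ∈ rowSpan ψ ι (incC head tail r c)) : ∃ φ : Vt → ℝ, y = vecOf ψ ι (gradX head tail c φ) := by
  obtain ⟨a, rfl⟩ := (Submodule.mem_span_range_iff_exists_fun ℝ).1 hy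
  refine ⟨fun v => if h : v ≠ r then a ⟨v, h⟩ else 0, ?_⟩
  rw [vecOf_gradX ψ ι head tail r c]
  refine Finset.sum_congr rfl (fun v _ => ?_)
  have h1 : (if h : v.1 ≠ r then a ⟨v.1, h⟩ else 0) = a v := by
    rw [dif_pos v.2]
  have h2 : (if h : r ≠ r then a ⟨r, h⟩ else 0) = 0 := by simp
  simp only [h1, h2, sub_zero]
  rfl

theorem norm_sq_vecOf {ψ : E → H} (hψ : Orthonormal ℝ ψ) {ι : F → E} (hι : Function.Injective ι)
    (x : F → ℝ) : ‖vecOf ψ ι x‖ ^ 2 = ∑ f, x f ^ 2 := by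
  rw [← real_inner_self_eq_norm_sq, inner_vecOf_vecOf hψ hι]
  exact Finset.sum_congr rfl (fun f _ => by ring)

theorem gradX_sq (head tail : F → Vt) (c : F → ℝ) (hc : ∀ f, 0 ≤ c f) (φ : Vt → ℝ) (f : F) :
    gradX head tail c φ f ^ 2 = c f * (φ (head f) - φ (tail f)) ^ 2 := by
  unfold gradX
  rw [mul_pow, Real.sq_sqrt (hc f)]

/-- The lower bound for the marginal: Cauchy-Schwarz. -/
theorem marg_lower {ψ : E → H} (hψ : Orthonormal ℝ ψ) {ι : F → E} (hι : Function.Injective ι)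
    (head tail : F → Vt) (r : Vt) (c : F → ℝ) (hc : ∀ f, 0 ≤ c f) (e : F) (φ : Vt → ℝ) :
    c e * (φ (head e) - φ (tail e)) ^ 2 ≤
      ‖pr (rowSpan ψ ι (incC head tail r c)) (ψ (ι e))‖ ^ 2 * ∑ h, c h * (φ (head h) - φ (tail h)) ^ 2 := by
  set K := rowSpan ψ ι (incC head tail r c) with hK
  set u := vecOf ψ ι (gradX head tail c φ) with hu
  have hmem : u ∈ K := gradX_mem ψ ι head tail r c φ
  have h1 : ⟪u, ψ (ι e)⟫ = gradX head tail c φ e := inner_vecOf_psi hψ hι _ _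
  have h2 : ⟪u, ψ (ι e)⟫ = ⟪u, pr K (ψ (ι e))⟫ := by
    rw [← inner_pr_left, pr_eq_self K hmem]
  have h3 : ‖u‖ ^ 2 = ∑ h, c h * (φ (head h) - φ (tail h)) ^ 2 := by
    rw [hu, norm_sq_vecOf hψ hι]
    exact Finset.sum_congr rfl (fun f _ => gradX_sq head tail c hc φ f)
  have h4 : c e * (φ (head e) - φ (tail e)) ^ 2 = ⟪u, pr K (ψ (ι e))⟫ ^ 2 := by
    rw [← h2, h1, gradX_sq head tail c hc]
  rw [h4, ← h3, mul_comm (‖pr K (ψ (ι e))‖ ^ 2)]
  have := abs_real_inner_le_norm u (pr K (ψ (ι e)))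
  calc ⟪u, pr K (ψ (ι e))⟫ ^ 2 = |⟪u, pr K (ψ (ι e))⟫| ^ 2 := (sq_abs _).symm
    _ ≤ (‖u‖ * ‖pr K (ψ (ι e))‖) ^ 2 := by gcongr
    _ = ‖u‖ ^ 2 * ‖pr K (ψ (ι e))‖ ^ 2 := by ring

theorem rowSpan_closure (ψ : E → H) (ι : F → E) {m : Type*} [Fintype m] (M : Matrix m F ℝ) :
    (rowSpan ψ ι M).topologicalClosure = rowSpan ψ ι M := by
  have : FiniteDimensional ℝ (rowSpan ψ ι M) := FiniteDimensional.span_of_finite ℝ (Set.finite_range _)
  exact (Submodule.closed_of_finiteDimensional _).submodule_topologicalClosure_eq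

/-- The equality case for the marginal: the minimizing potential with values in `[0, 1]`. -/
theorem marg_attain {ψ : E → H} (hψ : Orthonormal ℝ ψ) {ι : F → E} (hι : Function.Injective ι)
    (head tail : F → Vt) (r : Vt) (c : F → ℝ) (hc : ∀ f, 0 < c f) (e : F) (hne : head e ≠ tail e) :
    ∃ φ : Vt → ℝ, (∀ v, 0 ≤ φ v ∧ φ v ≤ 1) ∧ φ (head e) = 1 ∧ φ (tail e) = 0 ∧
      ‖pr (rowSpan ψ ι (incC head tail r c)) (ψ (ι e))‖ ^ 2 * ∑ h, c h * (φ (head h) - φ (tail h)) ^ 2 = c e := by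
  have hc0 : ∀ f, 0 ≤ c f := fun f => (hc f).le
  set K := rowSpan ψ ι (incC head tail r c) with hK
  set y := pr K (ψ (ι e)) with hy
  have hymem : y ∈ K := by
    have := pr_mem K (ψ (ι e))
    rw [hK, rowSpan_closure] at this
    exact this
  obtain ⟨φ₀, hφ₀⟩ := exists_gradX ψ ι head tail r c hymem
  set q := ‖y‖ ^ 2 with hq
  -- q is positive
  have hqpos : 0 < q := by
    set χ : Vt → ℝ := fun v => if v = head e then (1 : ℝ) else 0 with hχ
    have h1 := marg_lower hψ hι head tail r c hc0 e χ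
    have h2 : χ (head e) - χ (tail e) = 1 := by
      simp [hχ, Ne.symm hne]
    rw [h2, one_pow, mul_one] at h1
    have h3 : 0 < c e := hc e
    by_contra hn
    have h4 : q = 0 := le_antisymm (not_lt.1 hn) (by positivity)
    rw [← hy, ← hq, h4, zero_mul] at h1
    linarith
  set d := φ₀ (head e) - φ₀ (tail e) with hd
  have hqd : q = √(c e) * d := by
    have h1 : ⟪y, ψ (ι e)⟫ = q := inner_pr_self K _
    rw [← h1, hφ₀, inner_vecOf_psi hψ hι]
    rfl
  have hs : 0 < √(c e) := Real.sqrt_pos.2 (hc e)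
  have hdpos : 0 < d := by
    have : 0 < √(c e) * d := hqd ▸ hqpos
    exact (pos_iff_pos_of_mul_pos this).1 hs
  have hen : ∑ h, c h * (φ₀ (head h) - φ₀ (tail h)) ^ 2 = q := by
    rw [hq, hφ₀, norm_sq_vecOf hψ hι]
    exact (Finset.sum_congr rfl (fun f _ => gradX_sq head tail c hc0 φ₀ f)).symm
  -- truncation
  set φ₁ : Vt → ℝ := fun v => (φ₀ v - φ₀ (tail e)) / d with hφ₁
  set φ : Vt → ℝ := fun v => max 0 (min 1 (φ₁ v)) with hφ
  have hbd : ∀ v, 0 ≤ φ v ∧ φ v ≤ 1 := fun v =>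
    ⟨le_max_left _ _, max_le zero_le_one (min_le_left _ _)⟩
  have hhead : φ (head e) = 1 := by
    have : φ₁ (head e) = 1 := by
      simp only [hφ₁]
      rw [← hd]
      exact div_self hdpos.ne'
    simp [hφ, this]
  have htail : φ (tail e) = 0 := by
    have : φ₁ (tail e) = 0 := by simp [hφ₁]
    simp [hφ, this]
  have hlip : ∀ a b : Vt, (φ a - φ b) ^ 2 ≤ (φ₁ a - φ₁ b) ^ 2 := by
    intro a b
    have h1 : |φ a - φ b| ≤ |φ₁ a - φ₁ b| := by
      have h2 : |min 1 (φ₁ a) - min 1 (φ₁ b)| ≤ |φ₁ a - φ₁ b| := by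
        have := abs_min_sub_min_le_max (1 : ℝ) (φ₁ a) 1 (φ₁ b)
        simpa using this
      have h3 : |max 0 (min 1 (φ₁ a)) - max 0 (min 1 (φ₁ b))| ≤ |min 1 (φ₁ a) - min 1 (φ₁ b)| := by
        have := abs_max_sub_max_le_max (0 : ℝ) (min 1 (φ₁ a)) 0 (min 1 (φ₁ b))
        simpa using this
      exact h3.trans h2
    exact sq_le_sq.2 h1
  have hen1 : ∑ h, c h * (φ₁ (head h) - φ₁ (tail h)) ^ 2 = q / d ^ 2 := by
    have : ∀ h, c h * (φ₁ (head h) - φ₁ (tail h)) ^ 2 = c h * (φ₀ (head h) - φ₀ (tail h)) ^ 2 / d ^ 2 := by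
      intro h
      simp only [hφ₁]
      field_simp
      ring
    simp_rw [this]
    rw [← Finset.sum_div, hen]
  have hup : q * ∑ h, c h * (φ (head h) - φ (tail h)) ^ 2 ≤ c e := by
    have h1 : ∑ h, c h * (φ (head h) - φ (tail h)) ^ 2 ≤ q / d ^ 2 := by
      rw [← hen1]
      exact Finset.sum_le_sum (fun h _ => mul_le_mul_of_nonneg_left (hlip _ _) (hc0 h))
    have h2 : q * (q / d ^ 2) = c e := by
      have h3 : c e = √(c e) ^ 2 := (Real.sq_sqrt (hc0 e)).symm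
      rw [h3, hqd]
      field_simp
    calc q * ∑ h, c h * (φ (head h) - φ (tail h)) ^ 2 ≤ q * (q / d ^ 2) :=
          mul_le_mul_of_nonneg_left h1 hqpos.le
      _ = c e := h2
  have hlow := marg_lower hψ hι head tail r c hc0 e φ
  rw [hhead, htail] at hlow
  refine ⟨φ, hbd, hhead, htail, le_antisymm hup ?_⟩
  have : c e * (1 - 0) ^ 2 = c e := by ring
  rw [this] at hlow
  exact hlow

end Generic

section Graph

open Classical

variable {V : Type u} {G : SimpleGraph V} {W : Finset V} {H : Finset (Sym2 V)}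

/-- The first end of an edge of `H`. -/
noncomputable def hdE (hW : ∀ g ∈ H, ∀ v ∈ g, v ∈ W) (f : {g // g ∈ H}) : ↥(W : Set V) :=
  ⟨(Quot.out f.1).1, hW f.1 f.2 _ (Sym2.out_fst_mem f.1)⟩

/-- The second end of an edge of `H`. -/
noncomputable def tlE (hW : ∀ g ∈ H, ∀ v ∈ g, v ∈ W) (f : {g // g ∈ H}) : ↥(W : Set V) :=
  ⟨(Quot.out f.1).2, hW f.1 f.2 _ (Sym2.out_snd_mem f.1)⟩

theorem mk_hdE_tlE (hW : ∀ g ∈ H, ∀ v ∈ g, v ∈ W) (f : {g // g ∈ H}) :
    s(((hdE hW f : ↥(W : Set V)) : V), ((tlE hW f : ↥(W : Set V)) : V)) = f.1 := by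
  change s((Quot.out f.1).1, (Quot.out f.1).2) = f.1
  rw [Sym2.mk]
  exact Quot.out_eq f.1

theorem hdE_ne_tlE (hG : (H : Set (Sym2 V)) ⊆ G.edgeSet) (hW : ∀ g ∈ H, ∀ v ∈ g, v ∈ W) (f : {g // g ∈ H}) :
    hdE hW f ≠ tlE hW f := by
  intro h
  have h1 := hG f.2
  rw [← mk_hdE_tlE hW f, h] at h1
  simp at h1

/-- The embedding of the edges of `H` into all the unordered pairs. -/
def embE (H : Finset (Sym2 V)) : {g // g ∈ H} ↪ Sym2 V := Function.Embedding.subtype _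

theorem gOf_eq (hW : ∀ g ∈ H, ∀ v ∈ g, v ∈ W) (T : Finset {g // g ∈ H}) :
    gOf (hdE hW) (tlE hW) T
      = (SimpleGraph.fromEdgeSet (((T.map (embE H) : Finset (Sym2 V))) : Set (Sym2 V))).induce (W : Set V) := by
  ext a b
  change (SimpleGraph.fromEdgeSet _).Adj a b ↔ (SimpleGraph.fromEdgeSet _).Adj (a : V) (b : V)
  rw [SimpleGraph.fromEdgeSet_adj, SimpleGraph.fromEdgeSet_adj]
  have hne : a ≠ b ↔ (a : V) ≠ b := Subtype.coe_ne_coe.symm
  rw [hne]
  refine and_congr_left (fun _ => ?_)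
  constructor
  · rintro ⟨f, hf, hfe⟩
    simp only [Finset.coe_map, Set.mem_image, Finset.mem_coe]
    refine ⟨f, hf, ?_⟩
    have h2 := congrArg (Sym2.map (Subtype.val : ↥(W : Set V) → V)) hfe
    simp only [Sym2.map_mk] at h2
    rw [mk_hdE_tlE hW f] at h2
    exact h2
  · intro h
    simp only [Finset.coe_map, Set.mem_image, Finset.mem_coe] at h
    obtain ⟨f, hf, hfe⟩ := h
    refine ⟨f, hf, ?_⟩
    have h2 : s(((hdE hW f : ↥(W : Set V)) : V), ((tlE hW f : ↥(W : Set V)) : V)) = s((a : V), (b : V)) := by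
      rw [mk_hdE_tlE hW f]
      exact hfe
    rw [Sym2.eq_iff] at h2 ⊢
    rcases h2 with ⟨h3, h4⟩ | ⟨h3, h4⟩
    · exact Or.inl ⟨Subtype.ext h3, Subtype.ext h4⟩
    · exact Or.inr ⟨Subtype.ext h3, Subtype.ext h4⟩

theorem sym2_val_inj_edges (hW : ∀ g ∈ H, ∀ v ∈ g, v ∈ W) :
    Function.Injective (fun f : {g // g ∈ H} => s(hdE hW f, tlE hW f)) := by
  intro f f' h
  have h2 := congrArg (Sym2.map (Subtype.val : ↥(W : Set V) → V)) h
  simp only [Sym2.map_mk] at h2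
  rw [mk_hdE_tlE hW f, mk_hdE_tlE hW f'] at h2
  exact Subtype.ext h2

theorem card_edges_gOf (hG : (H : Set (Sym2 V)) ⊆ G.edgeSet) (hW : ∀ g ∈ H, ∀ v ∈ g, v ∈ W)
    (T : Finset {g // g ∈ H}) :
    Nat.card (gOf (hdE hW) (tlE hW) T).edgeSet = T.card := by
  have h1 : (gOf (hdE hW) (tlE hW) T).edgeSet
      = (fun f : {g // g ∈ H} => s(hdE hW f, tlE hW f)) '' (T : Set {g // g ∈ H}) := by
    unfold gOf
    rw [SimpleGraph.edgeSet_fromEdgeSet]
    ext x
    constructor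
    · rintro ⟨h, -⟩
      exact h
    · intro h
      refine ⟨h, ?_⟩
      obtain ⟨f, -, rfl⟩ := h
      simpa using hdE_ne_tlE hG hW f
  rw [h1, Nat.card_coe_set_eq, Set.ncard_image_of_injective _ (sym2_val_inj_edges hW), Set.ncard_coe_finset]

/-- A set of edges of `H` is a spanning tree iff it has the right size and is connected. -/
theorem isSpTree_iff (hG : (H : Set (Sym2 V)) ⊆ G.edgeSet) (hW : ∀ g ∈ H, ∀ v ∈ g, v ∈ W)
    (r : ↥(W : Set V)) (T : Finset {g // g ∈ H}) :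
    IsSpTree W (T.map (embE H)) ↔
      T.card = Fintype.card {v : ↥(W : Set V) // v ≠ r} ∧ (gOf (hdE hW) (tlE hW) T).Connected := by
  have hcard : Fintype.card {v : ↥(W : Set V) // v ≠ r} + 1 = Nat.card ↥(W : Set V) := by
    rw [Nat.card_eq_fintype_card]
    have h1 := Fintype.card_subtype_compl (fun v : ↥(W : Set V) => v = r)
    have h2 := Fintype.card_subtype_eq r
    have h3 : 0 < Fintype.card ↥(W : Set V) := Fintype.card_pos_iff.2 ⟨r⟩
    have h4 : Fintype.card {v : ↥(W : Set V) // v ≠ r} = Fintype.card {x : ↥(W : Set V) // ¬ x = r} := rfl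
    omega
  unfold IsSpTree
  rw [← gOf_eq hW T, SimpleGraph.isTree_iff_connected_and_card, card_edges_gOf hG hW T, ← hcard]
  constructor
  · rintro ⟨-, h1, h2⟩
    exact ⟨by omega, h1⟩
  · rintro ⟨h1, h2⟩
    refine ⟨?_, h2, by omega⟩
    intro g hg v hv
    simp only [Finset.mem_map] at hg
    obtain ⟨f, -, rfl⟩ := hg
    exact hW f.1 f.2 v hv

theorem dW_incC_eq (hG : (H : Set (Sym2 V)) ⊆ G.edgeSet) (hW : ∀ g ∈ H, ∀ v ∈ g, v ∈ W)
    (r : ↥(W : Set V)) (L : Sym2 V → ℝ) (T : Finset {g // g ∈ H}) :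
    dW (incC (hdE hW) (tlE hW) r (fun f => Real.exp (L f.1))) T
      = if IsSpTree W (T.map (embE H)) then wt L (T.map (embE H)) else 0 := by
  rw [dW_incC _ _ _ _ (fun f => (Real.exp_pos _).le)]
  have hwt : ∏ f ∈ T, Real.exp (L f.1) = wt L (T.map (embE H)) := by
    unfold wt
    rw [Finset.sum_map, Real.exp_sum]
    rfl
  by_cases h : T.card = Fintype.card {v : ↥(W : Set V) // v ≠ r}
  · rw [dW_incM _ _ _ (hdE_ne_tlE hG hW) T h, hwt]
    by_cases hc : (gOf (hdE hW) (tlE hW) T).Connected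
    · rw [if_pos hc, if_pos ((isSpTree_iff hG hW r T).2 ⟨h, hc⟩), one_mul]
    · rw [if_neg hc, if_neg (fun h' => hc ((isSpTree_iff hG hW r T).1 h').2), zero_mul]
  · rw [dW_of_not_card _ h, zero_mul, if_neg (fun h' => h ((isSpTree_iff hG hW r T).1 h').1)]

/-- Sums over trees as sums over subsets of the edges of `H`. -/
theorem sum_trees (hG : (H : Set (Sym2 V)) ⊆ G.edgeSet) (hW : ∀ g ∈ H, ∀ v ∈ g, v ∈ W)
    (r : ↥(W : Set V)) (L : Sym2 V → ℝ) (P : Finset (Sym2 V) → Prop) [DecidablePred P] :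
    ∑ T ∈ (trees W H).filter P, wt L T
      = ∑ T ∈ Finset.univ.filter (fun T : Finset {g // g ∈ H} => P (T.map (embE H))),
          dW (incC (hdE hW) (tlE hW) r (fun f => Real.exp (L f.1))) T := by
  simp_rw [dW_incC_eq hG hW r L]
  rw [← Finset.sum_filter]
  symm
  refine Finset.sum_nbij' (fun T => T.map (embE H)) (fun T' => T'.subtype (· ∈ H)) ?_ ?_ ?_ ?_ ?_
  · intro T hT
    simp only [Finset.mem_filter, Finset.mem_univ, true_and] at hT
    simp only [Finset.mem_filter, trees, Finset.mem_powerset]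
    refine ⟨⟨?_, hT.2⟩, hT.1⟩
    intro g hg
    simp only [Finset.mem_map] at hg
    obtain ⟨f, -, rfl⟩ := hg
    exact f.2
  · intro T' hT'
    simp only [Finset.mem_filter, trees, Finset.mem_powerset] at hT'
    have h1 : (T'.subtype (· ∈ H)).map (embE H) = T' :=
      Finset.subtype_map_of_mem (fun x hx => hT'.1.1 hx)
    simp only [Finset.mem_filter, Finset.mem_univ, true_and]
    rw [h1]
    exact ⟨hT'.2, hT'.1.2⟩
  · intro T _
    ext f
    simp [embE]
  · intro T' hT'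
    simp only [Finset.mem_filter, trees, Finset.mem_powerset] at hT'
    exact Finset.subtype_map_of_mem (fun x hx => hT'.1.1 hx)
  · intro T _
    rfl

theorem exists_tree (h : IsFinConn G W H) :
    ∃ T : Finset {g // g ∈ H}, IsSpTree W (T.map (embE H)) := by
  obtain ⟨hG, hW, hc⟩ := h
  obtain ⟨T0, hT0, hT⟩ := hc.exists_isTree_le
  have hgOf : gOf (hdE hW) (tlE hW) (Finset.univ.filter (fun f => T0.Adj (hdE hW f) (tlE hW f))) = T0 := by
    ext a b
    unfold gOf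
    rw [SimpleGraph.fromEdgeSet_adj]
    constructor
    · rintro ⟨⟨f, hf, hfe⟩, -⟩
      simp only [Finset.coe_filter, Finset.mem_univ, true_and, Set.mem_ofPred_eq] at hf
      have h1 : s(a, b) ∈ T0.edgeSet := by
        rw [← hfe]
        exact hf
      exact h1
    · intro hab
      have h1 : ((SimpleGraph.fromEdgeSet (H : Set (Sym2 V))).induce (W : Set V)).Adj a b := hT0 hab
      have h2 : s((a : V), (b : V)) ∈ (H : Set (Sym2 V)) := ((SimpleGraph.fromEdgeSet_adj _).1 h1).1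
      refine ⟨⟨⟨s((a : V), (b : V)), h2⟩, ?_, ?_⟩, hab.ne⟩
      all_goals
        have h3 := mk_hdE_tlE hW ⟨s((a : V), (b : V)), h2⟩
        have h4 : s(hdE hW ⟨s((a : V), (b : V)), h2⟩, tlE hW ⟨s((a : V), (b : V)), h2⟩) = s(a, b) := by
          rw [Sym2.eq_iff] at h3 ⊢
          rcases h3 with ⟨h5, h6⟩ | ⟨h5, h6⟩
          · exact Or.inl ⟨Subtype.ext h5, Subtype.ext h6⟩
          · exact Or.inr ⟨Subtype.ext h5, Subtype.ext h6⟩
      · simp only [Finset.coe_filter, Finset.mem_univ, true_and, Set.mem_ofPred_eq]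
        have h7 : s(hdE hW ⟨s((a : V), (b : V)), h2⟩, tlE hW ⟨s((a : V), (b : V)), h2⟩) ∈ T0.edgeSet := by
          rw [h4]
          exact hab
        exact h7
      · exact h4
  refine ⟨Finset.univ.filter (fun f => T0.Adj (hdE hW f) (tlE hW f)), ?_, ?_⟩
  · intro g hg v hv
    simp only [Finset.mem_map] at hg
    obtain ⟨f, -, rfl⟩ := hg
    exact hW f.1 f.2 v hv
  · rw [← gOf_eq hW, hgOf]
    exact hT

theorem Zw_pos (h : IsFinConn G W H) (L : Sym2 V → ℝ) : 0 < Zw W H L := by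
  obtain ⟨T, hT⟩ := exists_tree h
  unfold Zw
  refine Finset.sum_pos' (fun i _ => (Real.exp_pos _).le) ⟨T.map (embE H), ?_, Real.exp_pos _⟩
  simp only [trees, Finset.mem_filter, Finset.mem_powerset]
  refine ⟨?_, hT⟩
  intro g hg
  simp only [Finset.mem_map] at hg
  obtain ⟨f, -, rfl⟩ := hg
  exact f.2

theorem det_incC_ne (h : IsFinConn G W H) (r : ↥(W : Set V)) (L : Sym2 V → ℝ) :
    ((incC (hdE h.2.1) (tlE h.2.1) r (fun f => Real.exp (L f.1))) *
      (incC (hdE h.2.1) (tlE h.2.1) r (fun f => Real.exp (L f.1)))ᵀ).det ≠ 0 := by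
  rw [det_mul_transpose]
  obtain ⟨T, hT⟩ := exists_tree h
  refine ne_of_gt (Finset.sum_pos' (fun i _ => dW_nonneg _ _) ⟨T, Finset.mem_univ _, ?_⟩)
  rw [dW_incC_eq h.1 h.2.1 r L, if_pos hT]
  exact Real.exp_pos _

/-- The marginal of an edge as the squared norm of a projection. -/
theorem qH_eq_pr (h : IsFinConn G W H) (r : ↥(W : Set V)) (L : Sym2 V → ℝ) {g : Sym2 V} (hg : g ∈ H) :
    qH W H L {g} = ‖pr (rowSpan (fun f : {g // g ∈ H} => EuclideanSpace.single f (1 : ℝ)) id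
        (incC (hdE h.2.1) (tlE h.2.1) r (fun f => Real.exp (L f.1))))
        (EuclideanSpace.single (⟨g, hg⟩ : {g // g ∈ H}) (1 : ℝ))‖ ^ 2 := by
  have hb := base_lemma (fun f : {g // g ∈ H} => EuclideanSpace.single f (1 : ℝ))
    EuclideanSpace.orthonormal_single id Function.injective_id
    (incC (hdE h.2.1) (tlE h.2.1) r (fun f => Real.exp (L f.1))) ⟨g, hg⟩ (det_incC_ne h r L)
  have hZ : Zw W H L = ∑ T, dW (incC (hdE h.2.1) (tlE h.2.1) r (fun f => Real.exp (L f.1))) T := by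
    have := sum_trees h.1 h.2.1 r L (fun _ => True)
    simpa [Zw] using this
  have hN : ∑ T ∈ (trees W H).filter (fun T => ({g} : Finset (Sym2 V)) ⊆ T), wt L T
      = ∑ T ∈ Finset.univ.filter (fun T : Finset {g // g ∈ H} => (⟨g, hg⟩ : {g // g ∈ H}) ∈ T),
          dW (incC (hdE h.2.1) (tlE h.2.1) r (fun f => Real.exp (L f.1))) T := by
    rw [sum_trees h.1 h.2.1 r L]
    refine Finset.sum_congr (Finset.filter_congr (fun T _ => ?_)) (fun _ _ => rfl)
    simp only [embE, Finset.singleton_subset_iff, Finset.mem_map, Function.Embedding.subtype_apply, Subtype.exists, exists_and_right, exists_eq_right]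
    exact ⟨fun ⟨_, h⟩ => h, fun h => ⟨hg, h⟩⟩
  have hZpos := Zw_pos h L
  unfold qH
  rw [hN, hb, ← hZ]
  simp only [id]
  field_simp

theorem enF_eq (hW : ∀ g ∈ H, ∀ v ∈ g, v ∈ W) (L : Sym2 V → ℝ) (f : V → ℝ) :
    enF H L f = ∑ h : {g // g ∈ H}, Real.exp (L h.1) *
      ((f ∘ Subtype.val) (hdE hW h) - (f ∘ Subtype.val) (tlE hW h)) ^ 2 := by
  unfold enF
  rw [← Finset.sum_coe_sort H]
  refine Finset.sum_congr rfl (fun h _ => ?_)
  congr 1
  conv_lhs => rw [← mk_hdE_tlE hW h]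
  rfl

theorem gradSq_eq (hW : ∀ g ∈ H, ∀ v ∈ g, v ∈ W) (f : V → ℝ) (h : {g // g ∈ H}) :
    gradSq f h.1 = ((f ∘ Subtype.val) (hdE hW h) - (f ∘ Subtype.val) (tlE hW h)) ^ 2 := by
  conv_lhs => rw [← mk_hdE_tlE hW h]
  rfl

theorem qH_lower (h : IsFinConn G W H) (L : Sym2 V → ℝ) {g : Sym2 V} (hg : g ∈ H) (f : V → ℝ) :
    Real.exp (L g) * gradSq f g ≤ qH W H L {g} * enF H L f := by
  obtain ⟨r⟩ := h.2.2.nonempty
  rw [qH_eq_pr h r L hg, enF_eq h.2.1]
  have := marg_lower (H := EuclideanSpace ℝ {g // g ∈ H}) (ψ := fun f : {g // g ∈ H} => EuclideanSpace.single f (1 : ℝ))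
    EuclideanSpace.orthonormal_single Function.injective_id (hdE h.2.1) (tlE h.2.1) r
    (fun f => Real.exp (L f.1)) (fun f => (Real.exp_pos _).le) ⟨g, hg⟩ (f ∘ Subtype.val)
  have h2 : gradSq f g = ((f ∘ Subtype.val) (hdE h.2.1 ⟨g, hg⟩) - (f ∘ Subtype.val) (tlE h.2.1 ⟨g, hg⟩)) ^ 2 :=
    gradSq_eq h.2.1 f ⟨g, hg⟩
  rw [h2]
  exact this

theorem qH_attain (h : IsFinConn G W H) (L : Sym2 V → ℝ) {g : Sym2 V} (hg : g ∈ H) :
    ∃ f ∈ KK g, qH W H L {g} * enF H L f = Real.exp (L g) := by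
  obtain ⟨r⟩ := h.2.2.nonempty
  obtain ⟨φ, hφ, h1, h0, he⟩ := marg_attain (H := EuclideanSpace ℝ {g // g ∈ H}) (ψ := fun f : {g // g ∈ H} => EuclideanSpace.single f (1 : ℝ))
    EuclideanSpace.orthonormal_single Function.injective_id
    (hdE h.2.1) (tlE h.2.1) r
    (fun f => Real.exp (L f.1)) (fun f => Real.exp_pos _) ⟨g, hg⟩ (hdE_ne_tlE h.1 h.2.1 _)
  have hφe : ((fun v => if hv : v ∈ (W : Set V) then φ ⟨v, hv⟩ else 0) ∘ Subtype.val : ↥(W : Set V) → ℝ) = φ := by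
    funext a
    simp only [Function.comp]
    rw [dif_pos a.2]
  refine ⟨fun v => if hv : v ∈ (W : Set V) then φ ⟨v, hv⟩ else 0, ⟨?_, ?_⟩, ?_⟩
  · intro v
    by_cases hv : v ∈ (W : Set V)
    · simp only [dif_pos hv]
      exact hφ _
    · simp only [dif_neg hv]
      exact ⟨le_rfl, zero_le_one⟩
  · have h2 : ∀ f : V → ℝ, gradSq f g = ((f ∘ Subtype.val) (hdE h.2.1 ⟨g, hg⟩) - (f ∘ Subtype.val) (tlE h.2.1 ⟨g, hg⟩)) ^ 2 :=
      fun f => gradSq_eq h.2.1 f ⟨g, hg⟩
    rw [h2, hφe, h1, h0]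
    ring
  · rw [qH_eq_pr h r L hg, enF_eq h.2.1, hφe]
    exact he

end Graph

end Vale.Agent.Lib.P143L
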