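import Vale.Agent.Lib.P143L.Bridge

/-!
Capacities of finite edge sets, the free capacity, and the marginals of the free forest: bounds, odds,
continuity on boxes, invariance under relabelling, measurability.
-/

namespace Vale.Agent.Lib.P143L

open MeasureTheory Filter Topology
open scoped ENNReal

universe u

variable {V : Type u}

theorem gradSq_mk (f : V → ℝ) (a b : V) : gradSq f s(a, b) = (f a - f b) ^ 2 := rfl

theorem gradSq_nonneg (f : V → ℝ) (g : Sym2 V) : 0 ≤ gradSq f g := by
  induction g using Sym2.ind with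
  | _ a b => rw [gradSq_mk]; positivity

theorem enF_nonneg (F : Finset (Sym2 V)) (L : Sym2 V → ℝ) (f : V → ℝ) : 0 ≤ enF F L f :=
  Finset.sum_nonneg fun g _ => mul_nonneg (Real.exp_pos _).le (gradSq_nonneg f g)

theorem enF_mono {F F' : Finset (Sym2 V)} (h : F ⊆ F') (L : Sym2 V → ℝ) (f : V → ℝ) :
    enF F L f ≤ enF F' L f :=
  Finset.sum_le_sum_of_subset_of_nonneg h fun g _ _ => mul_nonneg (Real.exp_pos _).le (gradSq_nonneg f g)

theorem capF_nonneg (F : Finset (Sym2 V)) (L : Sym2 V → ℝ) (g : Sym2 V) : 0 ≤ capF F L g := by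
  refine Real.sInf_nonneg ?_
  rintro _ ⟨f, -, rfl⟩
  exact enF_nonneg F L f

theorem capF_le (F : Finset (Sym2 V)) (L : Sym2 V → ℝ) {g : Sym2 V} {f : V → ℝ} (hf : f ∈ KK g) :
    capF F L g ≤ enF F L f := by
  refine csInf_le ⟨0, ?_⟩ ⟨f, hf, rfl⟩
  rintro _ ⟨f, -, rfl⟩
  exact enF_nonneg F L f

theorem le_capF (F : Finset (Sym2 V)) (L : Sym2 V → ℝ) {g : Sym2 V} (hne : (KK g).Nonempty) {c : ℝ}
    (h : ∀ f ∈ KK g, c ≤ enF F L f) : c ≤ capF F L g := by
  refine le_csInf (hne.image _) ?_
  rintro _ ⟨f, hf, rfl⟩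
  exact h f hf

open Classical in
/-- The indicator of a vertex. -/
noncomputable def indV (a : V) : V → ℝ := fun v => if v = a then 1 else 0

theorem indV_mem (a : V) (v : V) : 0 ≤ indV a v ∧ indV a v ≤ 1 := by
  unfold indV
  split_ifs <;> norm_num

theorem indV_KK {a b : V} (h : a ≠ b) : indV a ∈ KK s(a, b) := by
  refine ⟨indV_mem a, ?_⟩
  rw [gradSq_mk]
  simp [indV, h.symm]

theorem KK_nonempty {g : Sym2 V} (hg : ¬ g.IsDiag) : (KK g).Nonempty := by
  induction g using Sym2.ind with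
  | _ a b =>
    have hab : a ≠ b := by simpa using hg
    exact ⟨_, indV_KK hab⟩

theorem capF_mono {F F' : Finset (Sym2 V)} (h : F ⊆ F') (L : Sym2 V → ℝ) {g : Sym2 V}
    (hg : ¬ g.IsDiag) : capF F L g ≤ capF F' L g := by
  refine le_capF F' L (KK_nonempty hg) fun f hf => ?_
  exact (capF_le F L hf).trans (enF_mono h L f)

open Classical in
theorem enF_insert {F : Finset (Sym2 V)} (L : Sym2 V → ℝ) {g : Sym2 V} (hg : g ∉ F) {f : V → ℝ}
    (hf : f ∈ KK g) : enF (insert g F) L f = Real.exp (L g) + enF F L f := by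
  unfold enF
  rw [Finset.sum_insert hg, hf.2, mul_one]

open Classical in
theorem capF_insert {F : Finset (Sym2 V)} (L : Sym2 V → ℝ) {g : Sym2 V} (hgF : g ∉ F)
    (hg : ¬ g.IsDiag) : capF (insert g F) L g = Real.exp (L g) + capF F L g := by
  apply le_antisymm
  · have : capF (insert g F) L g - Real.exp (L g) ≤ capF F L g := by
      refine le_capF F L (KK_nonempty hg) fun f hf => ?_
      have := capF_le (insert g F) L hf
      rw [enF_insert L hgF hf] at this
      linarith
    linarith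
  · refine le_capF _ L (KK_nonempty hg) fun f hf => ?_
    rw [enF_insert L hgF hf]
    linarith [capF_le F L hf]

theorem enF_scale (F : Finset (Sym2 V)) {L L' : Sym2 V → ℝ} {a : ℝ} (h : ∀ h' ∈ F, |L h' - L' h'| ≤ a)
    (f : V → ℝ) : enF F L f ≤ Real.exp a * enF F L' f := by
  unfold enF
  rw [Finset.mul_sum]
  refine Finset.sum_le_sum fun g hg => ?_
  rw [← mul_assoc, ← Real.exp_add]
  refine mul_le_mul_of_nonneg_right (Real.exp_le_exp.2 ?_) (gradSq_nonneg f g)
  have := abs_le.1 (h g hg)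
  linarith [this.2]

theorem capF_scale (F : Finset (Sym2 V)) {L L' : Sym2 V → ℝ} {a : ℝ} (h : ∀ h' ∈ F, |L h' - L' h'| ≤ a)
    {g : Sym2 V} (hg : ¬ g.IsDiag) : capF F L g ≤ Real.exp a * capF F L' g := by
  have hpos := Real.exp_pos a
  have : capF F L g / Real.exp a ≤ capF F L' g := by
    refine le_capF F L' (KK_nonempty hg) fun f hf => ?_
    rw [div_le_iff₀' hpos]
    exact (capF_le F L hf).trans (enF_scale F h f)
  rw [div_le_iff₀' hpos] at this
  exact this

theorem continuous_gradSq (g : Sym2 V) : Continuous (fun f : V → ℝ => gradSq f g) := by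
  induction g using Sym2.ind with
  | _ a b =>
    simp only [gradSq_mk]
    fun_prop

theorem continuous_enF (F : Finset (Sym2 V)) (L : Sym2 V → ℝ) : Continuous (enF F L) := by
  unfold enF
  exact continuous_finsetSum _ fun g _ => continuous_const.mul (continuous_gradSq g)

theorem isCompact_KK (g : Sym2 V) : IsCompact (KK g) := by
  have h1 : IsCompact (Set.pi Set.univ (fun _ : V => Set.Icc (0 : ℝ) 1)) :=
    isCompact_univ_pi fun _ => isCompact_Icc
  have h2 : IsClosed {f : V → ℝ | gradSq f g = 1} :=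
    isClosed_eq (continuous_gradSq g) continuous_const
  have : KK g = Set.pi Set.univ (fun _ : V => Set.Icc (0 : ℝ) 1) ∩ {f : V → ℝ | gradSq f g = 1} := by
    ext f
    simp only [KK, Set.mem_ofPred_eq, Set.mem_inter_iff, Set.mem_pi, Set.mem_univ, true_imp_iff, Set.mem_Icc]
  rw [this]
  exact h1.inter_right h2

theorem exists_min (F : Finset (Sym2 V)) (L : Sym2 V → ℝ) {g : Sym2 V} (hg : ¬ g.IsDiag) :
    ∃ f ∈ KK g, enF F L f = capF F L g := by
  obtain ⟨f, hf, hmin⟩ := (isCompact_KK g).exists_isMinOn (KK_nonempty hg)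
    (continuous_enF F L).continuousOn
  refine ⟨f, hf, le_antisymm ?_ (capF_le F L hf)⟩
  refine le_capF F L ⟨f, hf⟩ fun f' hf' => hmin hf'

theorem capF_singleton (L : Sym2 V → ℝ) {g : Sym2 V} (hg : ¬ g.IsDiag) :
    capF {g} L g = Real.exp (L g) := by
  classical
  have := capF_insert (F := ∅) L (g := g) (by simp) hg
  have h0 : capF (∅ : Finset (Sym2 V)) L g = 0 := by
    apply le_antisymm
    · obtain ⟨f, hf⟩ := KK_nonempty hg
      simpa [enF] using capF_le ∅ L hf
    · exact capF_nonneg _ _ _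
  simpa [h0] using this

/-- The sum of conductances at a vertex. -/
noncomputable def locBd {G : SimpleGraph V} (hl : ∀ v, (G.neighborSet v).Finite) (L : Sym2 V → ℝ) (a : V) : ℝ :=
  ∑ b ∈ (hl a).toFinset, Real.exp (L s(a, b))

theorem gradSq_indV_le (a : V) (h : Sym2 V) : gradSq (indV a) h ≤ 1 := by
  induction h using Sym2.ind with
  | _ x y =>
    rw [gradSq_mk]
    have hx := indV_mem a x
    have hy := indV_mem a y
    nlinarith [hx.1, hx.2, hy.1, hy.2]

theorem gradSq_indV_zero {a : V} {h : Sym2 V} (hh : a ∉ h) : gradSq (indV a) h = 0 := by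
  induction h using Sym2.ind with
  | _ x y =>
    rw [gradSq_mk]
    simp only [Sym2.mem_iff, not_or] at hh
    have hx : x ≠ a := fun e => hh.1 e.symm
    have hy : y ≠ a := fun e => hh.2 e.symm
    simp [indV, hx, hy]

open Classical in
theorem enF_indV_le {G : SimpleGraph V} (hl : ∀ v, (G.neighborSet v).Finite) (L : Sym2 V → ℝ) (a : V)
    {F : Finset (Sym2 V)} (hF : (F : Set (Sym2 V)) ⊆ G.edgeSet) : enF F L (indV a) ≤ locBd hl L a := by
  unfold enF locBd
  set I : Finset (Sym2 V) := (hl a).toFinset.image (fun b => s(a, b)) with hI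
  have h1 : ∑ h ∈ F, Real.exp (L h) * gradSq (indV a) h
      = ∑ h ∈ F ∩ I, Real.exp (L h) * gradSq (indV a) h := by
    symm
    refine Finset.sum_subset Finset.inter_subset_left fun h hF' hnot => ?_
    have hah : a ∉ h := by
      intro hah
      apply hnot
      refine Finset.mem_inter.2 ⟨hF', ?_⟩
      obtain ⟨b, rfl⟩ := (Sym2.mem_iff_exists.1 hah)
      have hadj : G.Adj a b := hF hF'
      exact Finset.mem_image.2 ⟨b, by simpa using hadj, rfl⟩
    rw [gradSq_indV_zero hah, mul_zero]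
  rw [h1]
  calc ∑ h ∈ F ∩ I, Real.exp (L h) * gradSq (indV a) h
      ≤ ∑ h ∈ F ∩ I, Real.exp (L h) := by
        refine Finset.sum_le_sum fun h _ => ?_
        nlinarith [Real.exp_pos (L h), gradSq_indV_le a h]
    _ ≤ ∑ h ∈ I, Real.exp (L h) :=
        Finset.sum_le_sum_of_subset_of_nonneg Finset.inter_subset_right
          fun h _ _ => (Real.exp_pos _).le
    _ = ∑ b ∈ (hl a).toFinset, Real.exp (L s(a, b)) := by
        rw [hI, Finset.sum_image]
        intro x _ y _ hxy
        simpa using (Sym2.congr_right.1 hxy)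

/-- A bound on capacities in the locally finite graph `G`. -/
theorem capF_bdd {G : SimpleGraph V} (hl : ∀ v, (G.neighborSet v).Finite) (L : Sym2 V → ℝ) {g : Sym2 V}
    (hg : g ∈ G.edgeSet) {F : Finset (Sym2 V)} (hF : (F : Set (Sym2 V)) ⊆ G.edgeSet) :
    capF F L g ≤ Sym2.lift ⟨fun a b => locBd hl L a + locBd hl L b, fun _ _ => add_comm _ _⟩ g := by
  induction g using Sym2.ind with
  | _ a b =>
    have hab : a ≠ b := G.ne_of_adj hg
    simp only [Sym2.lift_mk]
    have h1 := capF_le F L (indV_KK hab)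
    have h2 := enF_indV_le hl L a hF
    have h3 : 0 ≤ locBd hl L b := Finset.sum_nonneg fun _ _ => (Real.exp_pos _).le
    linarith

theorem capG_bddAbove {G : SimpleGraph V} (hl : ∀ v, (G.neighborSet v).Finite) (L : Sym2 V → ℝ)
    {g : Sym2 V} (hg : g ∈ G.edgeSet) :
    BddAbove (Set.range fun F : {F : Finset (Sym2 V) // (F : Set (Sym2 V)) ⊆ G.edgeSet} => capF F.1 L g) := by
  refine ⟨Sym2.lift ⟨fun a b => locBd hl L a + locBd hl L b, fun _ _ => add_comm _ _⟩ g, ?_⟩
  rintro _ ⟨F, rfl⟩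
  exact capF_bdd hl L hg F.2

theorem le_capG {G : SimpleGraph V} (hl : ∀ v, (G.neighborSet v).Finite) (L : Sym2 V → ℝ)
    {g : Sym2 V} (hg : g ∈ G.edgeSet) {F : Finset (Sym2 V)} (hF : (F : Set (Sym2 V)) ⊆ G.edgeSet) :
    capF F L g ≤ capG G L g :=
  le_ciSup (capG_bddAbove hl L hg) (⟨F, hF⟩ : {F : Finset (Sym2 V) // (F : Set (Sym2 V)) ⊆ G.edgeSet})

theorem capG_le {G : SimpleGraph V} (L : Sym2 V → ℝ) {g : Sym2 V} {c : ℝ}
    (h : ∀ F : Finset (Sym2 V), (F : Set (Sym2 V)) ⊆ G.edgeSet → capF F L g ≤ c) : capG G L g ≤ c := by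
  have : Nonempty {F : Finset (Sym2 V) // (F : Set (Sym2 V)) ⊆ G.edgeSet} :=
    ⟨⟨∅, by simp⟩⟩
  exact ciSup_le fun F => h F.1 F.2

theorem singleton_sub {G : SimpleGraph V} {g : Sym2 V} (hg : g ∈ G.edgeSet) :
    (({g} : Finset (Sym2 V)) : Set (Sym2 V)) ⊆ G.edgeSet := by
  simpa using hg

theorem exp_le_capG {G : SimpleGraph V} (hl : ∀ v, (G.neighborSet v).Finite) (L : Sym2 V → ℝ)
    {g : Sym2 V} (hg : g ∈ G.edgeSet) : Real.exp (L g) ≤ capG G L g := by
  have := le_capG hl L hg (singleton_sub hg)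
  rwa [capF_singleton L (G.not_isDiag_of_mem_edgeSet hg)] at this

theorem capG_pos {G : SimpleGraph V} (hl : ∀ v, (G.neighborSet v).Finite) (L : Sym2 V → ℝ)
    {g : Sym2 V} (hg : g ∈ G.edgeSet) : 0 < capG G L g :=
  (Real.exp_pos _).trans_le (exp_le_capG hl L hg)

theorem mG_of_mem {G : SimpleGraph V} (L : Sym2 V → ℝ) {g : Sym2 V} (hg : g ∈ G.edgeSet) :
    mG G L g = Real.exp (L g) / capG G L g := by
  unfold mG
  rw [if_pos hg]

theorem mG_of_not_mem {G : SimpleGraph V} (L : Sym2 V → ℝ) {g : Sym2 V} (hg : g ∉ G.edgeSet) :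
    mG G L g = 0 := by
  unfold mG
  rw [if_neg hg]

theorem mG_mem {G : SimpleGraph V} (hl : ∀ v, (G.neighborSet v).Finite) (L : Sym2 V → ℝ) (g : Sym2 V) :
    0 ≤ mG G L g ∧ mG G L g ≤ 1 := by
  by_cases hg : g ∈ G.edgeSet
  · rw [mG_of_mem L hg]
    have hp := capG_pos hl L hg
    refine ⟨(div_pos (Real.exp_pos _) hp).le, ?_⟩
    rw [div_le_one hp]
    exact exp_le_capG hl L hg
  · rw [mG_of_not_mem L hg]
    exact ⟨le_rfl, zero_le_one⟩

/-- The capacity without the edge itself scales. -/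
theorem capG_sub_le {G : SimpleGraph V} (hl : ∀ v, (G.neighborSet v).Finite) {L L' : Sym2 V → ℝ} {a : ℝ}
    (h : ∀ g', |L g' - L' g'| ≤ a) {g : Sym2 V} (hg : g ∈ G.edgeSet) :
    capG G L g - Real.exp (L g) ≤ Real.exp a * (capG G L' g - Real.exp (L' g)) := by
  classical
  have hdiag := G.not_isDiag_of_mem_edgeSet hg
  have key : capG G L g ≤ Real.exp (L g) + Real.exp a * (capG G L' g - Real.exp (L' g)) := by
    refine capG_le L fun F hF => ?_
    set F₁ := F.erase g with hF₁
    have hgF₁ : g ∉ F₁ := Finset.notMem_erase _ _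
    have hF₁sub : F ⊆ insert g F₁ := by
      intro x hx
      by_cases hxg : x = g
      · subst hxg; exact Finset.mem_insert_self _ _
      · exact Finset.mem_insert_of_mem (Finset.mem_erase.2 ⟨hxg, hx⟩)
    have h1 : capF F L g ≤ capF (insert g F₁) L g := capF_mono hF₁sub L hdiag
    rw [capF_insert L hgF₁ hdiag] at h1
    have h2 : capF F₁ L g ≤ Real.exp a * capF F₁ L' g := capF_scale F₁ (fun h' _ => h h') hdiag
    have hsub : ((insert g F₁ : Finset (Sym2 V)) : Set (Sym2 V)) ⊆ G.edgeSet := by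
      intro x hx
      have hx' : x ∈ insert g F₁ := by simpa using hx
      rcases Finset.mem_insert.1 hx' with rfl | hx'
      · exact hg
      · exact hF (Finset.mem_of_mem_erase hx')
    have h3 := le_capG hl L' hg hsub
    rw [capF_insert L' hgF₁ hdiag] at h3
    have h4 : capF F₁ L' g ≤ capG G L' g - Real.exp (L' g) := by linarith
    have h5 := mul_le_mul_of_nonneg_left h4 (Real.exp_pos a).le
    linarith
  linarith

theorem mG_odds {G : SimpleGraph V} (hl : ∀ v, (G.neighborSet v).Finite) (L L' : Sym2 V → ℝ) (a : ℝ)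
    (g : Sym2 V) (h : ∀ g', |L g' - L' g'| ≤ a) :
    mG G L' g * (1 - mG G L g) ≤ Real.exp (2 * a) * (mG G L g * (1 - mG G L' g)) := by
  by_cases hg : g ∈ G.edgeSet
  · rw [mG_of_mem L hg, mG_of_mem L' hg]
    have hp := capG_pos hl L hg
    have hp' := capG_pos hl L' hg
    have h1 : capG G L g - Real.exp (L g) ≤ Real.exp a * (capG G L' g - Real.exp (L' g)) :=
      capG_sub_le hl h hg
    have h0 : 0 ≤ capG G L g - Real.exp (L g) := by linarith [exp_le_capG hl L hg]
    have h0' : 0 ≤ capG G L' g - Real.exp (L' g) := by linarith [exp_le_capG hl L' hg]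
    have h2 : Real.exp (L' g) ≤ Real.exp a * Real.exp (L g) := by
      rw [← Real.exp_add]
      refine Real.exp_le_exp.2 ?_
      have := abs_le.1 (h g)
      linarith [this.1]
    have e1 : Real.exp (L' g) / capG G L' g * (1 - Real.exp (L g) / capG G L g)
        = Real.exp (L' g) * (capG G L g - Real.exp (L g)) / (capG G L g * capG G L' g) := by
      field_simp
    have e2 : Real.exp (L g) / capG G L g * (1 - Real.exp (L' g) / capG G L' g)
        = Real.exp (L g) * (capG G L' g - Real.exp (L' g)) / (capG G L g * capG G L' g) := by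
      field_simp
    rw [e1, e2, ← mul_div_assoc]
    refine div_le_div_of_nonneg_right ?_ (mul_pos hp hp').le
    have e3 : Real.exp (2 * a) = Real.exp a * Real.exp a := by
      rw [← Real.exp_add]; congr 1; ring
    rw [e3]
    calc Real.exp (L' g) * (capG G L g - Real.exp (L g))
        ≤ (Real.exp a * Real.exp (L g)) * (Real.exp a * (capG G L' g - Real.exp (L' g))) :=
          mul_le_mul h2 h1 h0 (mul_nonneg (Real.exp_pos a).le (Real.exp_pos _).le)
      _ = Real.exp a * Real.exp a * (Real.exp (L g) * (capG G L' g - Real.exp (L' g))) := by ring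
  · rw [mG_of_not_mem L hg, mG_of_not_mem L' hg]
    simp

theorem capF_empty (L : Sym2 V → ℝ) (g : Sym2 V) : capF ∅ L g = 0 := by
  rcases (KK g).eq_empty_or_nonempty with h | ⟨f, hf⟩
  · unfold capF
    rw [h, Set.image_empty, Real.sInf_empty]
  · apply le_antisymm
    · simpa [enF] using capF_le ∅ L hf
    · exact capF_nonneg _ _ _

theorem KK_diag {g : Sym2 V} (hg : g.IsDiag) : KK g = ∅ := by
  induction g using Sym2.ind with
  | _ a b =>
    have hab : a = b := by simpa using hg
    subst hab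
    ext f
    simp [KK, gradSq_mk]

theorem capF_diag (F : Finset (Sym2 V)) (L : Sym2 V → ℝ) {g : Sym2 V} (hg : g.IsDiag) : capF F L g = 0 := by
  unfold capF
  rw [KK_diag hg, Set.image_empty, Real.sInf_empty]

theorem continuous_capF (F : Finset (Sym2 V)) (g : Sym2 V) : Continuous (fun L : Sym2 V → ℝ => capF F L g) := by
  by_cases hg : g.IsDiag
  · simp only [capF_diag F _ hg]
    exact continuous_const
  rw [continuous_iff_continuousAt]
  intro L₀
  have hc : Continuous (fun L : Sym2 V → ℝ => ∑ h ∈ F, |L h - L₀ h|) :=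
    continuous_finsetSum _ fun h _ => (((continuous_apply h).sub continuous_const)).abs
  have ha0 : (∑ h ∈ F, |L₀ h - L₀ h|) = 0 := by simp
  have hle : ∀ (L : Sym2 V → ℝ), ∀ h ∈ F, |L h - L₀ h| ≤ ∑ h ∈ F, |L h - L₀ h| := fun L h hh =>
    Finset.single_le_sum (f := fun h => |L h - L₀ h|) (fun _ _ => abs_nonneg _) hh
  have hle' : ∀ (L : Sym2 V → ℝ), ∀ h ∈ F, |L₀ h - L h| ≤ ∑ h ∈ F, |L h - L₀ h| := fun L h hh => by
    rw [abs_sub_comm]; exact hle L h hh
  have hup : ∀ L : Sym2 V → ℝ, capF F L g ≤ Real.exp (∑ h ∈ F, |L h - L₀ h|) * capF F L₀ g :=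
    fun L => capF_scale F (hle L) hg
  have hlo : ∀ L : Sym2 V → ℝ, Real.exp (-(∑ h ∈ F, |L h - L₀ h|)) * capF F L₀ g ≤ capF F L g := by
    intro L
    have := capF_scale F (hle' L) hg
    rw [Real.exp_neg, inv_mul_le_iff₀ (Real.exp_pos _)]
    exact this
  have hT1 : Tendsto (fun L : Sym2 V → ℝ => Real.exp (∑ h ∈ F, |L h - L₀ h|) * capF F L₀ g) (𝓝 L₀)
      (𝓝 (capF F L₀ g)) := by
    have : Continuous (fun L : Sym2 V → ℝ => Real.exp (∑ h ∈ F, |L h - L₀ h|) * capF F L₀ g) :=
      (Real.continuous_exp.comp hc).mul continuous_const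
    have h2 := this.tendsto L₀
    simpa [ha0] using h2
  have hT2 : Tendsto (fun L : Sym2 V → ℝ => Real.exp (-(∑ h ∈ F, |L h - L₀ h|)) * capF F L₀ g) (𝓝 L₀)
      (𝓝 (capF F L₀ g)) := by
    have : Continuous (fun L : Sym2 V → ℝ => Real.exp (-(∑ h ∈ F, |L h - L₀ h|)) * capF F L₀ g) :=
      (Real.continuous_exp.comp hc.neg).mul continuous_const
    have h2 := this.tendsto L₀
    simpa [ha0] using h2
  exact tendsto_of_tendsto_of_tendsto_of_le_of_le hT2 hT1 hlo hup

/-- A potential with all finite energies bounded by the free capacity. -/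
theorem exists_global {G : SimpleGraph V} (hl : ∀ v, (G.neighborSet v).Finite) (L : Sym2 V → ℝ) {g : Sym2 V}
    (hg : g ∈ G.edgeSet) :
    ∃ f ∈ KK g, ∀ F : Finset (Sym2 V), (F : Set (Sym2 V)) ⊆ G.edgeSet → enF F L f ≤ capG G L g := by
  classical
  have hdiag := G.not_isDiag_of_mem_edgeSet hg
  let ι := {F : Finset (Sym2 V) // (F : Set (Sym2 V)) ⊆ G.edgeSet}
  have hne := (isCompact_KK g).inter_iInter_nonempty (fun F : ι => {f : V → ℝ | enF F.1 L f ≤ capG G L g})
    (fun F => isClosed_le (continuous_enF F.1 L) continuous_const) ?_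
  · obtain ⟨f, hf, hall⟩ := hne
    refine ⟨f, hf, fun F hF => ?_⟩
    have := Set.mem_iInter.1 hall ⟨F, hF⟩
    exact this
  · intro u
    set F₀ : Finset (Sym2 V) := u.biUnion (fun F => F.1) with hF₀
    have hF₀sub : (F₀ : Set (Sym2 V)) ⊆ G.edgeSet := by
      intro x hx
      have hx' : x ∈ F₀ := by simpa using hx
      obtain ⟨F, -, hxF⟩ := Finset.mem_biUnion.1 hx'
      exact F.2 hxF
    obtain ⟨f, hf, hfe⟩ := exists_min F₀ L hdiag
    refine ⟨f, hf, ?_⟩
    refine Set.mem_iInter₂.2 fun F hF => ?_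
    have h1 : enF F.1 L f ≤ enF F₀ L f := enF_mono (Finset.subset_biUnion_of_mem (fun F : ι => F.1) hF) L f
    have h2 : enF F₀ L f ≤ capG G L g := by rw [hfe]; exact le_capG hl L hg hF₀sub
    exact h1.trans h2

theorem capG_contOn {G : SimpleGraph V} (hl : ∀ v, (G.neighborSet v).Finite) {g : Sym2 V} (hg : g ∈ G.edgeSet)
    (R : ℝ) : ContinuousOn (fun L : Sym2 V → ℝ => capG G L g) {L | ∀ g', |L g'| ≤ R} := by
  classical
  intro L₀ hL₀
  have hL₀' : ∀ g', |L₀ g'| ≤ R := hL₀
  obtain ⟨f₀, hf₀, hen⟩ := exists_global hl L₀ hg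
  set term : (Sym2 V → ℝ) → G.edgeSet → ℝ := fun L h => Real.exp (L h.1) * gradSq f₀ h.1 with hterm
  set bound : G.edgeSet → ℝ := fun h => Real.exp R * gradSq f₀ h.1 with hbound
  have hsumeq : ∀ (L : Sym2 V → ℝ) (u : Finset G.edgeSet),
      ∑ h ∈ u, term L h = enF (u.map (Function.Embedding.subtype _)) L f₀ := by
    intro L u
    unfold enF
    rw [Finset.sum_map]
    rfl
  have hsub : ∀ u : Finset G.edgeSet,
      ((u.map (Function.Embedding.subtype _) : Finset (Sym2 V)) : Set (Sym2 V)) ⊆ G.edgeSet := by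
    intro u x hx
    have hx' : x ∈ u.map (Function.Embedding.subtype _) := by simpa using hx
    obtain ⟨y, -, rfl⟩ := Finset.mem_map.1 hx'
    exact y.2
  have hbn : 0 ≤ bound := fun h => mul_nonneg (Real.exp_pos _).le (gradSq_nonneg _ _)
  have hsb : ∀ u : Finset G.edgeSet, ∑ h ∈ u, bound h ≤ Real.exp (2 * R) * capG G L₀ g := by
    intro u
    have h1 : ∑ h ∈ u, bound h ≤ ∑ h ∈ u, Real.exp (2 * R) * term L₀ h := by
      refine Finset.sum_le_sum fun h _ => ?_
      simp only [hbound, hterm]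
      rw [← mul_assoc, ← Real.exp_add]
      refine mul_le_mul_of_nonneg_right (Real.exp_le_exp.2 ?_) (gradSq_nonneg _ _)
      have := abs_le.1 (hL₀' h.1)
      linarith [this.1]
    calc ∑ h ∈ u, bound h ≤ ∑ h ∈ u, Real.exp (2 * R) * term L₀ h := h1
      _ = Real.exp (2 * R) * ∑ h ∈ u, term L₀ h := (Finset.mul_sum _ _ _).symm
      _ = Real.exp (2 * R) * enF (u.map (Function.Embedding.subtype _)) L₀ f₀ := by rw [hsumeq]
      _ ≤ Real.exp (2 * R) * capG G L₀ g :=
        mul_le_mul_of_nonneg_left (hen _ (hsub u)) (Real.exp_pos _).le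
  have hsum : Summable bound := summable_of_sum_le hbn hsb
  have hterm_nonneg : ∀ L h, 0 ≤ term L h := fun L h => mul_nonneg (Real.exp_pos _).le (gradSq_nonneg _ _)
  have hbd : ∀ L : Sym2 V → ℝ, (∀ g', |L g'| ≤ R) → ∀ h, term L h ≤ bound h := by
    intro L hL h
    refine mul_le_mul_of_nonneg_right (Real.exp_le_exp.2 ?_) (gradSq_nonneg _ _)
    exact (abs_le.1 (hL h.1)).2
  have hsumm : ∀ L : Sym2 V → ℝ, (∀ g', |L g'| ≤ R) → Summable (term L) := fun L hL =>
    Summable.of_nonneg_of_le (hterm_nonneg L) (hbd L hL) hsum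
  set B : Set (Sym2 V → ℝ) := {L | ∀ g', |L g'| ≤ R} with hB
  have hTendsto : Tendsto (fun L : Sym2 V → ℝ => ∑' h, term L h) (𝓝[B] L₀) (𝓝 (∑' h, term L₀ h)) := by
    refine tendsto_tsum_of_dominated_convergence hsum (fun h => ?_) ?_
    · have hc : Continuous (fun L : Sym2 V → ℝ => term L h) :=
        (Real.continuous_exp.comp (continuous_apply h.1)).mul continuous_const
      exact (hc.tendsto L₀).mono_left nhdsWithin_le_nhds
    · filter_upwards [self_mem_nhdsWithin] with L hL h
      rw [Real.norm_of_nonneg (hterm_nonneg L h)]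
      exact hbd L hL h
  have hle : ∀ L : Sym2 V → ℝ, L ∈ B → capG G L g ≤ ∑' h, term L h := by
    intro L hL
    refine capG_le L fun F hF => ?_
    have h1 := capF_le F L hf₀
    have h2 : enF F L f₀ = ∑ h ∈ F.subtype (· ∈ G.edgeSet), term L h := by
      unfold enF
      exact (Finset.sum_subtype_of_mem (fun h => Real.exp (L h) * gradSq f₀ h)
        (fun x hx => hF (by simpa using hx))).symm
    rw [h2] at h1
    exact h1.trans ((hsumm L hL).sum_le_tsum _ (fun h _ => hterm_nonneg L h))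
  have hge : ∑' h, term L₀ h ≤ capG G L₀ g := by
    refine Real.tsum_le_of_sum_le (hterm_nonneg L₀) fun u => ?_
    rw [hsumeq]
    exact hen _ (hsub u)
  have : Nonempty {F : Finset (Sym2 V) // (F : Set (Sym2 V)) ⊆ G.edgeSet} := ⟨⟨∅, by simp⟩⟩
  show Tendsto _ _ _
  refine tendsto_order.2 ⟨fun a ha => ?_, fun b hb => ?_⟩
  · obtain ⟨F, hF⟩ := exists_lt_of_lt_ciSup ha
    have hc := (continuous_capF F.1 g).tendsto L₀
    have h1 : ∀ᶠ L in 𝓝[B] L₀, a < capF F.1 L g :=
      (hc.mono_left nhdsWithin_le_nhds).eventually (lt_mem_nhds hF)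
    filter_upwards [h1] with L hL
    exact hL.trans_le (le_capG hl L hg F.2)
  · have h1 : ∀ᶠ L in 𝓝[B] L₀, ∑' h, term L h < b :=
      hTendsto.eventually (gt_mem_nhds (hge.trans_lt hb))
    filter_upwards [h1, self_mem_nhdsWithin] with L hL hLB
    exact (hle L hLB).trans_lt hL

theorem mG_contOn {G : SimpleGraph V} (hl : ∀ v, (G.neighborSet v).Finite) (g : Sym2 V) (R : ℝ) :
    ContinuousOn (fun L : Sym2 V → ℝ => mG G L g) {L | ∀ g', |L g'| ≤ R} := by
  by_cases hg : g ∈ G.edgeSet
  · have : (fun L : Sym2 V → ℝ => mG G L g) = fun L => Real.exp (L g) / capG G L g := by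
      funext L
      exact mG_of_mem L hg
    rw [this]
    refine ContinuousOn.div ?_ (capG_contOn hl hg R) (fun L _ => (capG_pos hl L hg).ne')
    exact (Real.continuous_exp.comp (continuous_apply g)).continuousOn
  · have : (fun L : Sym2 V → ℝ => mG G L g) = fun _ => 0 := by
      funext L
      exact mG_of_not_mem L hg
    rw [this]
    exact continuousOn_const

/-! ### Relabelling -/

section Map

variable {V' : Type*}

theorem gradSq_map (σ : V → V') (f : V' → ℝ) (h : Sym2 V) : gradSq f (Sym2.map σ h) = gradSq (f ∘ σ) h := by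
  induction h using Sym2.ind with
  | _ a b => rfl

/-- The embedding of edge sets. -/
def emap (σ : V ≃ V') : Sym2 V ↪ Sym2 V' := ⟨Sym2.map σ, Sym2.map.injective σ.injective⟩

theorem enF_map (σ : V ≃ V') (F : Finset (Sym2 V)) (L : Sym2 V' → ℝ) (f : V' → ℝ) :
    enF (F.map (emap σ)) L f = enF F (fun g' => L (Sym2.map σ g')) (f ∘ σ) := by
  unfold enF
  rw [Finset.sum_map]
  refine Finset.sum_congr rfl fun h _ => ?_
  simp only [emap, Function.Embedding.coeFn_mk]
  rw [gradSq_map]

theorem capF_map (σ : V ≃ V') (F : Finset (Sym2 V)) (L : Sym2 V' → ℝ) (g : Sym2 V) :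
    capF (F.map (emap σ)) L (Sym2.map σ g) = capF F (fun g' => L (Sym2.map σ g')) g := by
  unfold capF
  congr 1
  ext x
  constructor
  · rintro ⟨f', hf', rfl⟩
    refine ⟨f' ∘ σ, ⟨fun v => hf'.1 (σ v), ?_⟩, (enF_map σ F L f').symm⟩
    rw [← gradSq_map]
    exact hf'.2
  · rintro ⟨f, hf, rfl⟩
    have hff : (f ∘ σ.symm) ∘ σ = f := by
      funext v
      simp
    refine ⟨f ∘ σ.symm, ⟨fun v => hf.1 (σ.symm v), ?_⟩, ?_⟩
    · rw [gradSq_map, hff]
      exact hf.2
    · rw [enF_map, hff]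

theorem mem_edgeSet_map (G : SimpleGraph V) (σ : V ≃ V') (g : Sym2 V) :
    Sym2.map σ g ∈ (G.map σ.toEmbedding).edgeSet ↔ g ∈ G.edgeSet := by
  induction g using Sym2.ind with
  | _ a b =>
    simp only [Sym2.map_mk, SimpleGraph.mem_edgeSet]
    exact SimpleGraph.map_adj_apply (f := σ.toEmbedding)

theorem capG_map (G : SimpleGraph V) (σ : V ≃ V') (L : Sym2 V' → ℝ) (g : Sym2 V) :
    capG (G.map σ.toEmbedding) L (Sym2.map σ g) = capG G (fun g' => L (Sym2.map σ g')) g := by
  unfold capG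
  symm
  refine Function.Surjective.iSup_congr
    (fun F : {F : Finset (Sym2 V) // (F : Set (Sym2 V)) ⊆ G.edgeSet} =>
      (⟨F.1.map (emap σ), ?_⟩ : {F : Finset (Sym2 V') // (F : Set (Sym2 V')) ⊆ (G.map σ.toEmbedding).edgeSet}))
    ?_ ?_
  · intro x hx
    have hx' : x ∈ F.1.map (emap σ) := by simpa using hx
    obtain ⟨y, hy, rfl⟩ := Finset.mem_map.1 hx'
    exact (mem_edgeSet_map G σ y).2 (F.2 hy)
  · rintro ⟨F', hF'⟩
    refine ⟨⟨F'.map (emap σ.symm), ?_⟩, ?_⟩
    · intro x hx
      have hx' : x ∈ F'.map (emap σ.symm) := by simpa using hx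
      obtain ⟨y, hy, rfl⟩ := Finset.mem_map.1 hx'
      have hy' := hF' hy
      have e : y = Sym2.map σ (Sym2.map σ.symm y) := by
        rw [Sym2.map_map]
        simp
      rw [e] at hy'
      exact (mem_edgeSet_map G σ _).1 hy'
    · apply Subtype.ext
      ext y
      simp only [Finset.mem_map, emap, Function.Embedding.coeFn_mk]
      constructor
      · rintro ⟨x, ⟨z, hz, rfl⟩, rfl⟩
        rw [Sym2.map_map]
        simpa using hz
      · intro hy
        refine ⟨Sym2.map σ.symm y, ⟨y, hy, rfl⟩, ?_⟩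
        rw [Sym2.map_map]
        simp
  · intro F
    exact capF_map σ F.1 L g

theorem mG_map (G : SimpleGraph V) (σ : V ≃ V') (L : Sym2 V' → ℝ) (g : Sym2 V) :
    mG (G.map σ.toEmbedding) L (Sym2.map σ g) = mG G (fun g' => L (Sym2.map σ g')) g := by
  by_cases hg : g ∈ G.edgeSet
  · rw [mG_of_mem _ hg, mG_of_mem _ ((mem_edgeSet_map G σ g).2 hg), capG_map]
  · rw [mG_of_not_mem _ hg, mG_of_not_mem]
    exact fun h => hg ((mem_edgeSet_map G σ g).1 h)

end Map

/-! ### Measurability -/

theorem measurable_capF [Countable V] (F : Finset (Sym2 V)) (g : Sym2 V) :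
    Measurable (fun L : Sym2 V → ℝ => capF F L g) :=
  (continuous_capF F g).measurable

theorem mG_meas [Countable V] (G : SimpleGraph V) (g : Sym2 V) : Measurable (fun L : Sym2 V → ℝ => mG G L g) := by
  by_cases hg : g ∈ G.edgeSet
  · have h1 : (fun L : Sym2 V → ℝ => mG G L g) = fun L => Real.exp (L g) / capG G L g := by
      funext L
      exact mG_of_mem L hg
    rw [h1]
    have h2 : Measurable (fun L : Sym2 V → ℝ => capG G L g) := by
      unfold capG
      exact Measurable.iSup fun F => measurable_capF F.1 g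
    exact (Real.measurable_exp.comp (measurable_pi_apply g)).div h2
  · have h1 : (fun L : Sym2 V → ℝ => mG G L g) = fun _ => 0 := by
      funext L
      exact mG_of_not_mem L hg
    rw [h1]
    exact measurable_const

open Classical in
theorem capG_eq_iSup (G : SimpleGraph V) (L : Sym2 V → ℝ) (g : Sym2 V) :
    capG G L g = ⨆ F : Finset (Sym2 V), if (F : Set (Sym2 V)) ⊆ G.edgeSet then capF F L g else 0 := by
  unfold capG iSup
  congr 1
  ext x
  constructor
  · rintro ⟨F, rfl⟩
    exact ⟨F.1, if_pos F.2⟩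
  · rintro ⟨F, rfl⟩
    by_cases hF : (F : Set (Sym2 V)) ⊆ G.edgeSet
    · exact ⟨⟨F, hF⟩, (if_pos hF).symm⟩
    · refine ⟨⟨∅, by simp⟩, ?_⟩
      simp only [if_neg hF]
      exact capF_empty L g

theorem measurableSet_edge (h : Sym2 ℕ) : MeasurableSet {a : ℕ × ℕ → Bool | h ∈ (graphOf a).edgeSet} := by
  induction h using Sym2.ind with
  | _ u v =>
    have e : {a : ℕ × ℕ → Bool | s(u, v) ∈ (graphOf a).edgeSet}
        = {a | u ≠ v ∧ (a (u, v) = true ∨ a (v, u) = true)} := by
      ext a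
      simp only [Set.mem_ofPred_eq, SimpleGraph.mem_edgeSet, graphOf, SimpleGraph.fromRel_adj]
    rw [e]
    by_cases huv : u = v
    · simp [huv]
    · have h1 : MeasurableSet {a : ℕ × ℕ → Bool | a (u, v) = true} := by
        have hm : Measurable (fun a : ℕ × ℕ → Bool => a (u, v)) := measurable_pi_apply _
        exact hm (measurableSet_singleton true)
      have h2 : MeasurableSet {a : ℕ × ℕ → Bool | a (v, u) = true} := by
        have hm : Measurable (fun a : ℕ × ℕ → Bool => a (v, u)) := measurable_pi_apply _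
        exact hm (measurableSet_singleton true)
      have : {a : ℕ × ℕ → Bool | u ≠ v ∧ (a (u, v) = true ∨ a (v, u) = true)}
          = {a : ℕ × ℕ → Bool | a (u, v) = true} ∪ {a : ℕ × ℕ → Bool | a (v, u) = true} := by
        ext a
        simp [huv]
      rw [this]
      exact h1.union h2

theorem measurableSet_sub (F : Finset (Sym2 ℕ)) :
    MeasurableSet {a : ℕ × ℕ → Bool | (F : Set (Sym2 ℕ)) ⊆ (graphOf a).edgeSet} := by
  have : {a : ℕ × ℕ → Bool | (F : Set (Sym2 ℕ)) ⊆ (graphOf a).edgeSet}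
      = ⋂ h ∈ F, {a : ℕ × ℕ → Bool | h ∈ (graphOf a).edgeSet} := by
    ext a
    simp only [Set.mem_ofPred_eq, Set.mem_iInter]
    exact Iff.rfl
  rw [this]
  exact Finset.measurableSet_biInter _ fun h _ => measurableSet_edge h

theorem mG_meas_joint (g : Sym2 ℕ) :
    Measurable (fun p : (ℕ × ℕ → Bool) × (Sym2 ℕ → ℝ) => mG (graphOf p.1) p.2 g) := by
  classical
  have hcap : Measurable (fun p : (ℕ × ℕ → Bool) × (Sym2 ℕ → ℝ) => capG (graphOf p.1) p.2 g) := by
    simp only [capG_eq_iSup]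
    refine Measurable.iSup fun F => ?_
    refine Measurable.ite (measurable_fst (measurableSet_sub F)) ?_ measurable_const
    exact (measurable_capF F g).comp measurable_snd
  have hm : MeasurableSet {p : (ℕ × ℕ → Bool) × (Sym2 ℕ → ℝ) | g ∈ (graphOf p.1).edgeSet} :=
    measurable_fst (measurableSet_edge g)
  unfold mG
  refine Measurable.ite hm ?_ measurable_const
  exact (Real.measurable_exp.comp ((measurable_pi_apply g).comp measurable_snd)).div hcap

/-! ### Finite volume marginals and capacities -/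

theorem capF_of_qH {G : SimpleGraph V} {W : Finset V} {H : Finset (Sym2 V)} (h : IsFinConn G W H)
    (L : Sym2 V → ℝ) {g : Sym2 V} (hg : g ∈ H) : qH W H L {g} = Real.exp (L g) / capF H L g := by
  obtain ⟨f₀, hf₀, heq⟩ := qH_attain h L hg
  have hq : 0 < qH W H L {g} := by
    rcases (qH_mem h L {g}).1.eq_or_lt with h0 | h0
    · rw [← h0, zero_mul] at heq
      exact absurd heq (Real.exp_pos _).ne
    · exact h0
  have hle : ∀ f ∈ KK g, Real.exp (L g) / qH W H L {g} ≤ enF H L f := by
    intro f hf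
    have := qH_lower h L hg f
    rw [hf.2, mul_one] at this
    rw [div_le_iff₀' hq]
    exact this
  have hcap : capF H L g = Real.exp (L g) / qH W H L {g} := by
    apply le_antisymm
    · have := capF_le H L hf₀
      have e : enF H L f₀ = Real.exp (L g) / qH W H L {g} := by
        rw [eq_div_iff hq.ne', mul_comm]
        exact heq
      rwa [e] at this
    · exact le_capF H L ⟨f₀, hf₀⟩ hle
  rw [hcap]
  field_simp

theorem qH_tendsto_mG {G : SimpleGraph V} (hl : ∀ v, (G.neighborSet v).Finite) (X : Exhaustion G)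
    (L : Sym2 V → ℝ) (g : Sym2 V) :
    Tendsto (fun n => qH (X.W n) (X.H n) L {g}) atTop (𝓝 (mG G L g)) := by
  by_cases hg : g ∈ G.edgeSet
  · rw [mG_of_mem L hg]
    obtain ⟨n₀, hn₀⟩ := X.coverH g hg
    have hdiag := G.not_isDiag_of_mem_edgeSet hg
    have hcap : Tendsto (fun n => capF (X.H n) L g) atTop (𝓝 (capG G L g)) := by
      have hmono : Monotone (fun n => capF (X.H n) L g) :=
        fun a b hab => capF_mono (X.monoH hab) L hdiag
      have hbdd : ∀ n, capF (X.H n) L g ≤ capG G L g := fun n => le_capG hl L hg (X.fc n).1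
      have hsup : capG G L g ≤ ⨆ n, capF (X.H n) L g := by
        refine capG_le L fun F hF => ?_
        have : ∃ n, F ⊆ X.H n := by
          classical
          induction F using Finset.induction_on with
          | empty => exact ⟨0, Finset.empty_subset _⟩
          | insert a F ha ih =>
            obtain ⟨n, hn⟩ := ih (fun x hx => hF (by simp only [Finset.coe_insert]; exact Or.inr hx))
            obtain ⟨m, hm⟩ := X.coverH a (hF (by simp))
            refine ⟨max n m, Finset.insert_subset (X.monoH (le_max_right n m) hm) (hn.trans (X.monoH (le_max_left n m)))⟩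
        obtain ⟨n, hn⟩ := this
        have hb : BddAbove (Set.range fun n => capF (X.H n) L g) := ⟨capG G L g, by
          rintro _ ⟨n, rfl⟩
          exact hbdd n⟩
        exact (capF_mono hn L hdiag).trans (le_ciSup hb n)
      have heq : capG G L g = ⨆ n, capF (X.H n) L g := le_antisymm hsup (ciSup_le hbdd)
      rw [heq]
      refine tendsto_atTop_ciSup hmono ⟨capG G L g, ?_⟩
      rintro _ ⟨n, rfl⟩
      exact hbdd n
    have hpos := capG_pos hl L hg
    have hq : Tendsto (fun n => Real.exp (L g) / capF (X.H n) L g) atTop (𝓝 (Real.exp (L g) / capG G L g)) :=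
      tendsto_const_nhds.div hcap hpos.ne'
    refine hq.congr' ?_
    filter_upwards [eventually_ge_atTop n₀] with n hn
    exact (capF_of_qH (X.fc n) L (X.monoH hn hn₀)).symm
  · rw [mG_of_not_mem L hg]
    have : (fun n => qH (X.W n) (X.H n) L {g}) = fun _ => 0 := by
      funext n
      exact qH_notMem (X.fc n) L (Finset.mem_singleton_self g) (fun h => hg ((X.fc n).1 h))
    rw [this]
    exact tendsto_const_nhds

end Vale.Agent.Lib.P143L
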