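import Vale.Agent.Lib.P143L.CoreDefs

/-!
The bounded observation channel: real analysis.
-/

namespace Vale.Agent.Lib.P143L

open MeasureTheory Filter Topology Set
open scoped ENNReal Interval

lemma chn_a {m : ℝ} (hm : 0 ≤ m ∧ m ≤ 1) : -(1 / 3) ≤ (2 * m - 1) / 3 ∧ (2 * m - 1) / 3 ≤ 1 / 3 := by
  constructor <;> linarith [hm.1, hm.2]

/-- The quantity under the root is positive. -/
lemma chn_rad {a b : ℝ} (ha : -(1 / 3) ≤ a ∧ a ≤ 1 / 3) (hb : -1 ≤ b ∧ b ≤ 1) :
    0 < 1 + 2 * a * b + a ^ 2 := by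
  have h1 : |a * b| ≤ 1 / 3 := by
    rw [abs_mul]
    have h2 : |a| ≤ 1 / 3 := abs_le.mpr ha
    have h3 : |b| ≤ 1 := abs_le.mpr hb
    calc |a| * |b| ≤ 1 / 3 * 1 := mul_le_mul h2 h3 (abs_nonneg _) (by norm_num)
      _ = 1 / 3 := by norm_num
  have h4 := (abs_le.mp h1).1
  nlinarith [sq_nonneg a]

/-- Abstract form of the quantile. -/
lemma chn_form (a b : ℝ) (hr : 0 < 1 + 2 * a * b + a ^ 2) :
    let D := √(1 + 2 * a * b + a ^ 2)
    let x := (a + 2 * b) / (1 + D)
    0 < D ∧ D ^ 2 = 1 + 2 * a * b + a ^ 2 ∧ x * (1 + D) = a + 2 * b ∧ a * x = D - 1 := by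
  intro D x
  have hD : 0 < D := Real.sqrt_pos.mpr hr
  have hD2 : D ^ 2 = 1 + 2 * a * b + a ^ 2 := Real.sq_sqrt hr.le
  have hne : (1 + D) ≠ 0 := by positivity
  have h1 : x * (1 + D) = a + 2 * b := by
    simp only [x]
    field_simp
  refine ⟨hD, hD2, h1, ?_⟩
  have h2 : (a * x - (D - 1)) * (1 + D) = 0 := by
    have : (a * x - (D - 1)) * (1 + D) = a * (x * (1 + D)) - (D ^ 2 - 1) := by ring
    rw [this, h1, hD2]
    ring
  rcases mul_eq_zero.mp h2 with h3 | h3
  · linarith
  · exact absurd h3 hne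

theorem chanX_mem {m v : ℝ} (hm : 0 ≤ m ∧ m ≤ 1) (hv : 0 ≤ v ∧ v ≤ 1) :
    -1 ≤ chanX m v ∧ chanX m v ≤ 1 := by
  have ha := chn_a hm
  have hb : -1 ≤ 2 * v - 1 ∧ 2 * v - 1 ≤ 1 := by constructor <;> linarith [hv.1, hv.2]
  set a := (2 * m - 1) / 3 with ha'
  set b := 2 * v - 1 with hb'
  have hr := chn_rad ha hb
  obtain ⟨hD, hD2, h1, h2⟩ := chn_form a b hr
  have hx : chanX m v = (a + 2 * b) / (1 + √(1 + 2 * a * b + a ^ 2)) := rfl
  rw [hx]
  set D := √(1 + 2 * a * b + a ^ 2) with hDdef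
  have hpos : 0 < 1 + D := by positivity
  constructor
  · rw [le_div_iff₀ hpos]
    -- `-(1 + D) ≤ a + 2 b`
    by_contra hcon
    push Not at hcon
    have h3 : 0 < -(a + 2 * b) - 1 - D := by linarith
    have h4 : D ^ 2 < (-(a + 2 * b) - 1) ^ 2 := by nlinarith
    have h5 : (a + 2 * b) * ((a + 2 * b) + 2 - a) < 0 := by nlinarith
    nlinarith [hb.1]
  · rw [div_le_iff₀ hpos]
    by_contra hcon
    push Not at hcon
    have h3 : 0 < (a + 2 * b) - 1 - D := by linarith
    have h4 : D ^ 2 < ((a + 2 * b) - 1) ^ 2 := by nlinarith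
    have h5 : (a + 2 * b) * ((a + 2 * b) - 2 - a) > 0 := by nlinarith
    nlinarith [hb.2]

theorem chanX_cdf {m v : ℝ} (hm : 0 ≤ m ∧ m ≤ 1) (hv : 0 ≤ v ∧ v ≤ 1) :
    (chanX m v + 1) / 2 + (2 * m - 1) / 3 * ((chanX m v) ^ 2 - 1) / 4 = v := by
  have ha := chn_a hm
  have hb : -1 ≤ 2 * v - 1 ∧ 2 * v - 1 ≤ 1 := by constructor <;> linarith [hv.1, hv.2]
  have hr := chn_rad ha hb
  obtain ⟨_, _, h1, h2⟩ := chn_form _ _ hr
  have hx : chanX m v = ((2 * m - 1) / 3 + 2 * (2 * v - 1)) /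
      (1 + √(1 + 2 * ((2 * m - 1) / 3) * (2 * v - 1) + ((2 * m - 1) / 3) ^ 2)) := rfl
  rw [← hx] at h1 h2
  linear_combination (chanX m v / 4) * h2 + (1 / 4) * h1

theorem chanX_of_cdf {m x : ℝ} (hm : 0 ≤ m ∧ m ≤ 1) (hx : -1 ≤ x ∧ x ≤ 1) :
    chanX m ((x + 1) / 2 + (2 * m - 1) / 3 * (x ^ 2 - 1) / 4) = x := by
  have ha := chn_a hm
  set a := (2 * m - 1) / 3 with ha'
  have hpos : 0 < 1 + a * x := by
    have h1 : |a * x| ≤ 1 / 3 := by
      rw [abs_mul]
      calc |a| * |x| ≤ 1 / 3 * 1 := mul_le_mul (abs_le.mpr ha) (abs_le.mpr hx) (abs_nonneg _) (by norm_num)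
        _ = 1 / 3 := by norm_num
    linarith [(abs_le.mp h1).1]
  unfold chanX
  rw [← ha']
  have h1 : 1 + 2 * a * (2 * ((x + 1) / 2 + a * (x ^ 2 - 1) / 4) - 1) + a ^ 2 = (1 + a * x) ^ 2 := by
    ring
  rw [h1, Real.sqrt_sq hpos.le]
  have h2 : (2 : ℝ) + a * x ≠ 0 := by linarith
  have h3 : 1 + (1 + a * x) = 2 + a * x := by ring
  rw [h3, div_eq_iff h2]
  ring

lemma chn_lo {x : ℝ} (hx : -1 ≤ x ∧ x ≤ 1) : 0 < 3 + x := by linarith [hx.1]

lemma chn_hi {x : ℝ} (hx : -1 ≤ x ∧ x ≤ 1) : 0 < 3 - x := by linarith [hx.2]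

lemma chanL_abs {x : ℝ} (hx : -1 ≤ x ∧ x ≤ 1) : |chanL x| ≤ Real.log 2 := by
  have h1 := chn_lo hx
  have h2 := chn_hi hx
  have h3 : 0 < (3 + x) / (3 - x) := div_pos h1 h2
  unfold chanL
  rw [abs_le]
  constructor
  · have h4 : (1 / 2 : ℝ) ≤ (3 + x) / (3 - x) := by
      rw [le_div_iff₀ h2]
      linarith [hx.1]
    have h5 := Real.log_le_log (by norm_num : (0 : ℝ) < 1 / 2) h4
    have h6 : Real.log (1 / 2) = - Real.log 2 := by
      rw [one_div, Real.log_inv]
    linarith
  · apply Real.log_le_log h3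
    rw [div_le_iff₀ h2]
    linarith [hx.2]

theorem chanZ_abs {m : ℝ} (hm : 0 ≤ m ∧ m ≤ 1) (v : unitInterval) : |chanZ m v| ≤ Real.log 2 :=
  chanL_abs (chanX_mem hm ⟨v.2.1, v.2.2⟩)

/-- `chanL` is Lipschitz on `[-1, 1]`. -/
lemma chanL_lip {x y : ℝ} (hx : -1 ≤ x ∧ x ≤ 1) (hy : -1 ≤ y ∧ y ≤ 1) :
    |chanL x - chanL y| ≤ 3 / 4 * |x - y| := by
  have hderiv : ∀ t ∈ Icc (-1 : ℝ) 1, HasDerivWithinAt chanL (1 / (3 + t) + 1 / (3 - t)) (Icc (-1) 1) t := by
    intro t ht
    have h1 : 0 < 3 + t := chn_lo ⟨ht.1, ht.2⟩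
    have h2 : 0 < 3 - t := chn_hi ⟨ht.1, ht.2⟩
    have h3 : HasDerivAt (fun s : ℝ => (3 + s) / (3 - s)) ((1 * (3 - t) - (3 + t) * (-1)) / (3 - t) ^ 2) t := by
      have h4 : HasDerivAt (fun s : ℝ => 3 + s) 1 t := by
        simpa using (hasDerivAt_id t).const_add 3
      have h5 : HasDerivAt (fun s : ℝ => 3 - s) (-1) t := by
        simpa using (hasDerivAt_id t).const_sub 3
      exact h4.div h5 h2.ne'
    have h6 : HasDerivAt chanL (((1 * (3 - t) - (3 + t) * (-1)) / (3 - t) ^ 2) / ((3 + t) / (3 - t))) t :=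
      h3.log (div_pos h1 h2).ne'
    have h7 : ((1 * (3 - t) - (3 + t) * (-1)) / (3 - t) ^ 2) / ((3 + t) / (3 - t))
        = 1 / (3 + t) + 1 / (3 - t) := by
      field_simp
      ring
    rw [h7] at h6
    exact h6.hasDerivWithinAt
  have hbound : ∀ t ∈ Icc (-1 : ℝ) 1, ‖1 / (3 + t) + 1 / (3 - t)‖ ≤ 3 / 4 := by
    intro t ht
    have h1 : 0 < 3 + t := chn_lo ⟨ht.1, ht.2⟩
    have h2 : 0 < 3 - t := chn_hi ⟨ht.1, ht.2⟩
    have h3 : 1 / (3 + t) + 1 / (3 - t) = 6 / ((3 + t) * (3 - t)) := by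
      field_simp
      ring
    rw [h3, Real.norm_eq_abs, abs_of_pos (by positivity), div_le_iff₀ (by positivity)]
    nlinarith [ht.1, ht.2]
  have := (convex_Icc (-1 : ℝ) 1).norm_image_sub_le_of_norm_hasDerivWithin_le hderiv hbound
    (y := y) (x := x) ⟨hx.1, hx.2⟩ ⟨hy.1, hy.2⟩
  simpa [Real.norm_eq_abs, abs_sub_comm] using this

theorem chanZ_lip {m m' : ℝ} (hm : 0 ≤ m ∧ m ≤ 1) (hm' : 0 ≤ m' ∧ m' ≤ 1) (v : unitInterval) :
    |chanZ m v - chanZ m' v| ≤ 3 / 8 * |m - m'| := by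
  have hv : (0 : ℝ) ≤ v ∧ (v : ℝ) ≤ 1 := ⟨v.2.1, v.2.2⟩
  have hx := chanX_mem hm hv
  have hx' := chanX_mem hm' hv
  have h1 := chanX_cdf hm hv
  have h2 := chanX_cdf hm' hv
  set x := chanX m v with hxdef
  set x' := chanX m' v with hxdef'
  have ha := chn_a hm
  have ha' := chn_a hm'
  set a := (2 * m - 1) / 3 with haa
  set a' := (2 * m' - 1) / 3 with haa'
  -- `(x - x') (2 + a (x + x')) = (a' - a) (x' ^ 2 - 1)`, from the two equations
  have key : (x - x') * (2 + a * (x + x')) = (a' - a) * (x' ^ 2 - 1) := by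
    linear_combination 4 * h1 - 4 * h2
  have hden : 4 / 3 ≤ 2 + a * (x + x') := by
    have h3 : |a * (x + x')| ≤ 1 / 3 * 2 := by
      rw [abs_mul]
      have h4 : |x + x'| ≤ 2 := by
        rw [abs_le]; constructor <;> linarith [hx.1, hx.2, hx'.1, hx'.2]
      exact mul_le_mul (abs_le.mpr ha) h4 (abs_nonneg _) (by norm_num)
    linarith [(abs_le.mp h3).1]
  have hdiff : |x - x'| ≤ 1 / 2 * |m - m'| := by
    have h5 : |x - x'| * (4 / 3) ≤ |a' - a| := by
      calc |x - x'| * (4 / 3) ≤ |x - x'| * |2 + a * (x + x')| := by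
            apply mul_le_mul_of_nonneg_left _ (abs_nonneg _)
            exact hden.trans (le_abs_self _)
        _ = |a' - a| * |x' ^ 2 - 1| := by rw [← abs_mul, key, abs_mul]
        _ ≤ |a' - a| * 1 := by
            apply mul_le_mul_of_nonneg_left _ (abs_nonneg _)
            rw [abs_le]
            constructor <;> nlinarith [hx'.1, hx'.2]
        _ = |a' - a| := mul_one _
    have h6 : a' - a = -(2 / 3) * (m - m') := by
      rw [haa, haa']; ring
    rw [h6, abs_mul] at h5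
    have h7 : |(-(2 / 3) : ℝ)| = 2 / 3 := by
      rw [abs_neg, abs_of_pos (by norm_num)]
    rw [h7] at h5
    linarith
  have := chanL_lip hx hx'
  calc |chanZ m v - chanZ m' v| = |chanL x - chanL x'| := rfl
    _ ≤ 3 / 4 * |x - x'| := this
    _ ≤ 3 / 4 * (1 / 2 * |m - m'|) := by
        apply mul_le_mul_of_nonneg_left hdiff (by norm_num)
    _ = 3 / 8 * |m - m'| := by ring

theorem measurable_chanZ : Measurable (fun p : ℝ × unitInterval => chanZ p.1 p.2) := by
  have h1 : Measurable (fun p : ℝ × unitInterval => chanX p.1 (p.2 : ℝ)) := by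
    unfold chanX
    have hm : Measurable (fun p : ℝ × unitInterval => p.1) := measurable_fst
    have hv : Measurable (fun p : ℝ × unitInterval => (p.2 : ℝ)) :=
      measurable_subtype_coe.comp measurable_snd
    fun_prop
  have h2 : Measurable chanL := by
    unfold chanL
    fun_prop
  exact h2.comp h1

theorem continuousOn_chanZ (v : unitInterval) : ContinuousOn (fun m => chanZ m v) (Icc 0 1) := by
  have h : LipschitzOnWith (3 / 8) (fun m => chanZ m v) (Icc 0 1) := by
    apply LipschitzOnWith.of_dist_le_mul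
    intro m hm m' hm'
    rw [Real.dist_eq, Real.dist_eq]
    exact chanZ_lip ⟨hm.1, hm.2⟩ ⟨hm'.1, hm'.2⟩ v
  exact h.continuousOn

theorem exp_chanL {x : ℝ} (hx : -1 ≤ x ∧ x ≤ 1) : Real.exp (chanL x) - 1 = 2 * x / (3 - x) := by
  have h1 := chn_lo hx
  have h2 := chn_hi hx
  unfold chanL
  rw [Real.exp_log (div_pos h1 h2)]
  field_simp
  ring

lemma continuous_chanX (m : ℝ) : Continuous (fun v : ℝ => chanX m v) := by
  unfold chanX
  apply Continuous.div (by fun_prop) (by fun_prop)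
  intro v
  have := Real.sqrt_nonneg (1 + 2 * ((2 * m - 1) / 3) * (2 * v - 1) + ((2 * m - 1) / 3) ^ 2)
  linarith

/-- Integrals over the unit interval as interval integrals. -/
lemma chn_int (H : ℝ → ℝ) : ∫ v : unitInterval, H v = ∫ x in (0 : ℝ)..1, H x := by
  rw [intervalIntegral.integral_of_le zero_le_one, ← integral_Icc_eq_integral_Ioc]
  exact integral_subtype_comap measurableSet_Icc H

/-- change of variables -/
theorem chan_integral {m : ℝ} (hm : 0 ≤ m ∧ m ≤ 1) {G : ℝ → ℝ} (hG : ContinuousOn G (Set.Icc (-1) 1)) :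
    ∫ v : unitInterval, G (chanX m v) = ∫ x in (-1 : ℝ)..1, G x * ((3 + (2 * m - 1) * x) / 6) := by
  have ha := chn_a hm
  set a := (2 * m - 1) / 3 with haa
  let F : ℝ → ℝ := fun x => (x + 1) / 2 + a * (x ^ 2 - 1) / 4
  let F' : ℝ → ℝ := fun x => (3 + (2 * m - 1) * x) / 6
  have hF01 : ∀ x ∈ Icc (-1 : ℝ) 1, F x ∈ Icc (0 : ℝ) 1 := by
    intro x hx
    have h1 : 0 ≤ 2 + a * (x - 1) := by nlinarith [hx.1, hx.2, ha.1, ha.2]
    have h2 : 0 ≤ 2 + a * (1 + x) := by nlinarith [hx.1, hx.2, ha.1, ha.2]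
    constructor
    · have : F x = (x + 1) / 4 * (2 + a * (x - 1)) := by simp only [F]; ring
      rw [this]
      exact mul_nonneg (by linarith [hx.1]) h1
    · have : 1 - F x = (1 - x) / 4 * (2 + a * (1 + x)) := by simp only [F]; ring
      have h3 : 0 ≤ (1 - x) / 4 * (2 + a * (1 + x)) := mul_nonneg (by linarith [hx.2]) h2
      linarith
  have hg : ContinuousOn (fun u => G (chanX m u)) (F '' [[(-1 : ℝ), 1]]) := by
    apply hG.comp (continuous_chanX m).continuousOn
    rintro _ ⟨x, hx, rfl⟩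
    rw [uIcc_of_le (by norm_num)] at hx
    have := hF01 x hx
    have h2 := chanX_mem hm ⟨this.1, this.2⟩
    exact ⟨h2.1, h2.2⟩
  have hderiv : ∀ x ∈ Ioo (min (-1 : ℝ) 1) (max (-1) 1), HasDerivWithinAt F (F' x) (Ioi x) x := by
    intro x _
    have h1 : HasDerivAt F ((1 + 0) / 2 + a * (2 * x - 0) / 4) x := by
      have h2 : HasDerivAt (fun y : ℝ => y + 1) (1 + 0) x := (hasDerivAt_id x).add (hasDerivAt_const x 1)
      have h3 : HasDerivAt (fun y : ℝ => y ^ 2 - 1) (2 * x - 0) x := by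
        have := (hasDerivAt_pow 2 x).sub_const (1 : ℝ)
        simpa using this
      exact (h2.div_const 2).add ((h3.const_mul a).div_const 4)
    have h4 : (1 + 0) / 2 + a * (2 * x - 0) / 4 = F' x := by
      simp only [F', haa]
      ring
    rw [h4] at h1
    exact h1.hasDerivWithinAt
  have hF' : ContinuousOn F' [[(-1 : ℝ), 1]] := by
    apply Continuous.continuousOn
    simp only [F']
    fun_prop
  have hcv := intervalIntegral.integral_comp_mul_deriv'' (a := -1) (b := 1) (f := F) (f' := F')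
    (g := fun u => G (chanX m u)) (by
      apply Continuous.continuousOn
      simp only [F]
      fun_prop) hderiv hF' hg
  have hFm1 : F (-1) = 0 := by simp only [F]; ring
  have hF1 : F 1 = 1 := by simp only [F]; ring
  rw [hFm1, hF1] at hcv
  rw [chn_int (fun u => G (chanX m u)), ← hcv]
  apply intervalIntegral.integral_congr
  intro x hx
  rw [uIcc_of_le (by norm_num)] at hx
  have h5 : chanX m (F x) = x := chanX_of_cdf hm ⟨hx.1, hx.2⟩
  simp only [Function.comp_apply, h5, F']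

lemma chn_den {m x : ℝ} (hm : 0 ≤ m ∧ m ≤ 1) (hx : -1 ≤ x ∧ x ≤ 1) : 0 < 3 + (2 * m - 1) * x := by
  have h1 : |(2 * m - 1) * x| ≤ 1 * 1 := by
    rw [abs_mul]
    apply mul_le_mul _ (abs_le.mpr hx) (abs_nonneg _) (by norm_num)
    rw [abs_le]
    constructor <;> linarith [hm.1, hm.2]
  linarith [(abs_le.mp h1).1]

/-- Functions of the observation continuous on `[-1, 1]` are integrable. -/
lemma chn_integrable {m : ℝ} (hm : 0 ≤ m ∧ m ≤ 1) {G : ℝ → ℝ} (hG : ContinuousOn G (Set.Icc (-1) 1)) :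
    Integrable (fun v : unitInterval => G (chanX m v)) := by
  have h2 : Continuous (fun v : unitInterval => chanX m v) :=
    (continuous_chanX m).comp continuous_subtype_val
  have h1 : Continuous (fun v : unitInterval => G (chanX m v)) :=
    hG.comp_continuous h2 (fun w => by
      have := chanX_mem hm (v := w) ⟨w.2.1, w.2.2⟩
      exact ⟨this.1, this.2⟩)
  exact h1.integrable_of_hasCompactSupport (HasCompactSupport.of_compactSpace _)

lemma chn_cancel (a d : ℝ) (hd : d ≠ 0) : a / d * (d / 6) = a / 6 := by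
  field_simp

/-- martingale identity -/
theorem chan_mart {m A B : ℝ} (hm : 0 ≤ m ∧ m ≤ 1) {F : ℝ → ℝ}
    (hF : ∀ x, -1 ≤ x → x ≤ 1 → F x * (3 + (2 * m - 1) * x) = (3 - x) * A + 2 * x * B) :
    ∫ v : unitInterval, F (chanX m v) = A ∧ Integrable (fun v : unitInterval => F (chanX m v)) := by
  let G : ℝ → ℝ := fun x => ((3 - x) * A + 2 * x * B) / (3 + (2 * m - 1) * x)
  have hGc : ContinuousOn G (Icc (-1) 1) := by
    apply ContinuousOn.div (by fun_prop) (by fun_prop)
    intro x hx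
    exact (chn_den hm ⟨hx.1, hx.2⟩).ne'
  have hFG : ∀ x, -1 ≤ x → x ≤ 1 → F x = G x := by
    intro x h1 h2
    have h3 := chn_den hm ⟨h1, h2⟩
    simp only [G]
    rw [eq_div_iff h3.ne']
    exact hF x h1 h2
  have hcomp : (fun v : unitInterval => F (chanX m v)) = fun v : unitInterval => G (chanX m v) := by
    funext v
    have := chanX_mem hm (v := v) ⟨v.2.1, v.2.2⟩
    exact hFG _ this.1 this.2
  rw [hcomp]
  refine ⟨?_, chn_integrable hm hGc⟩
  rw [chan_integral hm hGc]
  have h4 : ∫ x in (-1 : ℝ)..1, G x * ((3 + (2 * m - 1) * x) / 6)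
      = ∫ x in (-1 : ℝ)..1, ((3 - x) * A + 2 * x * B) / 6 := by
    apply intervalIntegral.integral_congr
    intro x hx
    rw [uIcc_of_le (by norm_num)] at hx
    have h3 := chn_den hm ⟨hx.1, hx.2⟩
    exact chn_cancel _ _ h3.ne'
  rw [h4]
  have h5 : (fun x : ℝ => ((3 - x) * A + 2 * x * B) / 6) = fun x => A / 2 + x * ((2 * B - A) / 6) := by
    funext x
    ring
  rw [h5]
  rw [intervalIntegral.integral_add (by simp) (by apply Continuous.intervalIntegrable; fun_prop)]
  rw [intervalIntegral.integral_mul_const, integral_id]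
  simp
  ring

/-- own edge contraction -/
theorem chan_phi_self {m : ℝ} (hm : 0 ≤ m ∧ m ≤ 1) {F : ℝ → ℝ}
    (hF : ∀ x, -1 ≤ x → x ≤ 1 → F x * (3 + (2 * m - 1) * x) = m * (3 + x)) :
    ∫ v : unitInterval, phi (F (chanX m v)) ≤ 53 / 54 * phi m := by
  let G : ℝ → ℝ := fun x => phi m * (3 - x ^ 2 / 6) / (3 + (2 * m - 1) * x)
  have hGc : ContinuousOn G (Icc (-1) 1) := by
    apply ContinuousOn.div (by fun_prop) (by fun_prop)
    intro x hx
    exact (chn_den hm ⟨hx.1, hx.2⟩).ne'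
  have hle : ∀ x, -1 ≤ x → x ≤ 1 → phi (F x) ≤ G x := by
    intro x h1 h2
    have h3 := chn_den hm ⟨h1, h2⟩
    have h4 : F x = m * (3 + x) / (3 + (2 * m - 1) * x) := by
      rw [eq_div_iff h3.ne']
      exact hF x h1 h2
    have h5 : F x * (1 - F x) = (m * (1 - m)) * (9 - x ^ 2) / (3 + (2 * m - 1) * x) ^ 2 := by
      have e : 1 - m * (3 + x) / (3 + (2 * m - 1) * x) = (1 - m) * (3 - x) / (3 + (2 * m - 1) * x) := by
        rw [eq_div_iff h3.ne', sub_mul, div_mul_cancel₀ _ h3.ne']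
        ring
      rw [h4, e, div_mul_div_comm]
      congr 1 <;> ring
    have hm0 : 0 ≤ m * (1 - m) := mul_nonneg hm.1 (by linarith [hm.2])
    have h9 : 0 ≤ 9 - x ^ 2 := by nlinarith
    have h6 : phi (F x) = phi m * √(9 - x ^ 2) / (3 + (2 * m - 1) * x) := by
      unfold phi
      rw [h5, Real.sqrt_div (mul_nonneg hm0 h9), Real.sqrt_mul hm0, Real.sqrt_sq h3.le]
    have h7 : √(9 - x ^ 2) ≤ 3 - x ^ 2 / 6 := by
      apply Real.sqrt_le_iff.mpr
      constructor
      · nlinarith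
      · nlinarith [sq_nonneg (x ^ 2)]
    rw [h6]
    simp only [G]
    apply div_le_div_of_nonneg_right _ h3.le
    exact mul_le_mul_of_nonneg_left h7 (Real.sqrt_nonneg _)
  have hint : ∫ v : unitInterval, G (chanX m v) = 53 / 54 * phi m := by
    rw [chan_integral hm hGc]
    have h4 : ∫ x in (-1 : ℝ)..1, G x * ((3 + (2 * m - 1) * x) / 6)
        = ∫ x in (-1 : ℝ)..1, (phi m / 2 + (x ^ 2) * (- phi m / 36)) := by
      apply intervalIntegral.integral_congr
      intro x hx
      rw [uIcc_of_le (by norm_num)] at hx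
      have h3 := chn_den hm ⟨hx.1, hx.2⟩
      have e := chn_cancel (phi m * (3 - x ^ 2 / 6)) _ h3.ne'
      simp only [G]
      rw [e]
      ring
    rw [h4]
    rw [intervalIntegral.integral_add (by simp) (by apply Continuous.intervalIntegrable; fun_prop)]
    rw [intervalIntegral.integral_mul_const, integral_pow]
    simp
    ring
  rw [← hint]
  apply integral_mono_of_nonneg
  · exact Eventually.of_forall fun v => Real.sqrt_nonneg _
  · exact chn_integrable hm hGc
  · refine Eventually.of_forall fun v => ?_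
    have := chanX_mem hm (v := v) ⟨v.2.1, v.2.2⟩
    exact hle _ this.1 this.2

/-- Arithmetic-geometric mean with a parameter. -/
lemma phi_le_param {t c : ℝ} (ht : 0 ≤ t ∧ t ≤ 1) (hc : 0 < c) :
    phi t ≤ 1 / 2 * (c * t + (1 - t) / c) := by
  unfold phi
  apply Real.sqrt_le_iff.mpr
  constructor
  · have h1 : 0 ≤ c * t := mul_nonneg hc.le ht.1
    have h2 : 0 ≤ (1 - t) / c := div_nonneg (by linarith [ht.2]) hc.le
    linarith
  · have h3 : t * (1 - t) = (c * t) * ((1 - t) / c) := by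
      field_simp
    rw [h3]
    nlinarith [sq_nonneg (c * t - (1 - t) / c)]

/-- other edges: Cauchy-Schwarz -/
theorem chan_phi_other {m A B : ℝ} (hm : 0 ≤ m ∧ m ≤ 1) {F : ℝ → ℝ}
    (hF : ∀ x, -1 ≤ x → x ≤ 1 → F x * (3 + (2 * m - 1) * x) = (3 - x) * A + 2 * x * B)
    (hF01 : ∀ x, -1 ≤ x → x ≤ 1 → 0 ≤ F x ∧ F x ≤ 1) :
    ∫ v : unitInterval, phi (F (chanX m v)) ≤ phi A := by
  obtain ⟨h1, h2⟩ := chan_mart hm hF
  set Y : unitInterval → ℝ := fun v => F (chanX m v) with hY
  have hY01 : ∀ v, 0 ≤ Y v ∧ Y v ≤ 1 := fun v => by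
    have := chanX_mem hm (v := v) ⟨v.2.1, v.2.2⟩
    exact hF01 _ this.1 this.2
  have hprob : IsProbabilityMeasure (volume : Measure unitInterval) := inferInstance
  -- the bound for each parameter
  have hparam : ∀ c : ℝ, 0 < c → ∫ v : unitInterval, phi (Y v) ≤ 1 / 2 * (c * A + (1 - A) / c) := by
    intro c hc
    have h3 : Integrable (fun v : unitInterval => (1 : ℝ)) := integrable_const _
    have I1 : Integrable (fun v : unitInterval => c * Y v) := h2.const_mul c
    have I0 : Integrable (fun v : unitInterval => 1 - Y v) := h3.sub h2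
    have I2 : Integrable (fun v : unitInterval => (1 - Y v) / c) := I0.div_const c
    have I3 : Integrable (fun v : unitInterval => c * Y v + (1 - Y v) / c) := I1.add I2
    have hint : Integrable (fun v : unitInterval => 1 / 2 * (c * Y v + (1 - Y v) / c)) :=
      I3.const_mul (1 / 2)
    calc ∫ v : unitInterval, phi (Y v) ≤ ∫ v : unitInterval, 1 / 2 * (c * Y v + (1 - Y v) / c) := by
          apply integral_mono_of_nonneg
          · exact Eventually.of_forall fun v => Real.sqrt_nonneg _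
          · exact hint
          · exact Eventually.of_forall fun v => phi_le_param (hY01 v) hc
      _ = 1 / 2 * (c * A + (1 - A) / c) := by
          rw [integral_const_mul, integral_add I1 I2, integral_const_mul, integral_div,
            integral_sub h3 h2, h1]
          simp
  have hA0 : 0 ≤ A := by
    rw [← h1]
    exact integral_nonneg fun v => (hY01 v).1
  have hA1 : A ≤ 1 := by
    rw [← h1]
    calc ∫ v : unitInterval, Y v ≤ ∫ _ : unitInterval, (1 : ℝ) :=
          integral_mono h2 (integrable_const _) fun v => (hY01 v).2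
      _ = 1 := by simp
  rcases hA0.eq_or_lt with h0 | h0
  · -- `A = 0`
    have h3 : ∀ c : ℝ, 0 < c → ∫ v : unitInterval, phi (Y v) ≤ 1 / (2 * c) := by
      intro c hc
      have := hparam c hc
      rw [← h0] at this
      calc _ ≤ _ := this
        _ = 1 / (2 * c) := by
          field_simp
          ring
    have h4 : ∫ v : unitInterval, phi (Y v) ≤ 0 := by
      apply le_of_forall_pos_le_add
      intro ε hε
      have := h3 (1 / (2 * ε)) (by positivity)
      simp only [zero_add]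
      calc _ ≤ _ := this
        _ = ε := by
          field_simp
    have h5 : phi A = 0 := by
      rw [← h0]
      simp [phi]
    rw [h5]
    exact h4
  rcases hA1.eq_or_lt with h0' | h0'
  · -- `A = 1`
    have h3 : ∀ c : ℝ, 0 < c → ∫ v : unitInterval, phi (Y v) ≤ c / 2 := by
      intro c hc
      have := hparam c hc
      rw [h0'] at this
      calc _ ≤ _ := this
        _ = c / 2 := by
          simp
          ring
    have h4 : ∫ v : unitInterval, phi (Y v) ≤ 0 := by
      apply le_of_forall_pos_le_add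
      intro ε hε
      have := h3 (2 * ε) (by positivity)
      simp only [zero_add]
      calc _ ≤ _ := this
        _ = ε := by ring
    have h5 : phi A = 0 := by
      rw [h0']
      simp [phi]
    rw [h5]
    exact h4
  · -- `0 < A < 1`
    have hB : 0 < 1 - A := by linarith
    have hc : 0 < √((1 - A) / A) := Real.sqrt_pos.mpr (div_pos hB h0)
    refine (hparam _ hc).trans (le_of_eq ?_)
    set c := √((1 - A) / A) with hcdef
    have hc2 : c ^ 2 = (1 - A) / A := Real.sq_sqrt (div_pos hB h0).le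
    have hAB : phi A = c * A := by
      unfold phi
      have h6 : A * (1 - A) = (c * A) ^ 2 := by
        rw [mul_pow, hc2]
        field_simp
      rw [h6, Real.sqrt_sq (by positivity)]
    have h7 : (1 - A) / c = c * A := by
      rw [div_eq_iff hc.ne']
      have : c * A * c = c ^ 2 * A := by ring
      rw [this, hc2]
      field_simp
    rw [h7, hAB]
    ring

end Vale.Agent.Lib.P143L
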