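import Vale.Agent.Lib.P143L.Defs

/-!
Proof level definitions: Dirichlet energies and capacities, marginals, the weighted tree law, the bounded
observation channel, the round map and its fixed point, the rounds, and what the localization needs.
-/

namespace Vale.Agent.Lib.P143L

open MeasureTheory Filter Topology
open scoped ENNReal

universe u

section Graph

variable {V : Type u}

/-- The weight of an edge set for the log conductances `L`. -/
noncomputable def wt (L : Sym2 V → ℝ) (T : Finset (Sym2 V)) : ℝ := Real.exp (∑ g ∈ T, L g)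

/-- The weighted number of spanning trees. -/
noncomputable def Zw (W : Finset V) (H : Finset (Sym2 V)) (L : Sym2 V → ℝ) : ℝ :=
  ∑ T ∈ trees W H, wt L T

open Classical in
/-- The probability, for the weighted spanning tree of `(W, H)`, that `S` is contained in the tree. -/
noncomputable def qH (W : Finset V) (H : Finset (Sym2 V)) (L : Sym2 V → ℝ) (S : Finset (Sym2 V)) : ℝ :=
  (∑ T ∈ (trees W H).filter (fun T => S ⊆ T), wt L T) / Zw W H L

/-- The squared gradient of a potential along an edge. -/
noncomputable def gradSq (f : V → ℝ) : Sym2 V → ℝ :=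
  Sym2.lift ⟨fun a b => (f a - f b) ^ 2, fun a b => by ring⟩

/-- The Dirichlet energy on a finite edge set. -/
noncomputable def enF (F : Finset (Sym2 V)) (L : Sym2 V → ℝ) (f : V → ℝ) : ℝ :=
  ∑ g ∈ F, Real.exp (L g) * gradSq f g

/-- The potentials with values in `[0, 1]` taking the values `0` and `1` at the ends of `g`. -/
def KK (g : Sym2 V) : Set (V → ℝ) := {f | (∀ v, 0 ≤ f v ∧ f v ≤ 1) ∧ gradSq f g = 1}

/-- The capacity of `g` in the finite edge set `F`. -/
noncomputable def capF (F : Finset (Sym2 V)) (L : Sym2 V → ℝ) (g : Sym2 V) : ℝ :=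
  sInf (enF F L '' KK g)

/-- The free capacity of `g` in `G`: supremum over the finite edge sets of `G`. -/
noncomputable def capG (G : SimpleGraph V) (L : Sym2 V → ℝ) (g : Sym2 V) : ℝ :=
  ⨆ F : {F : Finset (Sym2 V) // (F : Set (Sym2 V)) ⊆ G.edgeSet}, capF F.1 L g

open Classical in
/-- The marginal of `g` in the free forest of `G` with log conductances `L`. -/
noncomputable def mG (G : SimpleGraph V) (L : Sym2 V → ℝ) (g : Sym2 V) : ℝ :=
  if g ∈ G.edgeSet then Real.exp (L g) / capG G L g else 0

end Graph

section Loc

variable {E : Type*}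

/-- The observation in `[-1, 1]` drawn from the uniform value `v` when the current marginal is `m`:
the quantile function of the density `(3 + (2 m - 1) x) / 6` on `[-1, 1]`. -/
noncomputable def chanX (m v : ℝ) : ℝ :=
  ((2 * m - 1) / 3 + 2 * (2 * v - 1)) /
    (1 + √(1 + 2 * ((2 * m - 1) / 3) * (2 * v - 1) + ((2 * m - 1) / 3) ^ 2))

/-- The log likelihood ratio of the observation `x`. -/
noncomputable def chanL (x : ℝ) : ℝ := Real.log ((3 + x) / (3 - x))

/-- The update of a log conductance. -/
noncomputable def chanZ (m : ℝ) (v : unitInterval) : ℝ := chanL (chanX m v)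

open Classical in
/-- The log conductances seen by `e` in a round: those of the earlier edges are already updated. -/
noncomputable def partL (pr : E → E → Prop) (L z : E → ℝ) (e : E) : E → ℝ :=
  fun g => L g + if pr g e then z g else 0

open Classical in
/-- One application of the round equation on the set of edges `D`. -/
noncomputable def roundMap (m : (E → ℝ) → E → ℝ) (D : Set E) (pr : E → E → Prop) (L : E → ℝ)
    (v : E → unitInterval) (z : E → ℝ) : E → ℝ :=
  fun e => if e ∈ D then chanZ (m (partL pr L z e) e) (v e) else 0

/-- The iterates of the round equation. -/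
noncomputable def zIt (m : (E → ℝ) → E → ℝ) (D : Set E) (pr : E → E → Prop) (L : E → ℝ)
    (v : E → unitInterval) : ℕ → E → ℝ
  | 0 => 0
  | j + 1 => roundMap m D pr L v (zIt m D pr L v j)

/-- The solution of the round equation. -/
noncomputable def zFix (m : (E → ℝ) → E → ℝ) (D : Set E) (pr : E → E → Prop) (L : E → ℝ)
    (v : E → unitInterval) (e : E) : ℝ :=
  limUnder atTop (fun j => zIt m D pr L v j e)

/-- The log conductances after `k` rounds. -/
noncomputable def Lk (m : (E → ℝ) → E → ℝ) (D : Set E) (pr : E → E → Prop)
    (v : ℕ → E → unitInterval) : ℕ → E → ℝ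
  | 0 => 0
  | k + 1 => fun e => Lk m D pr v k e + zFix m D pr (Lk m D pr v k) (v k) e

/-- The edge `e` is kept when its marginal exceeds `1/2` in infinitely many rounds. -/
def Xi (m : (E → ℝ) → E → ℝ) (D : Set E) (pr : E → E → Prop) (v : ℕ → E → unitInterval) (e : E) :
    Prop :=
  ∃ᶠ k in atTop, 1 / 2 < m (Lk m D pr v k) e

open Classical in
/-- Tilt of the log conductance of a single edge. -/
noncomputable def tiltE (L : E → ℝ) (e : E) (r : ℝ) : E → ℝ := Function.update L e (L e + r)

/-- The potential `√(t (1 - t))`. -/
noncomputable def phi (t : ℝ) : ℝ := √(t * (1 - t))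

open Classical in
/-- What the localization needs from a family of marginals `m` and inclusion probabilities `q`. -/
structure LocData (m : (E → ℝ) → E → ℝ) (q : (E → ℝ) → Finset E → ℝ) : Prop where
  m_mem : ∀ L e, 0 ≤ m L e ∧ m L e ≤ 1
  odds : ∀ (L L' : E → ℝ) (a : ℝ) (e : E), (∀ g, |L g - L' g| ≤ a) →
    m L' e * (1 - m L e) ≤ Real.exp (2 * a) * (m L e * (1 - m L' e))
  q_empty : ∀ L, q L ∅ = 1
  q_single : ∀ L e, q L {e} = m L e
  q_mem : ∀ L S, 0 ≤ q L S ∧ q L S ≤ 1
  tilt : ∀ (L : E → ℝ) (e : E) (r : ℝ) (S : Finset E),
    q (tiltE L e r) S * (1 + (Real.exp r - 1) * m L e) =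
      q L S + (Real.exp r - 1) * q L (insert e S)
  q_le : ∀ L S g, g ∈ S → q L S ≤ m L g
  q_ge : ∀ L S, 1 - ∑ g ∈ S, (1 - m L g) ≤ q L S
  q_cont : ∀ (S : Finset E) (R : ℝ), ContinuousOn (fun L => q L S) {L | ∀ g, |L g| ≤ R}
  m_meas : ∀ e : E, Measurable (fun L => m L e)
  q_meas : ∀ S : Finset E, Measurable (fun L => q L S)

end Loc


section Forest

variable {V : Type u}

/-- The coding of a graph on the natural numbers by a Boolean array, inverse of `adjB`. -/
def graphOf (a : ℕ × ℕ → Bool) : SimpleGraph ℕ := SimpleGraph.fromRel (fun u v => a (u, v) = true)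

open Classical in
/-- Inclusion probabilities of the free forest with log conductances `L`, by tilting on one edge at a
time (for a tree law `P`, `P(e, S in T) = P_tilt(S in T) * (1 + P(e in T)) - P(S in T)` where `P_tilt` is
`P` with the conductance of `e` doubled). -/
noncomputable def qL (G : SimpleGraph V) : (Sym2 V → ℝ) → List (Sym2 V) → ℝ
  | _, [] => 1
  | L, e :: l => qL G (tiltE L e (Real.log 2)) l * (1 + mG G L e) - qL G L l

/-- Inclusion probabilities of the free forest with log conductances `L`. -/
noncomputable def qG (G : SimpleGraph V) (L : Sym2 V → ℝ) (S : Finset (Sym2 V)) : ℝ := qL G L S.toList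

/-- The law of one round of noise. -/
noncomputable abbrev Pz (E : Type*) : Measure (E → unitInterval) :=
  Measure.infinitePi fun _ : E => (volume : Measure unitInterval)

/-- The law of the noise of all rounds. -/
noncomputable abbrev Pv (E : Type*) : Measure (ℕ → E → unitInterval) :=
  Measure.infinitePi fun _ : ℕ => Pz E

open Classical in
/-- The rank of the neighbour `o` of `w` among the neighbours of `w`, for the vertex labels `A`. -/
noncomputable def rankN (G : SimpleGraph V) (A : V → unitInterval) (w o : V) : ℕ :=
  ⌊(∑' x, if G.Adj w x ∧ A x < A o then (1 : ℝ≥0∞) else 0).toReal⌋₊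

open Classical in
/-- The noise of round `k` on the edge `a b`, read from the noise array of the end with smaller label. -/
noncomputable def noiseP (G : SimpleGraph V) (A : V → unitInterval) (B : V → ℕ × ℕ → unitInterval)
    (k : ℕ) (a b : V) : unitInterval :=
  if A a < A b then B a (rankN G A a b, k) else if A b < A a then B b (rankN G A b a, k) else 0

/-- The noise of round `k` on edges. -/
noncomputable def noiseS (G : SimpleGraph V) (A : V → unitInterval) (B : V → ℕ × ℕ → unitInterval)
    (k : ℕ) : Sym2 V → unitInterval :=
  Sym2.lift ⟨fun a b => noiseP G A B k a b, by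
    intro a b
    show noiseP G A B k a b = noiseP G A B k b a
    unfold noiseP
    by_cases h1 : A a < A b
    · have h2 : ¬ A b < A a := not_lt.mpr h1.le
      simp [h1, h2]
    · by_cases h2 : A b < A a
      · simp [h1, h2]
      · simp [h1, h2]⟩

/-- The order key of an edge: smaller label, then larger label. -/
noncomputable def keyE (A : V → unitInterval) : Sym2 V → (ℝ ×ₗ ℝ) :=
  Sym2.lift ⟨fun a b => toLex (min (A a : ℝ) (A b), max (A a : ℝ) (A b)), by
    intro a b
    show toLex (min (A a : ℝ) (A b), max (A a : ℝ) (A b)) = toLex (min (A b : ℝ) (A a), max (A b : ℝ) (A a))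
    rw [min_comm, max_comm]⟩

/-- The order of the edges within a round. -/
def prA (A : V → unitInterval) (g e : Sym2 V) : Prop := keyE A g < keyE A e

end Forest

end Vale.Agent.Lib.P143L
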