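import Mathlib

/-!
Statement level definitions for the free uniform spanning forest: spanning trees of finite subgraphs,
exhaustions of a graph by finite connected subgraphs, the law of the uniform spanning tree on cylinder
events, the weak limit, Cayley graphs, and the coding of graphs on the natural numbers by Boolean arrays.
-/

namespace Vale.Agent.Lib.P143L

open MeasureTheory Filter Topology
open scoped ENNReal

universe u

variable {V : Type u}

/-- `T` is the edge set of a spanning tree of the finite vertex set `W`: the edges of `T` have their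
ends in `W` and the graph on `W` with edge set `T` is a tree. -/
def IsSpTree (W : Finset V) (T : Finset (Sym2 V)) : Prop :=
  (∀ g ∈ T, ∀ v ∈ g, v ∈ W) ∧
    ((SimpleGraph.fromEdgeSet (T : Set (Sym2 V))).induce (W : Set V)).IsTree

open Classical in
/-- The spanning trees of the finite graph with vertex set `W` and edge set `H`. -/
noncomputable def trees (W : Finset V) (H : Finset (Sym2 V)) : Finset (Finset (Sym2 V)) :=
  H.powerset.filter (IsSpTree W)

/-- `(W, H)` is a finite connected subgraph of `G`. -/
def IsFinConn (G : SimpleGraph V) (W : Finset V) (H : Finset (Sym2 V)) : Prop :=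
  (H : Set (Sym2 V)) ⊆ G.edgeSet ∧ (∀ g ∈ H, ∀ v ∈ g, v ∈ W) ∧
    ((SimpleGraph.fromEdgeSet (H : Set (Sym2 V))).induce (W : Set V)).Connected

/-- An increasing sequence of finite connected subgraphs `G_n = (W n, H n)` of `G` with union `G`. -/
structure Exhaustion (G : SimpleGraph V) where
  W : ℕ → Finset V
  H : ℕ → Finset (Sym2 V)
  fc : ∀ n, IsFinConn G (W n) (H n)
  monoW : Monotone W
  monoH : Monotone H
  coverW : ∀ v, ∃ n, v ∈ W n
  coverH : ∀ g ∈ G.edgeSet, ∃ n, g ∈ H n

open Classical in
/-- The probability that the uniform spanning tree of `(W, H)` meets the finite set `A` exactly in `B`. -/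
noncomputable def ustProb (W : Finset V) (H : Finset (Sym2 V)) (A B : Finset (Sym2 V)) : ℝ :=
  (((trees W H).filter (fun T => T ∩ A = B)).card : ℝ) / ((trees W H).card : ℝ)

/-- `ν`, a probability measure on the edge configurations `Sym2 V → Bool`, is the free uniform spanning
forest of `G`: exhaustions exist, and along every exhaustion the uniform spanning trees of `G_n` converge
to `ν` on all cylinder events, which is weak convergence on the product space. -/
def IsFUSF (G : SimpleGraph V) (ν : Measure (Sym2 V → Bool)) : Prop :=
  IsProbabilityMeasure ν ∧ Nonempty (Exhaustion G) ∧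
    ∀ (X : Exhaustion G) (A B : Finset (Sym2 V)), B ⊆ A →
      Tendsto (fun n => ustProb (X.W n) (X.H n) A B) atTop
        (𝓝 (ν.real {ω | ∀ g ∈ A, ω g = true ↔ g ∈ B}))

/-- The Cayley graph of the group `Γ` for the generating set `S`: `x` and `y` are adjacent if `x ≠ y` and
`y = x s` or `x = y s` for some `s ∈ S`. -/
def cayleyGraph {Γ : Type u} [Group Γ] (S : Finset Γ) : SimpleGraph Γ where
  Adj x y := x ≠ y ∧ (x⁻¹ * y ∈ S ∨ y⁻¹ * x ∈ S)
  symm := ⟨fun _ _ h => ⟨h.1.symm, h.2.symm⟩⟩
  loopless := ⟨fun _ h => h.1 rfl⟩

open Classical in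
/-- The coding of a graph on the natural numbers by a Boolean array. -/
noncomputable def adjB (G : SimpleGraph ℕ) : ℕ × ℕ → Bool := fun p => decide (G.Adj p.1 p.2)

end Vale.Agent.Lib.P143L
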