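import Vale.Agent.Lib.P143L.Bridge
import Vale.Agent.Lib.P143L.Cap

/-!
The limit of the inclusion probabilities along exhaustions, existence of exhaustions, and the
localization data of the free forest.
-/

namespace Vale.Agent.Lib.P143L

open MeasureTheory Filter Topology
open scoped ENNReal

universe u

variable {V : Type u}

/-- The tilting recursion solved for the probability of the inserted edge. -/
private lemma qH_insert_eq {G : SimpleGraph V} {W : Finset V} {H : Finset (Sym2 V)}
    (h : IsFinConn G W H) (L : Sym2 V → ℝ) (e : Sym2 V) (S : Finset (Sym2 V)) :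
    qH W H L (@insert _ _ (@Finset.instInsert _ (Classical.decEq _)) e S) =
      qH W H (tiltE L e (Real.log 2)) S * (1 + qH W H L {e}) - qH W H L S := by
  classical
  have h1 := qH_tilt h L e (Real.log 2) S
  rw [Real.exp_log (by norm_num : (0 : ℝ) < 2)] at h1
  have h2 : (2 : ℝ) - 1 = 1 := by norm_num
  rw [h2, one_mul, one_mul] at h1
  have h3 : @insert _ _ (@Finset.instInsert _ (Classical.decEq _)) e S = insert e S := by
    congr
    exact Subsingleton.elim _ _
  rw [h3, h1]
  ring

open Classical in
private lemma qH_tendsto_qL {G : SimpleGraph V} (hl : ∀ v, (G.neighborSet v).Finite)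
    (X : Exhaustion G) (l : List (Sym2 V)) : ∀ L : Sym2 V → ℝ,
    Tendsto (fun n => qH (X.W n) (X.H n) L l.toFinset) atTop (𝓝 (qL G L l)) := by
  induction l with
  | nil =>
    intro L
    have : ∀ n, qH (X.W n) (X.H n) L ([] : List (Sym2 V)).toFinset = 1 := fun n => by
      simpa using qH_empty (X.fc n) L
    simp only [this]
    show Tendsto (fun _ => (1:ℝ)) atTop (𝓝 1)
    exact tendsto_const_nhds
  | cons e l ih =>
    intro L
    have h1 : ∀ n, qH (X.W n) (X.H n) L (e :: l).toFinset =
        qH (X.W n) (X.H n) (tiltE L e (Real.log 2)) l.toFinset * (1 + qH (X.W n) (X.H n) L {e})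
          - qH (X.W n) (X.H n) L l.toFinset := by
      intro n
      rw [← qH_insert_eq (X.fc n), List.toFinset_cons]
      congr
      exact Subsingleton.elim _ _
    simp only [h1]
    show Tendsto _ atTop (𝓝 (qL G (tiltE L e (Real.log 2)) l * (1 + mG G L e) - qL G L l))
    exact ((ih _).mul (tendsto_const_nhds.add (qH_tendsto_mG hl X L e))).sub (ih L)

theorem qH_tendsto_qG {G : SimpleGraph V} (hl : ∀ v, (G.neighborSet v).Finite) (X : Exhaustion G)
    (L : Sym2 V → ℝ) (S : Finset (Sym2 V)) :
    Tendsto (fun n => qH (X.W n) (X.H n) L S) atTop (𝓝 (qG G L S)) := by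
  classical
  have h := qH_tendsto_qL hl X S.toList L
  rw [Finset.toList_toFinset] at h
  exact h

/-- Reachability along a walk whose vertices and edges lie in `(W, H)`. -/
private lemma reach_of_walk {G : SimpleGraph V} {W : Finset V} {H : Finset (Sym2 V)} {a b : V}
    (p : G.Walk a b) (hs : ∀ x ∈ p.support, x ∈ W) (he : ∀ e ∈ p.edges, e ∈ H) :
    ∀ x (hx : x ∈ p.support),
      ((SimpleGraph.fromEdgeSet (H : Set (Sym2 V))).induce (W : Set V)).Reachable
        ⟨a, hs a (SimpleGraph.Walk.start_mem_support p)⟩ ⟨x, hs x hx⟩ := by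
  induction p with
  | nil =>
    intro x hx
    simp only [SimpleGraph.Walk.support_nil, List.mem_singleton] at hx
    subst hx
    exact SimpleGraph.Reachable.refl _
  | @cons u v w hadj q ih =>
    intro x hx
    have hs' : ∀ x ∈ q.support, x ∈ W := fun y hy => hs y (by simp [hy])
    have he' : ∀ e ∈ q.edges, e ∈ H := fun e he2 => he e (by simp [he2])
    rw [SimpleGraph.Walk.support_cons, List.mem_cons] at hx
    rcases hx with rfl | hx
    · exact SimpleGraph.Reachable.refl _
    · have h1 := ih hs' he' x hx
      refine SimpleGraph.Reachable.trans ?_ h1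
      apply SimpleGraph.Adj.reachable
      simp only [SimpleGraph.comap_adj, SimpleGraph.fromEdgeSet_adj, Function.Embedding.subtype_apply]
      exact ⟨he _ (by simp), hadj.ne⟩

open Classical in
theorem exists_exhaustion {G : SimpleGraph V} [Countable V] (hc : G.Connected) :
    Nonempty (Exhaustion G) := by
  have := hc.nonempty
  obtain ⟨v0⟩ := hc.nonempty
  obtain ⟨f, hf⟩ := exists_surjective_nat V
  have hw : ∀ a, Nonempty (G.Walk v0 a) := fun a => hc.preconnected v0 a
  let w : ∀ a, G.Walk v0 a := fun a => (hw a).some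
  let Wn : ℕ → Finset V := fun n =>
    {v0} ∪ (Finset.range n).biUnion (fun i => (w (f i)).support.toFinset)
  let Hn : ℕ → Finset (Sym2 V) := fun n =>
    (Finset.range n).biUnion (fun i => (w (f i)).edges.toFinset) ∪
      ((Finset.range n ×ˢ Finset.range n).filter (fun p => G.Adj (f p.1) (f p.2))).image
        (fun p => s(f p.1, f p.2))
  have hWsupp : ∀ n i, i < n → ∀ x ∈ (w (f i)).support, x ∈ Wn n := by
    intro n i hi x hx
    refine Finset.mem_union_right _ (Finset.mem_biUnion.mpr ⟨i, Finset.mem_range.mpr hi, ?_⟩)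
    exact List.mem_toFinset.mpr hx
  have hHedge : ∀ n i, i < n → ∀ e ∈ (w (f i)).edges, e ∈ Hn n := by
    intro n i hi e he
    refine Finset.mem_union_left _ (Finset.mem_biUnion.mpr ⟨i, Finset.mem_range.mpr hi, ?_⟩)
    exact List.mem_toFinset.mpr he
  have hv0 : ∀ n, v0 ∈ Wn n := fun n => Finset.mem_union_left _ (Finset.mem_singleton_self _)
  refine ⟨{ W := Wn, H := Hn, fc := ?_, monoW := ?_, monoH := ?_, coverW := ?_, coverH := ?_ }⟩
  · intro n
    refine ⟨?_, ?_, ?_⟩
    · intro g hg
      have hg' := Finset.mem_coe.mp hg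
      rcases Finset.mem_union.mp hg' with h1 | h1
      · obtain ⟨i, -, hi⟩ := Finset.mem_biUnion.mp h1
        exact SimpleGraph.Walk.edges_subset_edgeSet _ (List.mem_toFinset.mp hi)
      · obtain ⟨p, hp, rfl⟩ := Finset.mem_image.mp h1
        exact (Finset.mem_filter.mp hp).2
    · intro g hg v hv
      rcases Finset.mem_union.mp hg with h1 | h1
      · obtain ⟨i, hi, hi2⟩ := Finset.mem_biUnion.mp h1
        have hi3 := List.mem_toFinset.mp hi2
        have hi4 := Finset.mem_range.mp hi
        induction g using Sym2.ind with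
        | _ a b =>
          rcases Sym2.mem_iff.mp hv with rfl | rfl
          · exact hWsupp n i hi4 _ (SimpleGraph.Walk.fst_mem_support_of_mem_edges _ hi3)
          · exact hWsupp n i hi4 _ (SimpleGraph.Walk.snd_mem_support_of_mem_edges _ hi3)
      · obtain ⟨p, hp, rfl⟩ := Finset.mem_image.mp h1
        have hp1 := Finset.mem_product.mp (Finset.mem_filter.mp hp).1
        rcases Sym2.mem_iff.mp hv with rfl | rfl
        · exact hWsupp n p.1 (Finset.mem_range.mp hp1.1) _ (SimpleGraph.Walk.end_mem_support _)
        · exact hWsupp n p.2 (Finset.mem_range.mp hp1.2) _ (SimpleGraph.Walk.end_mem_support _)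
    · have hreach : ∀ x (hx : x ∈ (Wn n : Set V)),
          ((SimpleGraph.fromEdgeSet (Hn n : Set (Sym2 V))).induce (Wn n : Set V)).Reachable
            ⟨v0, hv0 n⟩ ⟨x, hx⟩ := by
        intro x hx
        rcases Finset.mem_union.mp (Finset.mem_coe.mp hx) with h1 | h1
        · have hx' := Finset.mem_singleton.mp h1
          subst hx'
          exact SimpleGraph.Reachable.refl _
        · obtain ⟨i, hi, hi2⟩ := Finset.mem_biUnion.mp h1
          have hi4 := Finset.mem_range.mp hi
          exact reach_of_walk (w (f i)) (hWsupp n i hi4) (hHedge n i hi4) x (List.mem_toFinset.mp hi2)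
      have : Nonempty (↥(Wn n : Set V)) := ⟨⟨v0, hv0 n⟩⟩
      exact { preconnected := fun ⟨x, hx⟩ ⟨y, hy⟩ => (hreach x hx).symm.trans (hreach y hy) }
  · intro a b hab
    refine Finset.union_subset_union (le_refl _) (Finset.biUnion_subset_biUnion_of_subset_left _ ?_)
    exact Finset.range_mono hab
  · intro a b hab
    refine Finset.union_subset_union (Finset.biUnion_subset_biUnion_of_subset_left _ (Finset.range_mono hab)) ?_
    refine Finset.image_subset_image (Finset.filter_subset_filter _ ?_)
    exact Finset.product_subset_product (Finset.range_mono hab) (Finset.range_mono hab)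
  · intro v
    obtain ⟨i, rfl⟩ := hf v
    exact ⟨i + 1, hWsupp _ i (Nat.lt_succ_self i) _ (SimpleGraph.Walk.end_mem_support _)⟩
  · intro g hg
    induction g using Sym2.ind with
    | _ a b =>
      obtain ⟨i, rfl⟩ := hf a
      obtain ⟨j, rfl⟩ := hf b
      refine ⟨max i j + 1, Finset.mem_union_right _ (Finset.mem_image.mpr ⟨(i, j), ?_, rfl⟩)⟩
      refine Finset.mem_filter.mpr ⟨Finset.mem_product.mpr ⟨?_, ?_⟩, hg⟩
      · exact Finset.mem_range.mpr (Nat.lt_succ_of_le (le_max_left _ _))
      · exact Finset.mem_range.mpr (Nat.lt_succ_of_le (le_max_right _ _))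

private lemma tiltE_self' (L : Sym2 V → ℝ) (e : Sym2 V) (r : ℝ) : tiltE L e r e = L e + r := by
  unfold tiltE
  exact @Function.update_self _ _ (fun a b => Classical.propDecidable (a = b)) _ _ _

private lemma tiltE_ne' (L : Sym2 V → ℝ) {e g : Sym2 V} (r : ℝ) (h : g ≠ e) : tiltE L e r g = L g := by
  unfold tiltE
  exact @Function.update_of_ne _ _ (fun a b => Classical.propDecidable (a = b)) _ _ h _ _

private lemma tiltE_abs {L : Sym2 V → ℝ} {R : ℝ} (hL : ∀ g, |L g| ≤ R) (e : Sym2 V) {r : ℝ} (hr : 0 ≤ r)
    (g : Sym2 V) : |tiltE L e r g| ≤ R + r := by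
  by_cases h : g = e
  · subst h
    rw [tiltE_self']
    exact (abs_add_le _ _).trans (add_le_add (hL g) (abs_of_nonneg hr).le)
  · rw [tiltE_ne' L r h]
    exact (hL g).trans (by linarith)

private lemma qL_contOn {G : SimpleGraph V} (hl : ∀ v, (G.neighborSet v).Finite) (l : List (Sym2 V)) :
    ∀ R : ℝ, ContinuousOn (fun L : Sym2 V → ℝ => qL G L l) {L | ∀ g, |L g| ≤ R} := by
  induction l with
  | nil =>
    intro R
    exact continuousOn_const
  | cons e l ih =>
    intro R
    have hlog : (0:ℝ) ≤ Real.log 2 := Real.log_nonneg (by norm_num)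
    have ht : Continuous (fun L : Sym2 V → ℝ => tiltE L e (Real.log 2)) := by
      refine continuous_pi (fun g => ?_)
      by_cases h : g = e
      · subst h
        simp only [tiltE_self']
        exact (continuous_apply g).add continuous_const
      · simp only [tiltE_ne' _ _ h]
        exact continuous_apply g
    have h1 : ContinuousOn (fun L : Sym2 V → ℝ => qL G (tiltE L e (Real.log 2)) l)
        {L | ∀ g, |L g| ≤ R} :=
      (ih (R + Real.log 2)).comp ht.continuousOn (fun L hL g => tiltE_abs hL e hlog g)
    exact (h1.mul (continuousOn_const.add (mG_contOn hl e R))).sub (ih R)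

private lemma qL_meas [Countable V] (G : SimpleGraph V) (l : List (Sym2 V)) :
    Measurable (fun L : Sym2 V → ℝ => qL G L l) := by
  induction l with
  | nil => exact measurable_const
  | cons e l ih =>
    have ht : Measurable (fun L : Sym2 V → ℝ => tiltE L e (Real.log 2)) := by
      refine measurable_pi_iff.mpr (fun g => ?_)
      by_cases h : g = e
      · subst h
        simp only [tiltE_self']
        exact (measurable_pi_apply g).add measurable_const
      · simp only [tiltE_ne' _ _ h]
        exact measurable_pi_apply g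
    exact ((ih.comp ht).mul (measurable_const.add (mG_meas G e))).sub ih

theorem locData_mG [Countable V] {G : SimpleGraph V} (hc : G.Connected)
    (hl : ∀ v, (G.neighborSet v).Finite) : LocData (mG G) (qG G) := by
  classical
  obtain ⟨X⟩ := exists_exhaustion hc
  have hsingle : ∀ L e, qG G L {e} = mG G L e := fun L e =>
    tendsto_nhds_unique (qH_tendsto_qG hl X L {e}) (qH_tendsto_mG hl X L e)
  refine
    { m_mem := mG_mem hl
      odds := fun L L' a e h => mG_odds hl L L' a e h
      q_empty := fun L => ?_
      q_single := hsingle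
      q_mem := fun L S => ?_
      tilt := fun L e r S => ?_
      q_le := fun L S g hg => ?_
      q_ge := fun L S => ?_
      q_cont := fun S R => qL_contOn hl S.toList R
      m_meas := fun e => mG_meas G e
      q_meas := fun S => qL_meas G S.toList }
  · simp [qG, qL]
  · have h := qH_tendsto_qG hl X L S
    exact ⟨ge_of_tendsto' h (fun n => (qH_mem (X.fc n) L S).1),
      le_of_tendsto' h (fun n => (qH_mem (X.fc n) L S).2)⟩
  · have h1 := (qH_tendsto_qG hl X (tiltE L e r) S).mul
      (tendsto_const_nhds (x := (1 : ℝ)) |>.add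
        ((tendsto_const_nhds (x := Real.exp r - 1)).mul (qH_tendsto_mG hl X L e)))
    have h2 := (qH_tendsto_qG hl X L S).add
      ((tendsto_const_nhds (x := Real.exp r - 1)).mul
        (qH_tendsto_qG hl X L (@insert _ _ (@Finset.instInsert _ (Classical.decEq _)) e S)))
    refine tendsto_nhds_unique h1 (h2.congr (fun n => ?_))
    have h3 := qH_tilt (X.fc n) L e r S
    have h4 : @insert _ _ (@Finset.instInsert _ (Classical.decEq _)) e S = insert e S := by
      congr
      exact Subsingleton.elim _ _
    rw [h3, h4]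
  · have h1 := qH_tendsto_qG hl X L S
    have h2 := qH_tendsto_mG hl X L g
    exact le_of_tendsto_of_tendsto' h1 h2 (fun n => qH_le (X.fc n) L S hg)
  · have h1 := qH_tendsto_qG hl X L S
    have h2 : Tendsto (fun n => 1 - ∑ g ∈ S, (1 - qH (X.W n) (X.H n) L {g})) atTop
        (𝓝 (1 - ∑ g ∈ S, (1 - mG G L g))) :=
      tendsto_const_nhds.sub (tendsto_finsetSum _ (fun g _ =>
        tendsto_const_nhds.sub (qH_tendsto_mG hl X L g)))
    exact le_of_tendsto_of_tendsto' h2 h1 (fun n => qH_ge (X.fc n) L S)

end Vale.Agent.Lib.P143L
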