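import Vale.Agent.Lib.P143L.Noise
import Vale.Agent.Lib.P143L.QLim

/-!
Module M9: assembly. The law of the universal map is the free uniform spanning forest; Cayley graphs;
the coding of graphs on the natural numbers.
-/

namespace Vale.Agent.Lib.P143L

open MeasureTheory Filter Topology
open scoped ENNReal

universe u

section Cyl
variable {α : Type*} [DecidableEq α]

open Classical in
/-- Inclusion and exclusion on a cylinder, pointwise. -/
theorem cyl_expand (A B : Finset α) (hBA : B ⊆ A) (ω : α → Bool) :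
    (if ∀ g ∈ A, ω g = true ↔ g ∈ B then (1 : ℝ) else 0) =
      ∑ S ∈ (A \ B).powerset, (-1 : ℝ) ^ S.card * (if ∀ g ∈ B ∪ S, ω g = true then (1 : ℝ) else 0) := by
  set x : α → ℝ := fun g => if ω g = true then 1 else 0 with hx
  have h1 : ∀ T : Finset α, (if ∀ g ∈ T, ω g = true then (1 : ℝ) else 0) = ∏ g ∈ T, x g := by
    intro T
    have := Finset.prod_ite_zero (s := T) (p := fun g => ω g = true) (f := fun _ => (1 : ℝ))
    simpa using this.symm
  have h2 : ∀ S ∈ (A \ B).powerset, (-1 : ℝ) ^ S.card * (if ∀ g ∈ B ∪ S, ω g = true then (1 : ℝ) else 0) =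
      (∏ g ∈ B, x g) * ∏ g ∈ S, (- x g) := by
    intro S hS
    have hd : Disjoint B S := by
      rw [Finset.mem_powerset] at hS
      exact Finset.disjoint_of_subset_right hS Finset.disjoint_sdiff
    rw [h1, Finset.prod_union hd, Finset.prod_neg]
    ring
  rw [Finset.sum_congr rfl h2, ← Finset.mul_sum]
  have h3 := Finset.prod_one_add (s := A \ B) (f := fun g => - x g)
  rw [← h3]
  have h4 : (∏ g ∈ A \ B, (1 + - x g)) = if ∀ g ∈ A \ B, ω g ≠ true then (1 : ℝ) else 0 := by
    have := Finset.prod_ite_zero (s := A \ B) (p := fun g => ω g ≠ true) (f := fun _ => (1 : ℝ))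
    rw [Finset.prod_const_one] at this
    rw [← this]
    refine Finset.prod_congr rfl fun g _ => ?_
    by_cases hg : ω g = true <;> simp [hx, hg]
  rw [h4, ← h1]
  by_cases hC : ∀ g ∈ A, ω g = true ↔ g ∈ B
  · have h5 : ∀ g ∈ B, ω g = true := fun g hg => (hC g (hBA hg)).2 hg
    have h6 : ∀ g ∈ A \ B, ω g ≠ true := fun g hg h7 => by
      rw [Finset.mem_sdiff] at hg
      exact hg.2 ((hC g hg.1).1 h7)
    rw [if_pos hC, if_pos h5, if_pos h6, one_mul]
  · rw [if_neg hC]
    by_cases h5 : ∀ g ∈ B, ω g = true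
    · have h6 : ¬ ∀ g ∈ A \ B, ω g ≠ true := by
        intro h7
        refine hC fun g hg => ⟨fun h8 => ?_, fun h8 => h5 g h8⟩
        by_contra h9
        exact h7 g (Finset.mem_sdiff.2 ⟨hg, h9⟩) h8
      rw [if_neg h6, mul_zero]
    · rw [if_neg h5, zero_mul]

omit [DecidableEq α] in
theorem measurableSet_allTrue (hm : ∀ g : α, Measurable fun ω : α → Bool => ω g)
    (T : Finset α) : MeasurableSet {ω : α → Bool | ∀ g ∈ T, ω g = true} := by
  have : {ω : α → Bool | ∀ g ∈ T, ω g = true} = ⋂ g ∈ T, (fun ω : α → Bool => ω g) ⁻¹' {true} := by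
    ext ω; simp
  rw [this]
  exact Finset.measurableSet_biInter T fun g _ => hm g (measurableSet_singleton _)

open Classical in
/-- Inclusion and exclusion on a cylinder, for probabilities. -/
theorem cyl_prob (ν : Measure (α → Bool)) [IsProbabilityMeasure ν] (A B : Finset α) (hBA : B ⊆ A) :
    ν.real {ω | ∀ g ∈ A, ω g = true ↔ g ∈ B} =
      ∑ S ∈ (A \ B).powerset, (-1 : ℝ) ^ S.card * ν.real {ω | ∀ g ∈ B ∪ S, ω g = true} := by
  have hm : ∀ g : α, Measurable fun ω : α → Bool => ω g := fun g => measurable_pi_apply g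
  have hC : MeasurableSet {ω : α → Bool | ∀ g ∈ A, ω g = true ↔ g ∈ B} := by
    have : {ω : α → Bool | ∀ g ∈ A, ω g = true ↔ g ∈ B} =
        ⋂ g ∈ A, (fun ω : α → Bool => ω g) ⁻¹' {b | b = true ↔ g ∈ B} := by
      ext ω; simp
    rw [this]
    exact Finset.measurableSet_biInter A fun g _ => hm g (MeasurableSet.of_discrete)
  have h1 : ∀ T : Finset α, ν.real {ω | ∀ g ∈ T, ω g = true} =
      ∫ ω, (if ∀ g ∈ T, ω g = true then (1 : ℝ) else 0) ∂ν := by
    intro T
    rw [← integral_indicator_one (measurableSet_allTrue hm T)]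
    refine integral_congr_ae (Eventually.of_forall fun ω => ?_)
    by_cases hω : ∀ g ∈ T, ω g = true <;> simp [Set.indicator, hω]
  have h2 : ν.real {ω | ∀ g ∈ A, ω g = true ↔ g ∈ B} =
      ∫ ω, (if ∀ g ∈ A, ω g = true ↔ g ∈ B then (1 : ℝ) else 0) ∂ν := by
    rw [← integral_indicator_one hC]
    refine integral_congr_ae (Eventually.of_forall fun ω => ?_)
    by_cases hω : ∀ g ∈ A, ω g = true ↔ g ∈ B <;> simp [Set.indicator, hω]
  have hint : ∀ T : Finset α, Integrable (fun ω : α → Bool => if ∀ g ∈ T, ω g = true then (1 : ℝ) else 0) ν := by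
    intro T
    refine Integrable.of_bound ?_ 1 (Eventually.of_forall fun ω => ?_)
    · exact (Measurable.ite (measurableSet_allTrue hm T) measurable_const measurable_const).aestronglyMeasurable
    · split_ifs <;> simp
  rw [h2]
  simp_rw [cyl_expand A B hBA, h1]
  rw [integral_finsetSum _ fun S _ => (hint _).const_mul _]
  refine Finset.sum_congr rfl fun S _ => ?_
  rw [integral_const_mul]

end Cyl

section Core
variable {V : Type u}

/-- The probability that the forest contains the finite set `S`. -/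
theorem PhiG_law' [Countable V] {G : SimpleGraph V} (hc : G.Connected) (hl : ∀ v, (G.neighborSet v).Finite)
    (X : Exhaustion G) (S : Finset (Sym2 V)) :
    (Measure.map (PhiG G) (unifV V)).real {ω | ∀ g ∈ S, ω g = true} = qG G 0 S := by
  have hm : Measurable (PhiG G) := PhiG_meas hc hl
  have hCm : MeasurableSet {ω : Sym2 V → Bool | ∀ g ∈ S, ω g = true} :=
    measurableSet_allTrue (fun g => measurable_pi_apply g) S
  rw [map_measureReal_apply hm hCm]
  by_cases hS : (S : Set (Sym2 V)) ⊆ G.edgeSet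
  · exact PhiG_law hc hl S hS
  · obtain ⟨g, hgS, hgE⟩ : ∃ g ∈ S, g ∉ G.edgeSet := by
      by_contra hn
      exact hS fun g hg => by_contra fun hg2 => hn ⟨g, hg, hg2⟩
    have h0 : PhiG G ⁻¹' {ω | ∀ g ∈ S, ω g = true} = ∅ := by
      ext U
      simp only [Set.mem_preimage, Set.mem_ofPred_eq, Set.mem_empty_iff_false, iff_false]
      intro hU
      have := hU g hgS
      rw [PhiG_false U hgE] at this
      exact Bool.false_ne_true this
    rw [h0, measureReal_empty]
    have hlim := qH_tendsto_qG hl X 0 S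
    have hzero : ∀ n, qH (X.W n) (X.H n) 0 S = 0 := fun n =>
      qH_notMem (X.fc n) 0 hgS fun hn => hgE ((X.fc n).1 hn)
    simp_rw [hzero] at hlim
    exact tendsto_nhds_unique tendsto_const_nhds hlim

/-- The law of the universal map on the graph `G` is the free uniform spanning forest of `G`. -/
theorem core_FUSF [Countable V] {G : SimpleGraph V} (hc : G.Connected) (hl : ∀ v, (G.neighborSet v).Finite) :
    IsFUSF G (Measure.map (PhiG G) (unifV V)) := by
  classical
  have hm : Measurable (PhiG G) := PhiG_meas hc hl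
  have h0 : IsProbabilityMeasure (unifV V) := by unfold unifV; infer_instance
  have hp : IsProbabilityMeasure (Measure.map (PhiG G) (unifV V)) :=
    Measure.isProbabilityMeasure_map hm.aemeasurable
  refine ⟨hp, exists_exhaustion hc, fun X A B hBA => ?_⟩
  have h1 : ∀ n, ustProb (X.W n) (X.H n) A B =
      ∑ S ∈ (A \ B).powerset, (-1 : ℝ) ^ S.card * qH (X.W n) (X.H n) 0 (B ∪ S) := fun n =>
    ustProb_eq (X.fc n) A B hBA
  have h2 : (Measure.map (PhiG G) (unifV V)).real {ω | ∀ g ∈ A, ω g = true ↔ g ∈ B} =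
      ∑ S ∈ (A \ B).powerset, (-1 : ℝ) ^ S.card * qG G 0 (B ∪ S) := by
    rw [cyl_prob _ A B hBA]
    exact Finset.sum_congr rfl fun S _ => by rw [PhiG_law' hc hl X]
  rw [h2]
  refine Tendsto.congr (fun n => (h1 n).symm) ?_
  exact tendsto_finsetSum _ fun S _ => (qH_tendsto_qG hl X 0 (B ∪ S)).const_mul _

end Core

section Cayley
variable {Γ : Type u} [Group Γ] {S : Finset Γ}

/-- Every element is joined to `1` in the Cayley graph. -/
theorem cayley_reachable (hS : Subgroup.closure (S : Set Γ) = ⊤) (x : Γ) :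
    (cayleyGraph S).Reachable 1 x := by
  have hstep : ∀ (y s : Γ), (s ∈ S ∨ s⁻¹ ∈ S) → (cayleyGraph S).Reachable y (y * s) := by
    intro y s hs
    by_cases h : y = y * s
    · rw [← h]
    · refine SimpleGraph.Adj.reachable ⟨h, ?_⟩
      rcases hs with hs | hs
      · left; simpa using hs
      · right; simpa using hs
  have hx : x ∈ Subgroup.closure (S : Set Γ) := by rw [hS]; trivial
  -- right multiplication induction
  induction hx using Subgroup.closure_induction_right with
  | one => exact SimpleGraph.Reachable.refl _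
  | mul_right y _ s hs ih => exact ih.trans (hstep y s (Or.inl hs))
  | mul_inv_cancel y _ s hs ih => exact ih.trans (hstep y s⁻¹ (Or.inr (by simpa using hs)))

theorem cayley_connected (hS : Subgroup.closure (S : Set Γ) = ⊤) : (cayleyGraph S).Connected :=
  { preconnected := fun x y => ((cayley_reachable hS x).symm).trans (cayley_reachable hS y)
    nonempty := ⟨1⟩ }

theorem cayley_locFin (x : Γ) : ((cayleyGraph S).neighborSet x).Finite := by
  classical
  refine Set.Finite.subset (((S.image (x * ·)) ∪ (S.image fun s => x * s⁻¹)).finite_toSet) ?_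
  intro y hy
  have hy' : x ≠ y ∧ (x⁻¹ * y ∈ S ∨ y⁻¹ * x ∈ S) := hy
  simp only [Finset.coe_union, Finset.coe_image, Set.mem_union, Set.mem_image, Finset.mem_coe]
  rcases hy'.2 with h | h
  · exact Or.inl ⟨_, h, by group⟩
  · exact Or.inr ⟨_, h, by group⟩

theorem cayley_countable (hS : Subgroup.closure (S : Set Γ) = ⊤) : Countable Γ := by
  classical
  -- every element is a product of a list of generators and inverses
  let T : Set Γ := (S : Set Γ) ∪ (S : Set Γ)⁻¹
  have hsurj : Function.Surjective (fun l : List {t // t ∈ (S : Set Γ) ∪ (S : Set Γ)⁻¹} => (l.map Subtype.val).prod) := by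
    intro x
    have hx : x ∈ Subgroup.closure (S : Set Γ) := by rw [hS]; trivial
    induction hx using Subgroup.closure_induction_right with
    | one => exact ⟨[], by simp⟩
    | mul_right y _ s hs ih =>
      obtain ⟨l, hl⟩ := ih
      refine ⟨l ++ [⟨s, Or.inl hs⟩], ?_⟩
      simpa using hl
    | mul_inv_cancel y _ s hs ih =>
      obtain ⟨l, hl⟩ := ih
      refine ⟨l ++ [⟨s⁻¹, Or.inr (by simpa using hs)⟩], ?_⟩
      simpa using hl
  haveI : Countable {t // t ∈ (S : Set Γ) ∪ (S : Set Γ)⁻¹} := by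
    have h1 : ((S : Set Γ) ∪ (S : Set Γ)⁻¹).Finite := S.finite_toSet.union S.finite_toSet.inv
    exact h1.countable.to_subtype
  exact hsurj.countable

/-- Left translation as a bijection. -/
def leftEquiv (γ : Γ) : Γ ≃ Γ := Equiv.mulLeft γ

theorem cayley_map (γ : Γ) : (cayleyGraph S).map (leftEquiv γ).toEmbedding = cayleyGraph S := by
  ext x y
  simp only [SimpleGraph.map_adj]
  constructor
  · rintro ⟨a, b, hab, rfl, rfl⟩
    have hab' : a ≠ b ∧ (a⁻¹ * b ∈ S ∨ b⁻¹ * a ∈ S) := hab
    refine ⟨fun h => hab'.1 (mul_left_cancel h), ?_⟩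
    show ((γ * a)⁻¹ * (γ * b) ∈ S ∨ (γ * b)⁻¹ * (γ * a) ∈ S)
    simpa [mul_assoc] using hab'.2
  · intro hxy
    have hxy' : x ≠ y ∧ (x⁻¹ * y ∈ S ∨ y⁻¹ * x ∈ S) := hxy
    refine ⟨γ⁻¹ * x, γ⁻¹ * y, ⟨fun h => hxy'.1 (mul_left_cancel h), ?_⟩, ?_, ?_⟩
    · simpa [mul_assoc] using hxy'.2
    · simp [leftEquiv]
    · simp [leftEquiv]

/-- The Cayley part: the universal map is a factor of IID for the group action. -/
theorem cayley_main (hS : Subgroup.closure (S : Set Γ) = ⊤) :
    ∃ Φ : (Γ → unitInterval) → (Sym2 Γ → Bool), Measurable Φ ∧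
      (∀ (γ : Γ) (U : Γ → unitInterval), Φ (fun v => U (γ⁻¹ * v)) = fun g => Φ U (Sym2.map (fun v => γ⁻¹ * v) g)) ∧
      IsFUSF (cayleyGraph S) (Measure.map Φ (Measure.infinitePi fun _ : Γ => (volume : Measure unitInterval))) := by
  haveI := cayley_countable hS
  have hc := cayley_connected hS
  have hl : ∀ v, ((cayleyGraph S).neighborSet v).Finite := cayley_locFin
  refine ⟨PhiG (cayleyGraph S), PhiG_meas hc hl, ?_, core_FUSF hc hl⟩
  intro γ U
  funext g
  have h1 := PhiG_map (cayleyGraph S) (leftEquiv γ) U (Sym2.map (fun v => γ⁻¹ * v) g)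
  rw [cayley_map γ] at h1
  rw [← h1]
  have h2 : Sym2.map (leftEquiv γ) (Sym2.map (fun v => γ⁻¹ * v) g) = g := by
    rw [Sym2.map_map]
    have h3 : (leftEquiv γ : Γ → Γ) ∘ (fun v => γ⁻¹ * v) = id := by
      funext v
      simp [leftEquiv]
    rw [h3, Sym2.map_id, id]
  rw [h2]
  rfl

end Cayley

section Code

open Classical in
theorem graphOf_adjB (G : SimpleGraph ℕ) : graphOf (adjB G) = G := by
  ext u v
  simp only [graphOf, SimpleGraph.fromRel_adj, adjB, decide_eq_true_eq]
  constructor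
  · rintro ⟨_, h | h⟩
    · exact h
    · exact h.symm
  · intro h
    exact ⟨h.ne, Or.inl h⟩

theorem goodCode_adjB {G : SimpleGraph ℕ} : GoodCode (adjB G) ↔ G.Connected ∧ ∀ v, (G.neighborSet v).Finite := by
  unfold GoodCode
  rw [graphOf_adjB]

theorem map_connected (G : SimpleGraph ℕ) (σ : ℕ ≃ ℕ) : (G.map σ.toEmbedding).Connected ↔ G.Connected := by
  have e : G ≃g G.map σ.toEmbedding := SimpleGraph.Iso.map σ G
  exact e.connected_iff.symm

theorem map_locFin (G : SimpleGraph ℕ) (σ : ℕ ≃ ℕ) :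
    (∀ v, ((G.map σ.toEmbedding).neighborSet v).Finite) ↔ ∀ v, (G.neighborSet v).Finite := by
  have key : ∀ (G : SimpleGraph ℕ) (σ : ℕ ≃ ℕ), (∀ v, (G.neighborSet v).Finite) →
      ∀ v, ((G.map σ.toEmbedding).neighborSet v).Finite := by
    intro G σ h v
    refine ((h (σ.symm v)).image σ).subset ?_
    intro w hw
    have hw' : (G.map σ.toEmbedding).Adj v w := hw
    rw [SimpleGraph.map_adj] at hw'
    obtain ⟨a, b, hab, ha, hb⟩ := hw'
    refine ⟨b, ?_, hb⟩
    have : σ.symm v = a := by rw [← ha]; simp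
    rw [this]
    exact hab
  refine ⟨fun h => ?_, key G σ⟩
  have h2 := key _ σ.symm h
  have h3 : (G.map σ.toEmbedding).map σ.symm.toEmbedding = G := by
    ext u v
    simp only [SimpleGraph.map_adj]
    constructor
    · rintro ⟨a, b, ⟨c, d, hcd, rfl, rfl⟩, rfl, rfl⟩
      simpa using hcd
    · intro huv
      exact ⟨σ u, σ v, ⟨u, v, huv, rfl, rfl⟩, by simp, by simp⟩
  rwa [h3] at h2

open Classical in
/-- The universal Borel map on coded graphs. -/
noncomputable def PsiU (p : (ℕ × ℕ → Bool) × (ℕ → unitInterval)) (g : Sym2 ℕ) : Bool :=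
  decide (GoodCode p.1 ∧ PhiG (graphOf p.1) p.2 g = true)

theorem PsiU_meas : Measurable PsiU := by
  classical
  refine measurable_pi_iff.2 fun g => ?_
  refine measurable_to_bool ?_
  have : (fun p => PsiU p g) ⁻¹' {true} =
      {p : (ℕ × ℕ → Bool) × (ℕ → unitInterval) | GoodCode p.1 ∧ PhiG (graphOf p.1) p.2 g = true} := by
    ext p
    simp [PsiU]
  rw [this]
  exact PhiG_meas_good g

theorem PsiU_eq {G : SimpleGraph ℕ} (hG : G.Connected ∧ ∀ v, (G.neighborSet v).Finite) (U : ℕ → unitInterval) :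
    PsiU (adjB G, U) = PhiG G U := by
  classical
  funext g
  have h1 : GoodCode (adjB G) := goodCode_adjB.2 hG
  simp [PsiU, h1, graphOf_adjB]

theorem PsiU_inv (σ : ℕ ≃ ℕ) (G : SimpleGraph ℕ) (U : ℕ → unitInterval) (g : Sym2 ℕ) :
    PsiU (adjB (G.map σ.toEmbedding), fun n => U (σ.symm n)) (Sym2.map σ g) = PsiU (adjB G, U) g := by
  classical
  by_cases hG : G.Connected ∧ ∀ v, (G.neighborSet v).Finite
  · have hG' : (G.map σ.toEmbedding).Connected ∧ ∀ v, ((G.map σ.toEmbedding).neighborSet v).Finite :=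
      ⟨(map_connected G σ).2 hG.1, (map_locFin G σ).2 hG.2⟩
    rw [PsiU_eq hG', PsiU_eq hG]
    exact PhiG_map G σ U g
  · have h1 : ¬ GoodCode (adjB G) := fun h => hG (goodCode_adjB.1 h)
    have h2 : ¬ GoodCode (adjB (G.map σ.toEmbedding)) := fun h => by
      have := goodCode_adjB.1 h
      exact hG ⟨(map_connected G σ).1 this.1, (map_locFin G σ).1 this.2⟩
    show decide (GoodCode (adjB (G.map σ.toEmbedding)) ∧ _) = decide (GoodCode (adjB G) ∧ _)
    rw [decide_eq_false (fun h => h2 h.1), decide_eq_false (fun h => h1 h.1)]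

/-- The graph part: one Borel map invariant under all relabellings works for all graphs. -/
theorem graph_main :
    ∃ Ψ : (ℕ × ℕ → Bool) × (ℕ → unitInterval) → (Sym2 ℕ → Bool), Measurable Ψ ∧
      (∀ (σ : ℕ ≃ ℕ) (G : SimpleGraph ℕ) (U : ℕ → unitInterval) (g : Sym2 ℕ),
        Ψ (adjB (G.map σ.toEmbedding), fun n => U (σ.symm n)) (Sym2.map σ g) = Ψ (adjB G, U) g) ∧
      ∀ G : SimpleGraph ℕ, G.Connected → (∀ v, (G.neighborSet v).Finite) →
        IsFUSF G (Measure.map (fun U => Ψ (adjB G, U))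
          (Measure.infinitePi fun _ : ℕ => (volume : Measure unitInterval))) := by
  refine ⟨PsiU, PsiU_meas, PsiU_inv, fun G hc hl => ?_⟩
  have : (fun U => PsiU (adjB G, U)) = PhiG G := by
    funext U
    exact PsiU_eq ⟨hc, hl⟩ U
  rw [this]
  exact core_FUSF hc hl

end Code

end Vale.Agent.Lib.P143L
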