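import Vale.Agent.Lib.P143L.Round
import Vale.Agent.Lib.P161.EfronStein

/-!
Module M7: the rounds of the localization. The law of the limiting configuration.
-/

namespace Vale.Agent.Lib.P143L

open MeasureTheory Filter Topology
open Vale.Agent.Lib.P161
open scoped ENNReal

section M7
variable {E : Type*} {m : (E → ℝ) → E → ℝ} {q : (E → ℝ) → Finset E → ℝ}

/-- Each round changes a log conductance by at most `log 2`. -/
theorem Lk_abs (h : LocData m q) (D : Set E) (pr : E → E → Prop) (v : ℕ → E → unitInterval) (k : ℕ)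
    (e : E) : |Lk m D pr v k e| ≤ k * Real.log 2 := by
  induction k with
  | zero => simp [Lk]
  | succ k ih =>
    have h1 := zFix_abs h D pr (Lk m D pr v k) (v k) e
    have h2 : Lk m D pr v (k + 1) e = Lk m D pr v k e + zFix m D pr (Lk m D pr v k) (v k) e := rfl
    rw [h2, Nat.cast_succ]
    calc _ ≤ |Lk m D pr v k e| + |zFix m D pr (Lk m D pr v k) (v k) e| := abs_add_le _ _
      _ ≤ _ := by nlinarith

/-- The rounds before `k` only read the noise of the rounds before `k`. -/
theorem Lk_congr (D : Set E) (pr : E → E → Prop) {v v' : ℕ → E → unitInterval} {k : ℕ}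
    (hv : ∀ j < k, v j = v' j) : Lk m D pr v k = Lk m D pr v' k := by
  induction k with
  | zero => rfl
  | succ k ih =>
    have h1 : Lk m D pr v k = Lk m D pr v' k := ih fun j hj => hv j (Nat.lt_succ_of_lt hj)
    funext e
    show Lk m D pr v k e + zFix m D pr (Lk m D pr v k) (v k) e =
      Lk m D pr v' k e + zFix m D pr (Lk m D pr v' k) (v' k) e
    rw [h1, hv k (Nat.lt_succ_self k)]

theorem Lk_meas [Countable E] {Θ : Type*} [MeasurableSpace Θ]
    (mm : Θ → (E → ℝ) → E → ℝ) (qq : Θ → (E → ℝ) → Finset E → ℝ) (hh : ∀ θ, LocData (mm θ) (qq θ))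
    (hmeas : ∀ e, Measurable (fun p : Θ × (E → ℝ) => mm p.1 p.2 e))
    (D : Θ → Set E) (hD : ∀ e, MeasurableSet {θ | e ∈ D θ})
    (pr : Θ → E → E → Prop) (hpr : ∀ g e, MeasurableSet {θ | pr θ g e})
    {v : Θ → ℕ → E → unitInterval} (hv : Measurable v) (k : ℕ) :
    Measurable (fun θ => Lk (mm θ) (D θ) (pr θ) (v θ) k) := by
  induction k with
  | zero => exact measurable_const
  | succ k ih =>
    have h1 : Measurable (fun θ => zFix (mm θ) (D θ) (pr θ) (Lk (mm θ) (D θ) (pr θ) (v θ) k) (v θ k)) :=
      zFix_meas mm qq hh hmeas D hD pr hpr ih ((measurable_pi_apply k).comp hv)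
    refine measurable_pi_iff.2 fun e => ?_
    exact ((measurable_pi_apply e).comp ih).add ((measurable_pi_apply e).comp h1)

/-- `Lk` is measurable in the noise. -/
theorem Lk_meas' [Countable E] (h : LocData m q) (D : Set E) (pr : E → E → Prop) (k : ℕ) :
    Measurable (fun v : ℕ → E → unitInterval => Lk m D pr v k) :=
  Lk_meas (fun _ => m) (fun _ => q) (fun _ => h)
    (fun e => (h.m_meas e).comp measurable_snd) (fun _ => D) (fun _ => MeasurableSet.const _)
    (fun _ => pr) (fun _ _ => MeasurableSet.const _) measurable_id k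

theorem zFix_meas' [Countable E] (h : LocData m q) (D : Set E) (pr : E → E → Prop) {Θ : Type*}
    [MeasurableSpace Θ] {L : Θ → E → ℝ} (hL : Measurable L) {v : Θ → E → unitInterval}
    (hv : Measurable v) : Measurable (fun θ => zFix m D pr (L θ) (v θ)) :=
  zFix_meas (fun _ => m) (fun _ => q) (fun _ => h)
    (fun e => (h.m_meas e).comp measurable_snd) (fun _ => D) (fun _ => MeasurableSet.const _)
    (fun _ => pr) (fun _ _ => MeasurableSet.const _) hL hv

/-- Integrating the noise of the last round first. -/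
theorem step_integral [Countable E] (h : LocData m q) (D : Set E) (pr : E → E → Prop)
    {G : (E → ℝ) → ℝ} (hG : Measurable G) {C : ℝ} (hC : ∀ L, |G L| ≤ C) (k : ℕ) :
    ∫ v, G (Lk m D pr v (k + 1)) ∂(Pv E) =
      ∫ x, (∫ w, G (fun e => Lk m D pr x k e + zFix m D pr (Lk m D pr x k) w e) ∂(Pz E)) ∂(Pv E) := by
  classical
  have hmp := es_mp (ι := ℕ) (Pz E) {k}
  have hF : Measurable (fun v => G (Lk m D pr v (k + 1))) := hG.comp (Lk_meas' h D pr (k + 1))
  have h1 : ∫ v, G (Lk m D pr v (k + 1)) ∂(Pv E) =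
      ∫ p, G (Lk m D pr (es_repl {k} p.1 p.2) (k + 1)) ∂((Pv E).prod (Pv E)) := by
    have := hmp.map_eq
    conv_lhs => rw [show Pv E = Measure.infinitePi fun _ : ℕ => Pz E from rfl, ← this]
    rw [integral_map hmp.measurable.aemeasurable hF.aestronglyMeasurable]
  have h2 : ∀ p : (ℕ → E → unitInterval) × (ℕ → E → unitInterval),
      G (Lk m D pr (es_repl {k} p.1 p.2) (k + 1)) =
        G (fun e => Lk m D pr p.1 k e + zFix m D pr (Lk m D pr p.1 k) (p.2 k) e) := by
    intro p
    have h3 : Lk m D pr (es_repl {k} p.1 p.2) k = Lk m D pr p.1 k := by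
      refine Lk_congr D pr fun j hj => ?_
      have : j ∉ ({k} : Finset ℕ) := by simpa using hj.ne
      simp [es_repl, this]
    have h4 : es_repl {k} p.1 p.2 k = p.2 k := by simp [es_repl]
    congr 1
    funext e
    show Lk m D pr _ k e + zFix m D pr (Lk m D pr _ k) (es_repl {k} p.1 p.2 k) e = _
    rw [h3, h4]
  have hjoint : Measurable (fun p : (ℕ → E → unitInterval) × (E → unitInterval) =>
      G (fun e => Lk m D pr p.1 k e + zFix m D pr (Lk m D pr p.1 k) p.2 e)) := by
    refine hG.comp (measurable_pi_iff.2 fun e => ?_)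
    have hL : Measurable (fun p : (ℕ → E → unitInterval) × (E → unitInterval) => Lk m D pr p.1 k) :=
      (Lk_meas' h D pr k).comp measurable_fst
    exact ((measurable_pi_apply e).comp hL).add
      ((measurable_pi_apply e).comp (zFix_meas' h D pr hL measurable_snd))
  have hint : Integrable (fun p : (ℕ → E → unitInterval) × (ℕ → E → unitInterval) =>
      G (fun e => Lk m D pr p.1 k e + zFix m D pr (Lk m D pr p.1 k) (p.2 k) e))
      ((Pv E).prod (Pv E)) := by
    refine Integrable.of_bound ?_ C (Eventually.of_forall fun p => ?_)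
    · exact (hjoint.comp (measurable_fst.prodMk ((measurable_pi_apply k).comp measurable_snd))).aestronglyMeasurable
    · exact (Real.norm_eq_abs _).le.trans (hC _)
  rw [h1]
  simp_rw [h2]
  rw [integral_prod _ hint]
  refine integral_congr_ae (Eventually.of_forall fun x => ?_)
  have hev := measurePreserving_eval_infinitePi (fun _ : ℕ => Pz E) k
  show ∫ s, G (fun e => Lk m D pr x k e + zFix m D pr (Lk m D pr x k) (s k) e) ∂(Pv E) = _
  have hmeas : Measurable (fun w : E → unitInterval =>
      G (fun e => Lk m D pr x k e + zFix m D pr (Lk m D pr x k) w e)) :=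
    hjoint.comp (measurable_const.prodMk measurable_id)
  have h5 := integral_map (μ := Measure.infinitePi fun _ : ℕ => Pz E) (φ := Function.eval k)
    hev.measurable.aemeasurable hmeas.aestronglyMeasurable
  rw [hev.map_eq] at h5
  exact h5.symm

theorem Lk_bdd (h : LocData m q) (D : Set E) (pr : E → E → Prop) (v : ℕ → E → unitInterval) (k : ℕ) :
    ∀ g, |Lk m D pr v k g| ≤ k * Real.log 2 := Lk_abs h D pr v k

/-- The inclusion probabilities are martingales. -/
theorem Lk_mart [Countable E] (h : LocData m q) (D : Set E) {pr : E → E → Prop} {K : Type*} [LinearOrder K]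
    (key : E → K) (hk : Set.InjOn key D) (hpr : ∀ g e, pr g e ↔ key g < key e) (S : Finset E) (k : ℕ) :
    ∫ v, q (Lk m D pr v k) S ∂(Pv E) = q 0 S := by
  induction k with
  | zero =>
    have : ∀ v, Lk m D pr v 0 = 0 := fun _ => rfl
    simp [this]
  | succ k ih =>
    have hC : ∀ L, |q L S| ≤ 1 := fun L => by
      rw [abs_le]; have := h.q_mem L S; constructor <;> linarith [this.1, this.2]
    rw [step_integral h D pr (h.q_meas S) hC k, ← ih]
    refine integral_congr_ae (Eventually.of_forall fun x => ?_)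
    exact round_mart h D key hk hpr (Lk_bdd h D pr x k) S

theorem phi_nonneg (t : ℝ) : 0 ≤ phi t := Real.sqrt_nonneg _

theorem phi_le_half (t : ℝ) : phi t ≤ 1 / 2 := by
  unfold phi
  refine Real.sqrt_le_iff.2 ⟨by norm_num, ?_⟩
  nlinarith [sq_nonneg (t - 1 / 2)]

theorem measurable_phi : Measurable phi := by
  unfold phi
  fun_prop

/-- The potential decays geometrically. -/
theorem Lk_phi [Countable E] (h : LocData m q) (D : Set E) {pr : E → E → Prop} {K : Type*} [LinearOrder K]
    (key : E → K) (hk : Set.InjOn key D) (hpr : ∀ g e, pr g e ↔ key g < key e) {e : E} (he : e ∈ D) (k : ℕ) :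
    ∫ v, phi (m (Lk m D pr v k) e) ∂(Pv E) ≤ (53 / 54) ^ k * (1 / 2) := by
  have hGm : Measurable (fun L : E → ℝ => phi (m L e)) := measurable_phi.comp (h.m_meas e)
  have hC : ∀ L : E → ℝ, |phi (m L e)| ≤ 1 / 2 := fun L => by
    rw [abs_of_nonneg (phi_nonneg _)]; exact phi_le_half _
  have hint : ∀ k, Integrable (fun x => phi (m (Lk m D pr x k) e)) (Pv E) := fun k => by
    refine Integrable.of_bound (hGm.comp (Lk_meas' h D pr k)).aestronglyMeasurable (1 / 2)
      (Eventually.of_forall fun x => ?_)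
    exact (Real.norm_eq_abs _).le.trans (hC _)
  induction k with
  | zero =>
    simp only [pow_zero, one_mul]
    calc _ ≤ ∫ _, (1 / 2 : ℝ) ∂(Pv E) := integral_mono (hint 0) (integrable_const _) fun x => phi_le_half _
      _ = 1 / 2 := by simp
  | succ k ih =>
    rw [step_integral h D pr hGm hC k]
    have hint2 : Integrable (fun x => ∫ w, phi (m (fun e => Lk m D pr x k e +
        zFix m D pr (Lk m D pr x k) w e) e) ∂(Pz E)) (Pv E) := by
      refine Integrable.of_bound ?_ (1 / 2) (Eventually.of_forall fun x => ?_)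
      · have hjoint : Measurable (fun p : (ℕ → E → unitInterval) × (E → unitInterval) =>
            phi (m (fun e => Lk m D pr p.1 k e + zFix m D pr (Lk m D pr p.1 k) p.2 e) e)) := by
          refine hGm.comp (measurable_pi_iff.2 fun e => ?_)
          have hL : Measurable (fun p : (ℕ → E → unitInterval) × (E → unitInterval) => Lk m D pr p.1 k) :=
            (Lk_meas' h D pr k).comp measurable_fst
          exact ((measurable_pi_apply e).comp hL).add
            ((measurable_pi_apply e).comp (zFix_meas' h D pr hL measurable_snd))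
        exact (hjoint.stronglyMeasurable.integral_prod_right' (ν := Pz E)).aestronglyMeasurable
      · refine (norm_integral_le_of_norm_le_const (C := 1 / 2) (Eventually.of_forall fun w => ?_)).trans ?_
        · exact (Real.norm_eq_abs _).le.trans (hC _)
        · simp
    calc _ ≤ ∫ x, 53 / 54 * phi (m (Lk m D pr x k) e) ∂(Pv E) :=
          integral_mono hint2 ((hint k).const_mul _) fun x =>
            round_phi h D key hk hpr (Lk_bdd h D pr x k) he
      _ = 53 / 54 * ∫ x, phi (m (Lk m D pr x k) e) ∂(Pv E) := integral_const_mul _ _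
      _ ≤ 53 / 54 * ((53 / 54) ^ k * (1 / 2)) := by gcongr
      _ = _ := by ring

/-- Almost surely the potential of each edge of `D` tends to `0`. -/
theorem ae_phi_tendsto [Countable E] (h : LocData m q) (D : Set E) {pr : E → E → Prop} {K : Type*}
    [LinearOrder K] (key : E → K) (hk : Set.InjOn key D) (hpr : ∀ g e, pr g e ↔ key g < key e)
    {e : E} (he : e ∈ D) :
    ∀ᵐ v ∂(Pv E), Tendsto (fun k => phi (m (Lk m D pr v k) e)) atTop (𝓝 0) := by
  have hGm : ∀ k, Measurable (fun v => phi (m (Lk m D pr v k) e)) := fun k =>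
    (measurable_phi.comp (h.m_meas e)).comp (Lk_meas' h D pr k)
  have hint : ∀ k, Integrable (fun x => phi (m (Lk m D pr x k) e)) (Pv E) := fun k => by
    refine Integrable.of_bound (hGm k).aestronglyMeasurable (1 / 2)
      (Eventually.of_forall fun x => ?_)
    rw [Real.norm_eq_abs, abs_of_nonneg (phi_nonneg _)]; exact phi_le_half _
  have hfin : ∫⁻ v, ∑' k, ENNReal.ofReal (phi (m (Lk m D pr v k) e)) ∂(Pv E) ≠ ⊤ := by
    rw [lintegral_tsum fun k => (hGm k).ennreal_ofReal.aemeasurable]
    have hle : ∀ k, ∫⁻ v, ENNReal.ofReal (phi (m (Lk m D pr v k) e)) ∂(Pv E) ≤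
        ENNReal.ofReal ((53 / 54) ^ k * (1 / 2)) := fun k => by
      rw [← ofReal_integral_eq_lintegral_ofReal (hint k)
        (Eventually.of_forall fun v => phi_nonneg _)]
      exact ENNReal.ofReal_le_ofReal (Lk_phi h D key hk hpr he k)
    refine ne_top_of_le_ne_top ?_ (ENNReal.tsum_le_tsum hle)
    have hs : Summable (fun k : ℕ => ((53 / 54 : ℝ) ^ k * (1 / 2))) :=
      (summable_geometric_of_lt_one (by norm_num) (by norm_num)).mul_right _
    rw [← ENNReal.ofReal_tsum_of_nonneg (fun k => by positivity) hs]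
    exact ENNReal.ofReal_ne_top
  have hae := ae_lt_top (Measurable.tsum fun k => (hGm k).ennreal_ofReal) hfin
  filter_upwards [hae] with v hv
  have h0 := ENNReal.tendsto_atTop_zero_of_tsum_ne_top hv.ne
  have h1 := (ENNReal.tendsto_toReal ENNReal.zero_ne_top).comp h0
  simp only [ENNReal.toReal_zero] at h1
  refine h1.congr fun k => ?_
  simp [ENNReal.toReal_ofReal (phi_nonneg _)]

theorem lt_or_gt_of_phi_lt {t : ℝ} (h : phi t < 2 / 5) : t < 1 / 5 ∨ 4 / 5 < t := by
  have h2 : t * (1 - t) < 4 / 25 := by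
    unfold phi at h
    have := (Real.sqrt_lt' (by norm_num : (0 : ℝ) < 2 / 5)).1 h
    nlinarith
  by_contra hc
  rw [not_or, not_lt, not_lt] at hc
  nlinarith [hc.1, hc.2]

/-- No crossing once the potential is small: deterministic part. -/
theorem eventually_const_of_phi {a : ℕ → ℝ} (h0 : ∀ k, 0 ≤ a k ∧ a k ≤ 1)
    (h1 : ∀ k, a (k + 1) * (1 - a k) ≤ 4 * (a k * (1 - a (k + 1))))
    (h2 : ∀ k, a k * (1 - a (k + 1)) ≤ 4 * (a (k + 1) * (1 - a k)))
    (h3 : Tendsto (fun k => phi (a k)) atTop (𝓝 0)) :
    (∀ᶠ k in atTop, 1 / 2 < a k) ∨ (∀ᶠ k in atTop, a k ≤ 1 / 2) := by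
  have h4 : ∀ᶠ k in atTop, phi (a k) < 2 / 5 := h3.eventually (gt_mem_nhds (by norm_num))
  obtain ⟨K, hK⟩ := eventually_atTop.1 h4
  have h5 : ∀ k ≥ K, a k < 1 / 5 ∨ 4 / 5 < a k := fun k hk =>
    lt_or_gt_of_phi_lt (hK k hk)
  rcases h5 K le_rfl with hlo | hhi
  · right
    refine eventually_atTop.2 ⟨K, fun k hk => ?_⟩
    have : a k < 1 / 5 := by
      induction k, hk using Nat.le_induction with
      | base => exact hlo
      | succ k hk ih =>
        rcases h5 (k + 1) (by omega) with h6 | h6
        · exact h6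
        · exfalso
          have := h1 k
          nlinarith [(h0 k).1, (h0 (k + 1)).2]
    linarith
  · left
    refine eventually_atTop.2 ⟨K, fun k hk => ?_⟩
    have : 4 / 5 < a k := by
      induction k, hk using Nat.le_induction with
      | base => exact hhi
      | succ k hk ih =>
        rcases h5 (k + 1) (by omega) with h6 | h6
        · exfalso
          have := h2 k
          nlinarith [(h0 k).2, (h0 (k + 1)).1]
        · exact h6
    linarith

theorem one_sub_le_phi {t : ℝ} (h0 : 1 / 2 ≤ t) (h1 : t ≤ 1) : 1 - t ≤ phi t := by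
  unfold phi
  refine Real.le_sqrt_of_sq_le ?_
  nlinarith

theorem le_phi {t : ℝ} (h0 : 0 ≤ t) (h1 : t ≤ 1 / 2) : t ≤ phi t := by
  unfold phi
  refine Real.le_sqrt_of_sq_le ?_
  nlinarith

/-- The marginals of one edge along the rounds satisfy the hypotheses of the no crossing lemma. -/
theorem Lk_odds (h : LocData m q) (D : Set E) (pr : E → E → Prop) (v : ℕ → E → unitInterval) (e : E) (k : ℕ) :
    m (Lk m D pr v (k + 1)) e * (1 - m (Lk m D pr v k) e) ≤
        4 * (m (Lk m D pr v k) e * (1 - m (Lk m D pr v (k + 1)) e)) ∧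
    m (Lk m D pr v k) e * (1 - m (Lk m D pr v (k + 1)) e) ≤
        4 * (m (Lk m D pr v (k + 1)) e * (1 - m (Lk m D pr v k) e)) := by
  have hd : ∀ g, |Lk m D pr v k g - Lk m D pr v (k + 1) g| ≤ Real.log 2 := fun g => by
    have h2 : Lk m D pr v (k + 1) g = Lk m D pr v k g + zFix m D pr (Lk m D pr v k) (v k) g := rfl
    rw [h2]
    have := zFix_abs h D pr (Lk m D pr v k) (v k) g
    rw [show ∀ a b : ℝ, a - (a + b) = -b by intro a b; ring, abs_neg]
    exact this
  have hd' : ∀ g, |Lk m D pr v (k + 1) g - Lk m D pr v k g| ≤ Real.log 2 := fun g => by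
    rw [abs_sub_comm]; exact hd g
  have h4 : Real.exp (2 * Real.log 2) = 4 := by
    rw [show 2 * Real.log 2 = Real.log 2 + Real.log 2 by ring, Real.exp_add, Real.exp_log (by norm_num)]
    norm_num
  have h5 := h.odds _ _ _ e hd
  have h6 := h.odds _ _ _ e hd'
  rw [h4] at h5 h6
  exact ⟨h5, h6⟩

/-- The law of the limiting configuration. -/
theorem Xi_meas [Countable E] {Θ : Type*} [MeasurableSpace Θ]
    (mm : Θ → (E → ℝ) → E → ℝ) (qq : Θ → (E → ℝ) → Finset E → ℝ) (hh : ∀ θ, LocData (mm θ) (qq θ))
    (hmeas : ∀ e, Measurable (fun p : Θ × (E → ℝ) => mm p.1 p.2 e))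
    (D : Θ → Set E) (hD : ∀ e, MeasurableSet {θ | e ∈ D θ})
    (pr : Θ → E → E → Prop) (hpr : ∀ g e, MeasurableSet {θ | pr θ g e})
    {v : Θ → ℕ → E → unitInterval} (hv : Measurable v) (e : E) :
    MeasurableSet {θ | Xi (mm θ) (D θ) (pr θ) (v θ) e} := by
  have h1 : {θ | Xi (mm θ) (D θ) (pr θ) (v θ) e} =
      ⋂ N : ℕ, ⋃ k : ℕ, ⋃ _ : N ≤ k, {θ | 1 / 2 < mm θ (Lk (mm θ) (D θ) (pr θ) (v θ) k) e} := by
    ext θ
    simp only [Set.mem_ofPred_eq, Xi, Filter.frequently_atTop, Set.mem_iInter, Set.mem_iUnion, exists_prop]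
  rw [h1]
  refine MeasurableSet.iInter fun N => MeasurableSet.iUnion fun k => MeasurableSet.iUnion fun _ => ?_
  have h2 : Measurable (fun θ => mm θ (Lk (mm θ) (D θ) (pr θ) (v θ) k) e) :=
    (hmeas e).comp (measurable_id.prodMk (Lk_meas mm qq hh hmeas D hD pr hpr hv k))
  exact measurableSet_lt measurable_const h2

theorem Xi_meas' [Countable E] (h : LocData m q) (D : Set E) (pr : E → E → Prop) (e : E) :
    MeasurableSet {v : ℕ → E → unitInterval | Xi m D pr v e} :=
  Xi_meas (fun _ => m) (fun _ => q) (fun _ => h)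
    (fun e => (h.m_meas e).comp measurable_snd) (fun _ => D) (fun _ => MeasurableSet.const _)
    (fun _ => pr) (fun _ _ => MeasurableSet.const _) measurable_id e

open Classical in
theorem loc_law [Countable E] (h : LocData m q) (D : Set E) {pr : E → E → Prop} {K : Type*} [LinearOrder K]
    (key : E → K) (hk : Set.InjOn key D) (hpr : ∀ g e, pr g e ↔ key g < key e)
    (S : Finset E) (hS : (S : Set E) ⊆ D) :
    (Pv E).real {v | ∀ g ∈ S, Xi m D pr v g} = q 0 S := by
  set A : Set (ℕ → E → unitInterval) := {v | ∀ g ∈ S, Xi m D pr v g} with hA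
  have hAm : MeasurableSet A := by
    have : A = ⋂ g ∈ S, {v | Xi m D pr v g} := by ext v; simp [hA]
    rw [this]
    exact Finset.measurableSet_biInter S fun g _ => Xi_meas' h D pr g
  -- almost sure convergence
  have hae : ∀ᵐ v ∂(Pv E), ∀ g ∈ S, Tendsto (fun k => phi (m (Lk m D pr v k) g)) atTop (𝓝 0) := by
    rw [Finset.eventually_all]
    exact fun g hg => ae_phi_tendsto h D key hk hpr (hS hg)
  have hlim : ∀ᵐ v ∂(Pv E), Tendsto (fun k => q (Lk m D pr v k) S) atTop (𝓝 (A.indicator 1 v)) := by
    filter_upwards [hae] with v hv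
    -- each edge is eventually on one side
    have hside : ∀ g ∈ S, (Xi m D pr v g ∧ ∀ᶠ k in atTop, 1 / 2 < m (Lk m D pr v k) g) ∨
        (¬ Xi m D pr v g ∧ ∀ᶠ k in atTop, m (Lk m D pr v k) g ≤ 1 / 2) := by
      intro g hg
      have := eventually_const_of_phi (a := fun k => m (Lk m D pr v k) g)
        (fun k => h.m_mem _ _) (fun k => (Lk_odds h D pr v g k).1) (fun k => (Lk_odds h D pr v g k).2)
        (hv g hg)
      rcases this with h1 | h1
      · exact Or.inl ⟨h1.frequently, h1⟩
      · refine Or.inr ⟨?_, h1⟩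
        intro hX
        obtain ⟨k, hk1, hk2⟩ := (hX.and_eventually h1).exists
        linarith
    have hsum : Tendsto (fun k => ∑ g ∈ S, phi (m (Lk m D pr v k) g)) atTop (𝓝 0) := by
      have := tendsto_finsetSum S (fun g hg => hv g hg)
      simpa using this
    by_cases hvA : v ∈ A
    · rw [Set.indicator_of_mem hvA]
      have hev : ∀ᶠ k in atTop, ∀ g ∈ S, 1 / 2 < m (Lk m D pr v k) g := by
        rw [Finset.eventually_all]
        intro g hg
        rcases hside g hg with h1 | h1
        · exact h1.2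
        · exact absurd (hvA g hg) h1.1
      have hlow : Tendsto (fun k => 1 - ∑ g ∈ S, phi (m (Lk m D pr v k) g)) atTop (𝓝 (1 : ℝ)) := by
        simpa using (tendsto_const_nhds (x := (1 : ℝ))).sub hsum
      refine tendsto_of_tendsto_of_tendsto_of_le_of_le' hlow tendsto_const_nhds ?_
        (Eventually.of_forall fun k => (h.q_mem _ S).2)
      filter_upwards [hev] with k hk
      refine le_trans ?_ (h.q_ge _ S)
      have : ∑ g ∈ S, (1 - m (Lk m D pr v k) g) ≤ ∑ g ∈ S, phi (m (Lk m D pr v k) g) :=
        Finset.sum_le_sum fun g hg => one_sub_le_phi (hk g hg).le (h.m_mem _ _).2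
      linarith
    · rw [Set.indicator_of_notMem hvA]
      obtain ⟨g, hg, hgX⟩ : ∃ g ∈ S, ¬ Xi m D pr v g := by
        by_contra hc; exact hvA fun g hg => by_contra fun hn => hc ⟨g, hg, hn⟩
      have hev : ∀ᶠ k in atTop, m (Lk m D pr v k) g ≤ 1 / 2 := by
        rcases hside g hg with h1 | h1
        · exact absurd h1.1 hgX
        · exact h1.2
      refine tendsto_of_tendsto_of_tendsto_of_le_of_le' tendsto_const_nhds (hv g hg)
        (Eventually.of_forall fun k => (h.q_mem _ S).1) ?_
      filter_upwards [hev] with k hk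
      exact (h.q_le _ S g hg).trans (le_phi (h.m_mem _ _).1 hk)
  have hdom : Tendsto (fun k => ∫ v, q (Lk m D pr v k) S ∂(Pv E)) atTop
      (𝓝 (∫ v, A.indicator 1 v ∂(Pv E))) := by
    refine tendsto_integral_of_dominated_convergence (fun _ => (1 : ℝ)) ?_ (integrable_const _) ?_ hlim
    · exact fun k => ((h.q_meas S).comp (Lk_meas' h D pr k)).aestronglyMeasurable
    · refine fun k => Eventually.of_forall fun v => ?_
      rw [Real.norm_eq_abs, abs_le]
      have := h.q_mem (Lk m D pr v k) S
      constructor <;> linarith [this.1, this.2]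
  have hconst : ∀ k, ∫ v, q (Lk m D pr v k) S ∂(Pv E) = q 0 S := Lk_mart h D key hk hpr S
  simp_rw [hconst] at hdom
  have huniq := tendsto_nhds_unique hdom tendsto_const_nhds
  rw [integral_indicator_one hAm] at huniq
  exact huniq.symm ▸ rfl

/-- only the noise on D matters -/
theorem zIt_congr (D : Set E) (pr : E → E → Prop) (L : E → ℝ) {v v' : E → unitInterval}
    (hv : ∀ e ∈ D, v e = v' e) (j : ℕ) : zIt m D pr L v j = zIt m D pr L v' j := by
  induction j with
  | zero => rfl
  | succ j ih =>
    funext e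
    show roundMap m D pr L v (zIt m D pr L v j) e = roundMap m D pr L v' (zIt m D pr L v' j) e
    rw [ih]
    unfold roundMap
    by_cases he : e ∈ D
    · simp [he, hv e he]
    · simp [he]

theorem Lk_congr' (D : Set E) (pr : E → E → Prop) {v v' : ℕ → E → unitInterval}
    (hv : ∀ k, ∀ e ∈ D, v k e = v' k e) (k : ℕ) : Lk m D pr v k = Lk m D pr v' k := by
  induction k with
  | zero => rfl
  | succ k ih =>
    funext e
    show Lk m D pr v k e + zFix m D pr (Lk m D pr v k) (v k) e =
      Lk m D pr v' k e + zFix m D pr (Lk m D pr v' k) (v' k) e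
    rw [ih]
    congr 1
    unfold zFix
    congr 1
    funext j
    rw [zIt_congr D pr _ (hv k) j]

theorem Xi_congr (h : LocData m q) (D : Set E) (pr : E → E → Prop) {v v' : ℕ → E → unitInterval}
    (hv : ∀ k, ∀ e ∈ D, v k e = v' k e) (e : E) : Xi m D pr v e ↔ Xi m D pr v' e := by
  unfold Xi
  simp_rw [Lk_congr' D pr hv]

section map
variable {E' : Type*} {m' : (E' → ℝ) → E' → ℝ} (π : E ≃ E')

theorem zIt_map (hm : ∀ L e, m' L (π e) = m (fun g => L (π g)) e)
    (D : Set E) (pr : E → E → Prop) (L : E → ℝ) (v : E → unitInterval) (j : ℕ) (e : E) :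
    zIt m' (π '' D) (fun a b => pr (π.symm a) (π.symm b)) (fun a => L (π.symm a))
      (fun a => v (π.symm a)) j (π e) = zIt m D pr L v j e := by
  classical
  induction j generalizing e with
  | zero => rfl
  | succ j ih =>
    show roundMap m' _ _ _ _ (zIt m' _ _ _ _ j) (π e) = roundMap m D pr L v (zIt m D pr L v j) e
    unfold roundMap
    by_cases he : e ∈ D
    · have he' : π e ∈ π '' D := ⟨e, he, rfl⟩
      simp only [he, he', if_true, Equiv.symm_apply_apply]
      rw [hm]
      congr 2
      funext g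
      unfold partL
      simp only [Equiv.symm_apply_apply, ih]
    · have he' : π e ∉ π '' D := by
        rintro ⟨a, ha, hae⟩
        rw [π.injective hae] at ha
        exact he ha
      simp [he, he']

theorem zFix_map (hm : ∀ L e, m' L (π e) = m (fun g => L (π g)) e)
    (D : Set E) (pr : E → E → Prop) (L : E → ℝ) (v : E → unitInterval) (e : E) :
    zFix m' (π '' D) (fun a b => pr (π.symm a) (π.symm b)) (fun a => L (π.symm a))
      (fun a => v (π.symm a)) (π e) = zFix m D pr L v e := by
  unfold zFix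
  congr 1
  funext j
  exact zIt_map π hm D pr L v j e

theorem Lk_map (hm : ∀ L e, m' L (π e) = m (fun g => L (π g)) e)
    (D : Set E) (pr : E → E → Prop) (v : ℕ → E → unitInterval) (k : ℕ) (e : E) :
    Lk m' (π '' D) (fun a b => pr (π.symm a) (π.symm b)) (fun k a => v k (π.symm a)) k (π e) =
      Lk m D pr v k e := by
  induction k generalizing e with
  | zero => rfl
  | succ k ih =>
    show Lk m' _ _ _ k (π e) + zFix m' _ _ (Lk m' _ _ _ k) _ (π e) =
      Lk m D pr v k e + zFix m D pr (Lk m D pr v k) (v k) e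
    rw [ih]
    have h1 : Lk m' (π '' D) (fun a b => pr (π.symm a) (π.symm b)) (fun k a => v k (π.symm a)) k =
        fun a => Lk m D pr v k (π.symm a) := by
      funext a
      rw [← ih (π.symm a), Equiv.apply_symm_apply]
    rw [h1, zFix_map π hm]

/-- relabelling -/
theorem Xi_map (hm : ∀ L e, m' L (π e) = m (fun g => L (π g)) e)
    (D : Set E) (pr : E → E → Prop) (v : ℕ → E → unitInterval) (e : E) :
    Xi m' (π '' D) (fun a b => pr (π.symm a) (π.symm b)) (fun k a => v k (π.symm a)) (π e) ↔ Xi m D pr v e := by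
  unfold Xi
  refine Filter.frequently_congr (Eventually.of_forall fun k => ?_)
  rw [hm]
  have : (fun g => Lk m' (π '' D) (fun a b => pr (π.symm a) (π.symm b)) (fun k a => v k (π.symm a)) k (π g)) =
      Lk m D pr v k := by
    funext g
    exact Lk_map π hm D pr v k g
  rw [this]

end map

end M7

end Vale.Agent.Lib.P143L
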