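import Vale.Agent.Lib.P143L.NoiseA
import Vale.Agent.Lib.P143L.QLim
import Vale.Agent.Lib.P143L.Rounds

/-!
Module M8: the law, the equivariance and the measurability of the universal factor map.
-/

namespace Vale.Agent.Lib.P143L

open MeasureTheory Filter Topology
open scoped ENNReal

universe u

section M8

variable {V : Type u}

lemma noise_keyE_inj {A : V → unitInterval} (hA : Function.Injective A) (G : SimpleGraph V) :
    Set.InjOn (keyE A) G.edgeSet := by
  have hcoe : ∀ x y : V, (A x : ℝ) = A y → x = y := fun x y h => hA (Subtype.ext h)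
  intro e he e' he' h
  induction e using Sym2.ind with
  | _ a b =>
    induction e' using Sym2.ind with
    | _ c d =>
      simp only [keyE, Sym2.lift_mk, EmbeddingLike.apply_eq_iff_eq, Prod.mk.injEq] at h
      obtain ⟨h1, h2⟩ := h
      have hmm : ((A a : ℝ) = A c ∧ (A b : ℝ) = A d) ∨ ((A a : ℝ) = A d ∧ (A b : ℝ) = A c) := by
        rcases le_total (A a : ℝ) (A b) with hab | hab <;> rcases le_total (A c : ℝ) (A d) with hcd | hcd
        · rw [min_eq_left hab, min_eq_left hcd] at h1
          rw [max_eq_right hab, max_eq_right hcd] at h2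
          exact Or.inl ⟨h1, h2⟩
        · rw [min_eq_left hab, min_eq_right hcd] at h1
          rw [max_eq_right hab, max_eq_left hcd] at h2
          exact Or.inr ⟨h1, h2⟩
        · rw [min_eq_right hab, min_eq_left hcd] at h1
          rw [max_eq_left hab, max_eq_right hcd] at h2
          exact Or.inr ⟨h2, h1⟩
        · rw [min_eq_right hab, min_eq_right hcd] at h1
          rw [max_eq_left hab, max_eq_left hcd] at h2
          exact Or.inl ⟨h2, h1⟩
      rcases hmm with ⟨h3, h4⟩ | ⟨h3, h4⟩
      · rw [hcoe _ _ h3, hcoe _ _ h4]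
      · rw [hcoe _ _ h3, hcoe _ _ h4, Sym2.eq_swap]

/-- For labels without ties, the law under the label arrays. -/
lemma noise_law_fixed [Countable V] {G : SimpleGraph V} (hc : G.Connected)
    (hl : ∀ v, (G.neighborSet v).Finite) {A : V → unitInterval} (hA : Function.Injective A)
    (S : Finset (Sym2 V)) (hS : (S : Set (Sym2 V)) ⊆ G.edgeSet) :
    (Pb V) {B | ∀ g ∈ S, XiAB G A B g} = ENNReal.ofReal (qG G 0 S) := by
  have h := locData_mG hc hl
  have hlaw := loc_law h G.edgeSet (keyE A) (noise_keyE_inj hA G)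
    (pr := prA A) (fun _ _ => Iff.rfl) S hS
  set C : Set (ℕ → Sym2 V → unitInterval) := {v | ∀ g ∈ S, Xi (mG G) G.edgeSet (prA A) v g} with hC
  have hCm : MeasurableSet C := by
    have : C = ⋂ g ∈ S, {v | Xi (mG G) G.edgeSet (prA A) v g} := by
      ext v; simp [hC]
    rw [this]
    refine Finset.measurableSet_biInter _ fun g _ => ?_
    exact Xi_meas_gen (mm := fun _ => mG G) (D := fun _ => G.edgeSet) (pr := fun _ => prA A)
      (v := fun θ : ℕ → Sym2 V → unitInterval => θ)
      (fun e => (mG_meas G e).comp measurable_snd) (fun _ => MeasurableSet.const _)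
      (fun _ _ => MeasurableSet.const _) measurable_id g
  have hq : 0 ≤ qG G 0 S := (h.q_mem 0 S).1
  have hPv : (Pv (Sym2 V)) C = ENNReal.ofReal (qG G 0 S) := by
    rw [← hlaw, measureReal_def, ENNReal.ofReal_toReal (measure_ne_top _ _)]
  have hpre : noiseΦ G A ⁻¹' C = {B | ∀ g ∈ S, XiAB G A B g} ×ˢ Set.univ := by
    ext ⟨B, w⟩
    simp only [Set.mem_preimage, hC, Set.mem_ofPred_eq, Set.mem_prod, Set.mem_univ, and_true]
    refine forall_congr' fun g => forall_congr' fun _ => ?_
    unfold XiAB
    refine Xi_congr h G.edgeSet (prA A) (fun k e he => ?_) g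
    simp [noiseΦ, he]
  rw [← hPv, ← noise_map hl hA, Measure.map_apply (noiseΦ_meas G A) hCm, hpre, Measure.prod_prod]
  simp

theorem PhiG_law [Countable V] {G : SimpleGraph V} (hc : G.Connected) (hl : ∀ v, (G.neighborSet v).Finite)
    (S : Finset (Sym2 V)) (hS : (S : Set (Sym2 V)) ⊆ G.edgeSet) :
    (unifV V).real {U | ∀ g ∈ S, PhiG G U g = true} = qG G 0 S := by
  have h := locData_mG hc hl
  have hq : 0 ≤ qG G 0 S := (h.q_mem 0 S).1
  set Ev : Set ((V → unitInterval) × (V → ℕ × ℕ → unitInterval)) := {p | ∀ g ∈ S, XiAB G p.1 p.2 g} with hEv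
  have hEvm : MeasurableSet Ev := by
    have : Ev = ⋂ g ∈ S, {p | XiAB G p.1 p.2 g} := by
      ext v; simp [hEv]
    rw [this]
    refine Finset.measurableSet_biInter _ fun g _ => ?_
    exact XiAB_meas (Θ := (V → unitInterval) × (V → ℕ × ℕ → unitInterval)) (G := fun _ => G)
      (fun _ _ => MeasurableSet.const _) (fun e => (mG_meas G e).comp measurable_snd)
      (A := fun θ => θ.1) measurable_fst (B := fun θ => θ.2) measurable_snd g
  have hset : {U : V → unitInterval | ∀ g ∈ S, PhiG G U g = true} = noiseSp ⁻¹' Ev := by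
    ext U
    simp only [Set.mem_ofPred_eq, Set.mem_preimage, hEv, PhiG_eq_true, noiseSp]
  rw [hset, measureReal_def, ← Measure.map_apply noiseSp_meas hEvm, noiseSp_map, Measure.prod_apply hEvm]
  have hae : ∀ᵐ A ∂(Measure.infinitePi fun _ : V => (volume : Measure unitInterval)),
      (Pb V) (Prod.mk A ⁻¹' Ev) = ENNReal.ofReal (qG G 0 S) := by
    filter_upwards [noise_ae_injective] with A hA
    exact noise_law_fixed hc hl hA S hS
  rw [lintegral_congr_ae hae]
  simp [hq]

theorem PhiG_meas_all [Countable V] (G : SimpleGraph V) : Measurable (PhiG G) := by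
  refine measurable_pi_iff.2 fun g => measurable_to_bool ?_
  have : (fun U => PhiG G U g) ⁻¹' {true} =
      {U | XiAB G (fun v => (splitU (U v)).1) (fun v => (splitU (U v)).2) g} := by
    ext U
    simp [PhiG_eq_true]
  rw [this]
  exact XiAB_meas (Θ := V → unitInterval) (G := fun _ => G)
    (fun _ _ => MeasurableSet.const _) (fun e => (mG_meas G e).comp measurable_snd)
    (A := fun U v => (splitU (U v)).1) (noiseSp_meas.fst) (B := fun U v => (splitU (U v)).2) (noiseSp_meas.snd) g

theorem PhiG_meas [Countable V] {G : SimpleGraph V} (_hc : G.Connected) (_hl : ∀ v, (G.neighborSet v).Finite) :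
    Measurable (PhiG G) := PhiG_meas_all G

theorem PhiG_meas_joint (g : Sym2 ℕ) : Measurable (fun p : (ℕ × ℕ → Bool) × (ℕ → unitInterval) => PhiG (graphOf p.1) p.2 g) := by
  refine measurable_to_bool ?_
  have : (fun p : (ℕ × ℕ → Bool) × (ℕ → unitInterval) => PhiG (graphOf p.1) p.2 g) ⁻¹' {true} =
      {p | XiAB (graphOf p.1) (fun v => (splitU (p.2 v)).1) (fun v => (splitU (p.2 v)).2) g} := by
    ext p
    simp [PhiG_eq_true]
  rw [this]
  refine XiAB_meas (Θ := (ℕ × ℕ → Bool) × (ℕ → unitInterval)) (G := fun p => graphOf p.1) ?_ ?_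
    (A := fun p v => (splitU (p.2 v)).1) (noiseSp_meas.fst.comp measurable_snd)
    (B := fun p v => (splitU (p.2 v)).2) (noiseSp_meas.snd.comp measurable_snd) g
  · intro a b
    have hbit : ∀ c d : ℕ, MeasurableSet {θ : (ℕ × ℕ → Bool) × (ℕ → unitInterval) | θ.1 (c, d) = true} := by
      intro c d
      have hm : Measurable (fun θ : (ℕ × ℕ → Bool) × (ℕ → unitInterval) => θ.1 (c, d)) :=
        (measurable_pi_apply (c, d)).comp measurable_fst
      exact hm (MeasurableSet.singleton true)
    have : {θ : (ℕ × ℕ → Bool) × (ℕ → unitInterval) | (graphOf θ.1).Adj a b} =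
        if a = b then ∅ else ({θ | θ.1 (a, b) = true} ∪ {θ | θ.1 (b, a) = true}) := by
      ext θ
      by_cases hab : a = b
      · simp [hab, graphOf]
      · simp [hab, graphOf, SimpleGraph.fromRel_adj]
    rw [this]
    split_ifs
    · exact MeasurableSet.empty
    · exact (hbit a b).union (hbit b a)
  · intro e
    have hm : Measurable (fun p : ((ℕ × ℕ → Bool) × (ℕ → unitInterval)) × (Sym2 ℕ → ℝ) => (p.1.1, p.2)) :=
      (measurable_fst.comp measurable_fst).prodMk measurable_snd
    exact (mG_meas_joint e).comp hm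

/-- the codes of connected locally finite graphs (LocData is only available for these) -/
def GoodCode (a : ℕ × ℕ → Bool) : Prop := (graphOf a).Connected ∧ ∀ v, ((graphOf a).neighborSet v).Finite

lemma noise_adj_meas (x y : ℕ) : MeasurableSet {a : ℕ × ℕ → Bool | (graphOf a).Adj x y} := by
  have hbit : ∀ c d : ℕ, MeasurableSet {a : ℕ × ℕ → Bool | a (c, d) = true} := by
    intro c d
    have hm : Measurable (fun a : ℕ × ℕ → Bool => a (c, d)) := measurable_pi_apply (c, d)
    exact hm (MeasurableSet.singleton true)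
  have : {a : ℕ × ℕ → Bool | (graphOf a).Adj x y} =
      if x = y then ∅ else ({a | a (x, y) = true} ∪ {a | a (y, x) = true}) := by
    ext a
    by_cases hab : x = y
    · simp [hab, graphOf]
    · simp [hab, graphOf, SimpleGraph.fromRel_adj]
  rw [this]
  split_ifs
  · exact MeasurableSet.empty
  · exact (hbit x y).union (hbit y x)

lemma noise_walk_meas (n : ℕ) (x y : ℕ) :
    MeasurableSet {a : ℕ × ℕ → Bool | ∃ p : (graphOf a).Walk x y, p.length = n} := by
  induction n generalizing x with
  | zero =>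
    by_cases hxy : x = y
    · subst hxy
      have : {a : ℕ × ℕ → Bool | ∃ p : (graphOf a).Walk x x, p.length = 0} = Set.univ := by
        ext a
        simp only [Set.mem_ofPred_eq, Set.mem_univ, iff_true]
        exact ⟨SimpleGraph.Walk.nil, rfl⟩
      rw [this]
      exact MeasurableSet.univ
    · have : {a : ℕ × ℕ → Bool | ∃ p : (graphOf a).Walk x y, p.length = 0} = ∅ := by
        ext a
        simp only [Set.mem_ofPred_eq, Set.mem_empty_iff_false, iff_false]
        rintro ⟨p, hp⟩
        exact hxy (SimpleGraph.Walk.eq_of_length_eq_zero hp)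
      rw [this]
      exact MeasurableSet.empty
  | succ n ih =>
    have : {a : ℕ × ℕ → Bool | ∃ p : (graphOf a).Walk x y, p.length = n + 1} =
        ⋃ z : ℕ, {a | (graphOf a).Adj x z} ∩ {a | ∃ p : (graphOf a).Walk z y, p.length = n} := by
      ext a
      simp only [Set.mem_ofPred_eq, Set.mem_iUnion, Set.mem_inter_iff]
      constructor
      · rintro ⟨p, hp⟩
        cases p with
        | nil => simp at hp
        | cons h q =>
          refine ⟨_, h, q, ?_⟩
          simpa using hp
      · rintro ⟨z, h, q, hq⟩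
        exact ⟨SimpleGraph.Walk.cons h q, by simp [hq]⟩
    rw [this]
    exact MeasurableSet.iUnion fun z => (noise_adj_meas x z).inter (ih z)

theorem goodCode_meas : MeasurableSet {a | GoodCode a} := by
  have h1 : {a : ℕ × ℕ → Bool | (graphOf a).Connected} =
      ⋂ x : ℕ, ⋂ y : ℕ, ⋃ n : ℕ, {a | ∃ p : (graphOf a).Walk x y, p.length = n} := by
    ext a
    simp only [Set.mem_ofPred_eq, Set.mem_iInter, Set.mem_iUnion, SimpleGraph.connected_iff]
    constructor
    · rintro ⟨h, _⟩ x y
      obtain ⟨p⟩ := h x y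
      exact ⟨p.length, p, rfl⟩
    · intro h
      refine ⟨fun x y => ?_, ⟨0⟩⟩
      obtain ⟨n, p, _⟩ := h x y
      exact ⟨p⟩
  have h2 : {a : ℕ × ℕ → Bool | ∀ v, ((graphOf a).neighborSet v).Finite} =
      ⋂ v : ℕ, ⋃ N : ℕ, ⋂ w : ℕ, ⋂ (_ : N < w), {a | (graphOf a).Adj v w}ᶜ := by
    ext a
    simp only [Set.mem_ofPred_eq, Set.mem_iInter, Set.mem_iUnion, Set.mem_compl_iff]
    refine forall_congr' fun v => ?_
    rw [Set.finite_iff_bddAbove]
    constructor
    · rintro ⟨N, hN⟩
      refine ⟨N, fun w hw hadj => ?_⟩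
      exact absurd (hN hadj) (not_le.2 hw)
    · rintro ⟨N, hN⟩
      refine ⟨N, fun w hw => ?_⟩
      by_contra hlt
      exact hN w (not_le.1 hlt) hw
  have : {a | GoodCode a} = {a : ℕ × ℕ → Bool | (graphOf a).Connected} ∩
      {a : ℕ × ℕ → Bool | ∀ v, ((graphOf a).neighborSet v).Finite} := rfl
  rw [this, h1, h2]
  refine MeasurableSet.inter (MeasurableSet.iInter fun x => MeasurableSet.iInter fun y =>
    MeasurableSet.iUnion fun n => noise_walk_meas n x y)
    (MeasurableSet.iInter fun v => MeasurableSet.iUnion fun N => MeasurableSet.iInter fun w =>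
      MeasurableSet.iInter fun _ => (noise_adj_meas v w).compl)

theorem PhiG_meas_good (g : Sym2 ℕ) :
    MeasurableSet {p : (ℕ × ℕ → Bool) × (ℕ → unitInterval) | GoodCode p.1 ∧ PhiG (graphOf p.1) p.2 g = true} := by
  have h1 : MeasurableSet {p : (ℕ × ℕ → Bool) × (ℕ → unitInterval) | GoodCode p.1} :=
    measurable_fst goodCode_meas
  have h2 : MeasurableSet {p : (ℕ × ℕ → Bool) × (ℕ → unitInterval) | PhiG (graphOf p.1) p.2 g = true} :=
    PhiG_meas_joint g (MeasurableSet.singleton true)
  exact h1.inter h2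

/-- The relabelling of edges. -/
def noiseEq {V' : Type*} (σ : V ≃ V') : Sym2 V ≃ Sym2 V' where
  toFun := Sym2.map σ
  invFun := Sym2.map σ.symm
  left_inv := fun e => by rw [Sym2.map_map]; simp
  right_inv := fun e => by rw [Sym2.map_map]; simp

lemma noise_edgeSet_map {V' : Type*} (G : SimpleGraph V) (σ : V ≃ V') :
    (G.map σ.toEmbedding).edgeSet = noiseEq σ '' G.edgeSet := by
  ext e
  constructor
  · intro he
    refine ⟨(noiseEq σ).symm e, ?_, (noiseEq σ).apply_symm_apply e⟩
    rw [← (noiseEq σ).apply_symm_apply e] at he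
    exact (mem_edgeSet_map G σ _).1 he
  · rintro ⟨g, hg, rfl⟩
    exact (mem_edgeSet_map G σ g).2 hg

open Classical in
lemma noise_rankN_map {V' : Type*} (G : SimpleGraph V) (σ : V ≃ V') (A : V → unitInterval) (w o : V') :
    rankN (G.map σ.toEmbedding) (fun v => A (σ.symm v)) w o = rankN G A (σ.symm w) (σ.symm o) := by
  unfold rankN
  rw [← Equiv.tsum_eq σ]
  refine congrArg (fun z : ℝ≥0∞ => ⌊z.toReal⌋₊) (tsum_congr fun x => ?_)
  have : (G.map σ.toEmbedding).Adj w (σ x) ↔ G.Adj (σ.symm w) x := by
    have h := SimpleGraph.map_adj_apply (G := G) (f := σ.toEmbedding) (a := σ.symm w) (b := x)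
    simpa using h
  have hiff : ((G.map σ.toEmbedding).Adj w (σ x) ∧ (fun v => A (σ.symm v)) (σ x) < (fun v => A (σ.symm v)) o) ↔
      (G.Adj (σ.symm w) x ∧ A x < A (σ.symm o)) := by
    simp only [this, Equiv.symm_apply_apply]
  split_ifs with h1 h2 h2
  · rfl
  · exact absurd (hiff.1 h1) h2
  · exact absurd (hiff.2 h2) h1
  · rfl

lemma noise_noiseS_map {V' : Type*} (G : SimpleGraph V) (σ : V ≃ V') (A : V → unitInterval)
    (B : V → ℕ × ℕ → unitInterval) (k : ℕ) (e : Sym2 V') :
    noiseS (G.map σ.toEmbedding) (fun v => A (σ.symm v)) (fun v => B (σ.symm v)) k e =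
      noiseS G A B k ((noiseEq σ).symm e) := by
  induction e using Sym2.ind with
  | _ a b =>
    have : (noiseEq σ).symm s(a, b) = s(σ.symm a, σ.symm b) := rfl
    rw [this]
    simp only [noiseS, Sym2.lift_mk]
    unfold noiseP
    simp only [noise_rankN_map]

lemma noise_keyE_map {V' : Type*} (σ : V ≃ V') (A : V → unitInterval) (e : Sym2 V') :
    keyE (fun v => A (σ.symm v)) e = keyE A ((noiseEq σ).symm e) := by
  induction e using Sym2.ind with
  | _ a b => rfl

theorem PhiG_map {V' : Type*} (G : SimpleGraph V) (σ : V ≃ V') (U : V → unitInterval) (g : Sym2 V) :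
    PhiG (G.map σ.toEmbedding) (fun v => U (σ.symm v)) (Sym2.map σ g) = PhiG G U g := by
  rw [Bool.eq_iff_iff, PhiG_eq_true, PhiG_eq_true]
  set A : V → unitInterval := fun v => (splitU (U v)).1 with hA
  set B : V → ℕ × ℕ → unitInterval := fun v => (splitU (U v)).2 with hB
  have h := Xi_map (m' := mG (G.map σ.toEmbedding)) (m := mG G) (noiseEq σ)
    (fun L e => mG_map G σ L e) G.edgeSet (prA A) (fun k => noiseS G A B k) g
  unfold XiAB
  rw [← h]
  have h1 : (prA fun v => (splitU (U (σ.symm v))).1) =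
      fun a b => prA A ((noiseEq σ).symm a) ((noiseEq σ).symm b) := by
    funext a b
    show (keyE (fun v => A (σ.symm v)) a < keyE (fun v => A (σ.symm v)) b) = _
    rw [noise_keyE_map, noise_keyE_map]
    rfl
  have h2 : (fun k => noiseS (G.map σ.toEmbedding) (fun v => (splitU (U (σ.symm v))).1)
      (fun v => (splitU (U (σ.symm v))).2) k) =
      fun k a => noiseS G A B k ((noiseEq σ).symm a) := by
    funext k a
    exact noise_noiseS_map G σ A B k a
  rw [h1, h2, noise_edgeSet_map]
  rfl

end M8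

end Vale.Agent.Lib.P143L
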