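import Vale.Agent.Lib.P143L.CoreDefs
import Vale.Agent.Lib.P161.Kernel

/-!
Noise of the factor map: the splitting of a uniform label, product measure lemmas (zipping, reindexing).
-/

namespace Vale.Agent.Lib.P143L

open MeasureTheory Filter Topology
open scoped ENNReal

universe u

/-- a measurable splitting of a uniform label -/
theorem exists_splitU : ∃ sp : unitInterval → unitInterval × (ℕ × ℕ → unitInterval), Measurable sp ∧
    Measure.map sp volume = (volume : Measure unitInterval).prod (Measure.infinitePi fun _ : ℕ × ℕ => (volume : Measure unitInterval)) :=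
  Vale.Agent.Lib.P161.exists_param _

noncomputable def splitU : unitInterval → unitInterval × (ℕ × ℕ → unitInterval) := Classical.choose exists_splitU

noncomputable def unifV (V : Type u) : Measure (V → unitInterval) := Measure.infinitePi fun _ => volume

lemma splitU_meas : Measurable splitU := (Classical.choose_spec exists_splitU).1

lemma splitU_map : Measure.map splitU volume = (volume : Measure unitInterval).prod (Measure.infinitePi fun _ : ℕ × ℕ => (volume : Measure unitInterval)) :=
  (Classical.choose_spec exists_splitU).2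

section Prod

variable {X : Type*} [MeasurableSpace X] (μ : Measure X) [IsProbabilityMeasure μ]

/-- Coordinates read through a map injective on the finite set `s`. -/
lemma noise_pre {ι κ : Type*} (f : κ → ι) (s : Finset κ) (hf : Set.InjOn f s) {t : κ → Set X}
    (ht : ∀ k, MeasurableSet (t k)) :
    (Measure.infinitePi fun _ : ι => μ) {x | ∀ k ∈ s, x (f k) ∈ t k} = ∏ k ∈ s, μ (t k) := by
  classical
  let t' : ι → Set X := fun i => {y | ∀ k ∈ s, f k = i → y ∈ t k}
  have ht' : ∀ i, MeasurableSet (t' i) := by
    intro i
    have : t' i = ⋂ k ∈ s, ⋂ (_ : f k = i), t k := by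
      ext y; simp [t']
    rw [this]
    exact Finset.measurableSet_biInter _ fun k _ => MeasurableSet.iInter fun _ => ht k
  have hset : {x : ι → X | ∀ k ∈ s, x (f k) ∈ t k} = Set.pi (s.image f : Finset ι) t' := by
    ext x
    simp only [Set.mem_ofPred_eq, Set.mem_pi, Finset.coe_image, Set.mem_image, Finset.mem_coe,
      forall_exists_index, and_imp, t']
    constructor
    · rintro h i k hk rfl k' hk' hkk'
      have : k' = k := hf (by simpa using hk') (by simpa using hk) hkk'
      rw [this]; exact h k hk
    · intro h k hk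
      exact h _ k hk rfl k hk rfl
  rw [hset, Measure.infinitePi_pi _ (fun i _ => ht' i), Finset.prod_image hf]
  refine Finset.prod_congr rfl fun k hk => ?_
  congr 1
  ext y
  simp only [Set.mem_ofPred_eq, t']
  constructor
  · intro h; exact h k hk rfl
  · intro h k' hk' hkk'
    have : k' = k := hf (by simpa using hk') (by simpa using hk) hkk'
    rw [this]; exact h

/-- Reading a product measure through a map injective on `D`, with fresh coordinates off `D`, gives the product
measure. -/
lemma noise_reindex {ι κ : Type*} (f : κ → ι) (D : Set κ) [DecidablePred (· ∈ D)] (hf : Set.InjOn f D) :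
    Measure.map (fun p : (ι → X) × (κ → X) => fun k => if k ∈ D then p.1 (f k) else p.2 k)
        ((Measure.infinitePi fun _ : ι => μ).prod (Measure.infinitePi fun _ : κ => μ)) =
      Measure.infinitePi fun _ : κ => μ := by
  classical
  have hmeas : Measurable (fun p : (ι → X) × (κ → X) => fun k => if k ∈ D then p.1 (f k) else p.2 k) := by
    refine measurable_pi_iff.2 fun k => ?_
    by_cases hk : k ∈ D
    · simp only [hk, if_true]
      exact (measurable_pi_apply _).comp measurable_fst
    · simp only [hk, if_false]
      exact (measurable_pi_apply _).comp measurable_snd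
  refine Measure.eq_infinitePi _ fun s t ht => ?_
  have hm : MeasurableSet (Set.pi (s : Set κ) t) :=
    MeasurableSet.pi s.countable_toSet fun i _ => ht i
  rw [Measure.map_apply hmeas hm]
  have hpre : (fun p : (ι → X) × (κ → X) => fun k => if k ∈ D then p.1 (f k) else p.2 k) ⁻¹' (Set.pi (s : Set κ) t) =
      {x : ι → X | ∀ k ∈ s.filter (· ∈ D), x (f k) ∈ t k} ×ˢ {x : κ → X | ∀ k ∈ s.filter (· ∉ D), x (id k) ∈ t k} := by
    ext ⟨x, y⟩
    simp only [Set.mem_preimage, Set.mem_pi, Finset.mem_coe, Set.mem_prod, Finset.mem_filter, Set.mem_ofPred_eq, id]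
    constructor
    · intro h
      refine ⟨fun k hk => ?_, fun k hk => ?_⟩
      · simpa [hk.2] using h k hk.1
      · simpa [hk.2] using h k hk.1
    · rintro ⟨h1, h2⟩ k hk
      by_cases hD : k ∈ D
      · simpa [hD] using h1 k ⟨hk, hD⟩
      · simpa [hD] using h2 k ⟨hk, hD⟩
  rw [hpre, Measure.prod_prod, noise_pre μ f _ (by
      intro a ha b hb hab
      have ha' := (Finset.mem_filter.1 (by simpa using ha)).2
      have hb' := (Finset.mem_filter.1 (by simpa using hb)).2
      exact hf ha' hb' hab) ht,
    noise_pre μ id _ (Set.injOn_id _) ht, Finset.prod_filter_mul_prod_filter_not]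

/-- Zipping two product measures gives the product of the products. -/
lemma noise_zip {Y : Type*} [MeasurableSpace Y] (ν : Measure Y) [IsProbabilityMeasure ν] {W : Type*} :
    Measure.map (fun p : (W → X) × (W → Y) => fun v => (p.1 v, p.2 v))
        ((Measure.infinitePi fun _ : W => μ).prod (Measure.infinitePi fun _ : W => ν)) =
      Measure.infinitePi fun _ : W => μ.prod ν := by
  classical
  have hmeas : Measurable (fun p : (W → X) × (W → Y) => fun v => (p.1 v, p.2 v)) := by
    refine measurable_pi_iff.2 fun v => ?_
    exact ((measurable_pi_apply v).comp measurable_fst).prodMk ((measurable_pi_apply v).comp measurable_snd)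
  refine Measure.eq_infinitePi _ fun s t ht => ?_
  have hm : MeasurableSet (Set.pi (s : Set W) t) :=
    MeasurableSet.pi s.countable_toSet fun i _ => ht i
  rw [Measure.map_apply hmeas hm, Measure.prod_apply (hmeas hm)]
  have hsec : ∀ x : W → X, (Measure.infinitePi fun _ : W => ν)
      (Prod.mk x ⁻¹' ((fun p : (W → X) × (W → Y) => fun v => (p.1 v, p.2 v)) ⁻¹' Set.pi (s : Set W) t)) =
      ∏ v ∈ s, ν (Prod.mk (x v) ⁻¹' t v) := by
    intro x
    have : Prod.mk x ⁻¹' ((fun p : (W → X) × (W → Y) => fun v => (p.1 v, p.2 v)) ⁻¹' Set.pi (s : Set W) t) =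
        Set.pi (s : Set W) (fun v => Prod.mk (x v) ⁻¹' t v) := by
      ext y; simp [Set.mem_pi]
    rw [this, Measure.infinitePi_pi _ (fun v _ => measurable_prodMk_left (ht v))]
  simp_rw [hsec]
  have hg : ∀ v, Measurable (fun y : X => ν (Prod.mk y ⁻¹' t v)) := fun v => measurable_measure_prodMk_left (ht v)
  have hind : ProbabilityTheory.iIndepFun (fun (v : W) (x : W → X) => (fun y : X => ν (Prod.mk y ⁻¹' t v)) (x v))
      (Measure.infinitePi fun _ : W => μ) :=
    ProbabilityTheory.iIndepFun_infinitePi (fun v => hg v)
  rw [ProbabilityTheory.lintegral_prod_eq_prod_lintegral_of_indepFun s _ hind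
    (fun v => (hg v).comp (measurable_pi_apply v))]
  refine Finset.prod_congr rfl fun v _ => ?_
  rw [Measure.prod_apply (ht v)]
  exact (_root_.measurePreserving_eval_infinitePi (fun _ : W => μ) v).lintegral_comp (hg v)

/-- The two coordinates of a product of product measures. -/
lemma noise_unzip {Y : Type*} [MeasurableSpace Y] (ν : Measure Y) [IsProbabilityMeasure ν] {W : Type*} :
    Measure.map (fun p : W → X × Y => ((fun v => (p v).1), (fun v => (p v).2)))
        (Measure.infinitePi fun _ : W => μ.prod ν) =
      (Measure.infinitePi fun _ : W => μ).prod (Measure.infinitePi fun _ : W => ν) := by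
  have hmeas : Measurable (fun p : (W → X) × (W → Y) => fun v => (p.1 v, p.2 v)) := by
    refine measurable_pi_iff.2 fun v => ?_
    exact ((measurable_pi_apply v).comp measurable_fst).prodMk ((measurable_pi_apply v).comp measurable_snd)
  have hmeas' : Measurable (fun p : W → X × Y => ((fun v => (p v).1), (fun v => (p v).2))) := by
    refine Measurable.prodMk (measurable_pi_iff.2 fun v => ?_) (measurable_pi_iff.2 fun v => ?_)
    · exact measurable_fst.comp (measurable_pi_apply v)
    · exact measurable_snd.comp (measurable_pi_apply v)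
  rw [← noise_zip μ ν, Measure.map_map hmeas' hmeas]
  exact Measure.map_id

end Prod

/-- The uniform labels of the vertices are almost surely distinct. -/
lemma noise_ae_injective {W : Type*} [Countable W] :
    ∀ᵐ A ∂(Measure.infinitePi fun _ : W => (volume : Measure unitInterval)), Function.Injective A := by
  have h : ∀ a b : W, a ≠ b →
      ∀ᵐ A ∂(Measure.infinitePi fun _ : W => (volume : Measure unitInterval)), A a ≠ A b := by
    intro a b hab
    have hmap := Measure.infinitePi_map_eval_prod (P := fun _ : W => (volume : Measure unitInterval)) hab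
    have hd : MeasurableSet {p : unitInterval × unitInterval | p.1 = p.2} :=
      measurableSet_eq_fun measurable_fst measurable_snd
    have hm : Measurable (fun ω : W → unitInterval => (ω a, ω b)) :=
      (measurable_pi_apply a).prodMk (measurable_pi_apply b)
    have hzero : (Measure.infinitePi fun _ : W => (volume : Measure unitInterval))
        ((fun ω : W → unitInterval => (ω a, ω b)) ⁻¹' {p | p.1 = p.2}) = 0 := by
      rw [← Measure.map_apply hm hd, hmap, Measure.prod_apply hd]
      simp
    simpa [ae_iff] using hzero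
  have : ∀ᵐ A ∂(Measure.infinitePi fun _ : W => (volume : Measure unitInterval)),
      ∀ a b : W, a ≠ b → A a ≠ A b := by
    rw [ae_all_iff]; intro a
    rw [ae_all_iff]; intro b
    by_cases hab : a = b
    · simp [hab]
    · filter_upwards [h a b hab] with A hA _ using hA
  filter_upwards [this] with A hA a b hab
  by_contra hne
  exact hA a b hne hab

section Meas

variable {E : Type*} {Θ : Type*} [MeasurableSpace Θ]

lemma noise_chanZ_meas : Measurable (fun p : ℝ × unitInterval => chanZ p.1 p.2) := by
  unfold chanZ chanL chanX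
  have h1 : Measurable (fun p : ℝ × unitInterval => p.1) := measurable_fst
  have h2 : Measurable (fun p : ℝ × unitInterval => (p.2 : ℝ)) := measurable_subtype_coe.comp measurable_snd
  fun_prop

lemma noise_chanZ_comp {f : Θ → ℝ} {w : Θ → unitInterval} (hf : Measurable f) (hw : Measurable w) :
    Measurable (fun θ => chanZ (f θ) (w θ)) := by
  have h := Measurable.comp (g := fun p : ℝ × unitInterval => chanZ p.1 p.2) noise_chanZ_meas (hf.prodMk hw)
  exact h

lemma noise_partL_meas {pr : Θ → E → E → Prop} (hpr : ∀ g e, MeasurableSet {θ | pr θ g e})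
    [Countable E] {L z : Θ → E → ℝ} (hL : Measurable L) (hz : Measurable z) (e : E) :
    Measurable (fun θ => partL (pr θ) (L θ) (z θ) e) := by
  refine measurable_pi_iff.2 fun g => ?_
  unfold partL
  refine ((measurable_pi_apply g).comp hL).add ?_
  exact Measurable.ite (hpr g e) ((measurable_pi_apply g).comp hz) measurable_const

lemma noise_roundMap_meas [Countable E] {mm : Θ → (E → ℝ) → E → ℝ}
    (hmeas : ∀ e, Measurable (fun p : Θ × (E → ℝ) => mm p.1 p.2 e))
    {D : Θ → Set E} (hD : ∀ e, MeasurableSet {θ | e ∈ D θ})
    {pr : Θ → E → E → Prop} (hpr : ∀ g e, MeasurableSet {θ | pr θ g e})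
    {L : Θ → E → ℝ} (hL : Measurable L) {v : Θ → E → unitInterval} (hv : Measurable v)
    {z : Θ → E → ℝ} (hz : Measurable z) :
    Measurable (fun θ => roundMap (mm θ) (D θ) (pr θ) (L θ) (v θ) (z θ)) := by
  refine measurable_pi_iff.2 fun e => ?_
  have h1 : Measurable (fun θ => mm θ (partL (pr θ) (L θ) (z θ) e) e) :=
    (hmeas e).comp (measurable_id.prodMk (noise_partL_meas hpr hL hz e))
  have h2 : Measurable (fun θ => v θ e) := (measurable_pi_apply e).comp hv
  have h3 : Measurable (fun θ => chanZ (mm θ (partL (pr θ) (L θ) (z θ) e) e) (v θ e)) :=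
    noise_chanZ_comp h1 h2
  have h4 : Measurable (fun θ => @ite _ (e ∈ D θ) (Classical.propDecidable _)
      (chanZ (mm θ (partL (pr θ) (L θ) (z θ) e) e) (v θ e)) 0) :=
    Measurable.ite (hD e) h3 measurable_const
  have h5 : (fun θ => roundMap (mm θ) (D θ) (pr θ) (L θ) (v θ) (z θ) e) =
      (fun θ => @ite _ (e ∈ D θ) (Classical.propDecidable _)
        (chanZ (mm θ (partL (pr θ) (L θ) (z θ) e) e) (v θ e)) 0) := by
    funext θ
    rfl
  rw [h5]
  exact h4

lemma noise_zIt_meas [Countable E] {mm : Θ → (E → ℝ) → E → ℝ}
    (hmeas : ∀ e, Measurable (fun p : Θ × (E → ℝ) => mm p.1 p.2 e))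
    {D : Θ → Set E} (hD : ∀ e, MeasurableSet {θ | e ∈ D θ})
    {pr : Θ → E → E → Prop} (hpr : ∀ g e, MeasurableSet {θ | pr θ g e})
    {L : Θ → E → ℝ} (hL : Measurable L) {v : Θ → E → unitInterval} (hv : Measurable v) (j : ℕ) :
    Measurable (fun θ => zIt (mm θ) (D θ) (pr θ) (L θ) (v θ) j) := by
  induction j with
  | zero =>
    simp only [zIt]
    exact measurable_const
  | succ j ih =>
    simp only [zIt]
    exact noise_roundMap_meas hmeas hD hpr hL hv ih

/-- Measurability of the round solution in all data, with no assumption on the marginals beyond joint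
measurability. -/
lemma noise_zFix_meas [Countable E] {mm : Θ → (E → ℝ) → E → ℝ}
    (hmeas : ∀ e, Measurable (fun p : Θ × (E → ℝ) => mm p.1 p.2 e))
    {D : Θ → Set E} (hD : ∀ e, MeasurableSet {θ | e ∈ D θ})
    {pr : Θ → E → E → Prop} (hpr : ∀ g e, MeasurableSet {θ | pr θ g e})
    {L : Θ → E → ℝ} (hL : Measurable L) {v : Θ → E → unitInterval} (hv : Measurable v) :
    Measurable (fun θ => zFix (mm θ) (D θ) (pr θ) (L θ) (v θ)) := by
  refine measurable_pi_iff.2 fun e => ?_
  unfold zFix
  refine (StronglyMeasurable.limUnder (f := fun (j : ℕ) θ => zIt (mm θ) (D θ) (pr θ) (L θ) (v θ) j e)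
    (l := atTop) fun j => ?_).measurable
  exact ((measurable_pi_apply e).comp (noise_zIt_meas hmeas hD hpr hL hv j)).stronglyMeasurable

lemma noise_Lk_meas [Countable E] {mm : Θ → (E → ℝ) → E → ℝ}
    (hmeas : ∀ e, Measurable (fun p : Θ × (E → ℝ) => mm p.1 p.2 e))
    {D : Θ → Set E} (hD : ∀ e, MeasurableSet {θ | e ∈ D θ})
    {pr : Θ → E → E → Prop} (hpr : ∀ g e, MeasurableSet {θ | pr θ g e})
    {v : Θ → ℕ → E → unitInterval} (hv : Measurable v) (k : ℕ) :
    Measurable (fun θ => Lk (mm θ) (D θ) (pr θ) (v θ) k) := by
  induction k with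
  | zero =>
    simp only [Lk]
    exact measurable_const
  | succ k ih =>
    have hz := noise_zFix_meas hmeas hD hpr ih ((measurable_pi_apply k).comp hv)
    refine measurable_pi_iff.2 fun e => ?_
    simp only [Lk]
    exact ((measurable_pi_apply e).comp ih).add ((measurable_pi_apply e).comp hz)

/-- Measurability of the event `Xi` in all data, with no assumption on the marginals beyond joint measurability. -/
theorem Xi_meas_gen [Countable E] {mm : Θ → (E → ℝ) → E → ℝ}
    (hmeas : ∀ e, Measurable (fun p : Θ × (E → ℝ) => mm p.1 p.2 e))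
    {D : Θ → Set E} (hD : ∀ e, MeasurableSet {θ | e ∈ D θ})
    {pr : Θ → E → E → Prop} (hpr : ∀ g e, MeasurableSet {θ | pr θ g e})
    {v : Θ → ℕ → E → unitInterval} (hv : Measurable v) (e : E) :
    MeasurableSet {θ | Xi (mm θ) (D θ) (pr θ) (v θ) e} := by
  have hm : ∀ k, Measurable (fun θ => mm θ (Lk (mm θ) (D θ) (pr θ) (v θ) k) e) := fun k =>
    (hmeas e).comp (measurable_id.prodMk (noise_Lk_meas hmeas hD hpr hv k))
  have : {θ | Xi (mm θ) (D θ) (pr θ) (v θ) e} =
      ⋂ n : ℕ, ⋃ k : ℕ, ⋃ (_ : n ≤ k), {θ | 1 / 2 < mm θ (Lk (mm θ) (D θ) (pr θ) (v θ) k) e} := by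
    ext θ
    simp only [Xi, Set.mem_ofPred_eq, Set.mem_iInter, Set.mem_iUnion, Filter.frequently_atTop, exists_prop]
  rw [this]
  exact MeasurableSet.iInter fun n => MeasurableSet.iUnion fun k => MeasurableSet.iUnion fun _ =>
    measurableSet_lt measurable_const (hm k)

end Meas

section NoiseMeas

variable {V : Type u} {Θ : Type*} [MeasurableSpace Θ]

lemma noise_coe_meas {A : Θ → V → unitInterval} (hA : Measurable A) (a : V) :
    Measurable (fun θ => (A θ a : ℝ)) :=
  measurable_subtype_coe.comp ((measurable_pi_apply a).comp hA)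

lemma noise_prA_meas {A : Θ → V → unitInterval} (hA : Measurable A) (g e : Sym2 V) :
    MeasurableSet {θ | prA (A θ) g e} := by
  induction g using Sym2.ind with
  | _ a b =>
    induction e using Sym2.ind with
    | _ c d =>
      have ha := noise_coe_meas hA a
      have hb := noise_coe_meas hA b
      have hc := noise_coe_meas hA c
      have hd := noise_coe_meas hA d
      have h1 : Measurable (fun θ => min (A θ a : ℝ) (A θ b)) := ha.min hb
      have h2 : Measurable (fun θ => max (A θ a : ℝ) (A θ b)) := ha.max hb
      have h3 : Measurable (fun θ => min (A θ c : ℝ) (A θ d)) := hc.min hd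
      have h4 : Measurable (fun θ => max (A θ c : ℝ) (A θ d)) := hc.max hd
      have : {θ | prA (A θ) s(a, b) s(c, d)} =
          {θ | min (A θ a : ℝ) (A θ b) < min (A θ c : ℝ) (A θ d)} ∪
            ({θ | min (A θ a : ℝ) (A θ b) = min (A θ c : ℝ) (A θ d)} ∩
              {θ | max (A θ a : ℝ) (A θ b) < max (A θ c : ℝ) (A θ d)}) := by
        ext θ
        simp only [prA, keyE, Sym2.lift_mk, Set.mem_ofPred_eq, Set.mem_union, Set.mem_inter_iff,
          Prod.Lex.toLex_lt_toLex]
      rw [this]
      exact (measurableSet_lt h1 h3).union ((measurableSet_eq_fun h1 h3).inter (measurableSet_lt h2 h4))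

lemma noise_rankN_meas [Countable V] {G : Θ → SimpleGraph V} (hG : ∀ a b, MeasurableSet {θ | (G θ).Adj a b})
    {A : Θ → V → unitInterval} (hA : Measurable A) (w o : V) :
    Measurable (fun θ => rankN (G θ) (A θ) w o) := by
  unfold rankN
  refine Nat.measurable_floor.comp (Measurable.ennreal_toReal (Measurable.tsum fun x => ?_))
  refine Measurable.ite ?_ measurable_const measurable_const
  have h1 : MeasurableSet {θ | A θ x < A θ o} :=
    measurableSet_lt ((measurable_pi_apply x).comp hA) ((measurable_pi_apply o).comp hA)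
  exact (hG w x).inter h1

lemma noise_noiseP_meas [Countable V] {G : Θ → SimpleGraph V} (hG : ∀ a b, MeasurableSet {θ | (G θ).Adj a b})
    {A : Θ → V → unitInterval} (hA : Measurable A) {B : Θ → V → ℕ × ℕ → unitInterval} (hB : Measurable B)
    (k : ℕ) (a b : V) : Measurable (fun θ => noiseP (G θ) (A θ) (B θ) k a b) := by
  have hread : ∀ (c d : V), Measurable (fun θ => B θ c (rankN (G θ) (A θ) c d, k)) := by
    intro c d
    have h1 : Measurable (fun p : Θ × ℕ => B p.1 c (p.2, k)) := by
      refine measurable_from_prod_countable_left fun r => ?_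
      exact (measurable_pi_apply (r, k)).comp ((measurable_pi_apply c).comp hB)
    exact h1.comp (measurable_id.prodMk (noise_rankN_meas hG hA c d))
  have hlt : ∀ (c d : V), MeasurableSet {θ | A θ c < A θ d} := fun c d =>
    measurableSet_lt ((measurable_pi_apply c).comp hA) ((measurable_pi_apply d).comp hA)
  unfold noiseP
  exact Measurable.ite (hlt a b) (hread a b) (Measurable.ite (hlt b a) (hread b a) measurable_const)

lemma noise_noiseS_meas [Countable V] {G : Θ → SimpleGraph V} (hG : ∀ a b, MeasurableSet {θ | (G θ).Adj a b})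
    {A : Θ → V → unitInterval} (hA : Measurable A) {B : Θ → V → ℕ × ℕ → unitInterval} (hB : Measurable B) :
    Measurable (fun θ => fun k e => noiseS (G θ) (A θ) (B θ) k e) := by
  refine measurable_pi_iff.2 fun k => measurable_pi_iff.2 fun e => ?_
  induction e using Sym2.ind with
  | _ a b => exact noise_noiseP_meas hG hA hB k a b

end NoiseMeas

section NoiseIdx

variable {V : Type u}

/-- The ends of an edge, the end with smaller label first. -/
noncomputable def noiseEnds (A : V → unitInterval) (e : Sym2 V) : V × V :=
  if A (Quot.out e).1 < A (Quot.out e).2 then Quot.out e else (Quot.out e).swap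

lemma noiseEnds_mk (A : V → unitInterval) (e : Sym2 V) :
    s((noiseEnds A e).1, (noiseEnds A e).2) = e := by
  have h : s((Quot.out e).1, (Quot.out e).2) = e := Quot.out_eq e
  unfold noiseEnds
  split_ifs
  · exact h
  · simpa [Prod.swap, Sym2.eq_swap] using h

lemma noiseEnds_lt {A : V → unitInterval} (hA : Function.Injective A) {e : Sym2 V} (he : ¬ e.IsDiag) :
    A (noiseEnds A e).1 < A (noiseEnds A e).2 := by
  have h : s((Quot.out e).1, (Quot.out e).2) = e := Quot.out_eq e
  have hne : (Quot.out e).1 ≠ (Quot.out e).2 := by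
    intro heq
    apply he
    rw [← h, Sym2.mk_isDiag_iff]
    exact heq
  unfold noiseEnds
  split_ifs with h1
  · exact h1
  · simp only [Prod.fst_swap, Prod.snd_swap]
    exact lt_of_le_of_ne (not_lt.1 h1) (fun h2 => hne (hA h2).symm)

lemma noiseS_eq (G : SimpleGraph V) {A : V → unitInterval} (hA : Function.Injective A)
    (B : V → ℕ × ℕ → unitInterval) (k : ℕ) {e : Sym2 V} (he : ¬ e.IsDiag) :
    noiseS G A B k e = B (noiseEnds A e).1 (rankN G A (noiseEnds A e).1 (noiseEnds A e).2, k) := by
  have hlt := noiseEnds_lt hA he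
  conv_lhs => rw [← noiseEnds_mk A e]
  simp only [noiseS, Sym2.lift_mk]
  unfold noiseP
  rw [if_pos hlt]

open Classical in
lemma rankN_eq_card {G : SimpleGraph V} (hl : ∀ v, (G.neighborSet v).Finite) (A : V → unitInterval) (w o : V) :
    rankN G A w o = ((hl w).toFinset.filter (fun x => A x < A o)).card := by
  unfold rankN
  have : (∑' x, if G.Adj w x ∧ A x < A o then (1 : ℝ≥0∞) else 0) =
      (((hl w).toFinset.filter (fun x => A x < A o)).card : ℝ≥0∞) := by
    rw [tsum_eq_sum (s := (hl w).toFinset.filter (fun x => A x < A o))]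
    · rw [Finset.card_eq_sum_ones]
      push_cast
      refine Finset.sum_congr rfl fun x hx => ?_
      rw [if_pos]
      simpa using hx
    · intro x hx
      rw [if_neg]
      intro hx'
      apply hx
      simpa using hx'
  rw [this]
  simp

open Classical in
lemma rankN_lt {G : SimpleGraph V} (hl : ∀ v, (G.neighborSet v).Finite) {A : V → unitInterval} {w o o' : V}
    (ho : G.Adj w o) (h : A o < A o') : rankN G A w o < rankN G A w o' := by
  rw [rankN_eq_card hl, rankN_eq_card hl]
  apply Finset.card_lt_card
  rw [Finset.ssubset_iff_of_subset]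
  · refine ⟨o, ?_, ?_⟩
    · simp [h, ho]
    · simp
  · intro x hx
    simp only [Finset.mem_filter] at hx ⊢
    exact ⟨hx.1, hx.2.trans h⟩

/-- The coordinate of the label array read by the noise of round `p.1` on the edge `p.2`. -/
noncomputable def noiseIdx (G : SimpleGraph V) (A : V → unitInterval) (p : ℕ × Sym2 V) : V × (ℕ × ℕ) :=
  ((noiseEnds A p.2).1, (rankN G A (noiseEnds A p.2).1 (noiseEnds A p.2).2, p.1))

lemma noise_adj_ends {G : SimpleGraph V} {A : V → unitInterval} {e : Sym2 V} (he : e ∈ G.edgeSet) :
    G.Adj (noiseEnds A e).1 (noiseEnds A e).2 := by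
  rw [← noiseEnds_mk A e] at he
  simpa using he

lemma noiseIdx_inj {G : SimpleGraph V} (hl : ∀ v, (G.neighborSet v).Finite) {A : V → unitInterval}
    (hA : Function.Injective A) :
    Set.InjOn (noiseIdx G A) {p : ℕ × Sym2 V | p.2 ∈ G.edgeSet} := by
  rintro ⟨k, e⟩ he ⟨k', e'⟩ he' h
  simp only [Set.mem_ofPred_eq] at he he'
  simp only [noiseIdx, Prod.mk.injEq] at h
  obtain ⟨h1, h2, h3⟩ := h
  subst h3
  have h2' : rankN G A (noiseEnds A e).1 (noiseEnds A e).2 = rankN G A (noiseEnds A e).1 (noiseEnds A e').2 := by
    rw [h2, h1]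
  have hadj : G.Adj (noiseEnds A e).1 (noiseEnds A e).2 := noise_adj_ends he
  have hadj' : G.Adj (noiseEnds A e).1 (noiseEnds A e').2 := by
    rw [h1]; exact noise_adj_ends he'
  have h3 : A (noiseEnds A e).2 = A (noiseEnds A e').2 := by
    rcases lt_trichotomy (A (noiseEnds A e).2) (A (noiseEnds A e').2) with hlt | heq | hlt
    · exact absurd h2' (rankN_lt hl hadj hlt).ne
    · exact heq
    · exact absurd h2'.symm (rankN_lt hl hadj' hlt).ne
  have h4 := hA h3
  have : e = e' := by
    rw [← noiseEnds_mk A e, ← noiseEnds_mk A e', h1, h4]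
  rw [this]

open Classical in
/-- The noise on edges, completed by fresh noise off the edges of `G`. -/
noncomputable def noiseΦ (G : SimpleGraph V) (A : V → unitInterval)
    (p : (V → ℕ × ℕ → unitInterval) × (ℕ → Sym2 V → unitInterval)) : ℕ → Sym2 V → unitInterval :=
  fun k e => if e ∈ G.edgeSet then noiseS G A p.1 k e else p.2 k e

/-- The law of the label arrays. -/
noncomputable abbrev Pb (V : Type u) : Measure (V → ℕ × ℕ → unitInterval) :=
  Measure.infinitePi fun _ : V => Measure.infinitePi fun _ : ℕ × ℕ => (volume : Measure unitInterval)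

lemma noiseΦ_meas [Countable V] (G : SimpleGraph V) (A : V → unitInterval) : Measurable (noiseΦ G A) := by
  refine measurable_pi_iff.2 fun k => measurable_pi_iff.2 fun e => ?_
  unfold noiseΦ
  by_cases he : e ∈ G.edgeSet
  · simp only [he, if_true]
    have := noise_noiseS_meas (Θ := (V → ℕ × ℕ → unitInterval) × (ℕ → Sym2 V → unitInterval))
      (G := fun _ => G) (fun _ _ => MeasurableSet.const _) (A := fun _ => A) measurable_const
      (B := fun θ => θ.1) measurable_fst
    exact (measurable_pi_apply e).comp ((measurable_pi_apply k).comp this)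
  · simp only [he, if_false]
    exact (measurable_pi_apply e).comp ((measurable_pi_apply k).comp measurable_snd)

/-- For labels `A` without ties the noise on the edges, completed by fresh noise, has the law of the noise. -/
theorem noise_map [Countable V] {G : SimpleGraph V} (hl : ∀ v, (G.neighborSet v).Finite)
    {A : V → unitInterval} (hA : Function.Injective A) :
    Measure.map (noiseΦ G A) ((Pb V).prod (Pv (Sym2 V))) = Pv (Sym2 V) := by
  classical
  let vol : Measure unitInterval := volume
  let cB := MeasurableEquiv.curry V (ℕ × ℕ) unitInterval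
  let cv := MeasurableEquiv.curry ℕ (Sym2 V) unitInterval
  have hB : Measure.map cB (Measure.infinitePi fun _ : V × (ℕ × ℕ) => vol) = Pb V :=
    Measure.infinitePi_map_curry (fun (_ : V) (_ : ℕ × ℕ) => vol)
  have hv : Measure.map cv (Measure.infinitePi fun _ : ℕ × Sym2 V => vol) = Pv (Sym2 V) :=
    Measure.infinitePi_map_curry (fun (_ : ℕ) (_ : Sym2 V) => vol)
  let D : Set (ℕ × Sym2 V) := {p | p.2 ∈ G.edgeSet}
  have hR := noise_reindex vol (noiseIdx G A) D (noiseIdx_inj hl hA)
  let R : ((V × (ℕ × ℕ)) → unitInterval) × ((ℕ × Sym2 V) → unitInterval) → (ℕ × Sym2 V) → unitInterval :=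
    fun p => fun k => if k ∈ D then p.1 (noiseIdx G A k) else p.2 k
  have hRm : Measurable R := by
    refine measurable_pi_iff.2 fun k => ?_
    by_cases hk : k ∈ D
    · simp only [R, hk, if_true]
      exact (measurable_pi_apply _).comp measurable_fst
    · simp only [R, hk, if_false]
      exact (measurable_pi_apply _).comp measurable_snd
  have hcomp : noiseΦ G A ∘ Prod.map cB cv = cv ∘ R := by
    funext p
    funext k e
    simp only [Function.comp, Prod.map, noiseΦ]
    by_cases he : e ∈ G.edgeSet
    · have hnd : ¬ e.IsDiag := G.not_isDiag_of_mem_edgeSet he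
      have hD : (k, e) ∈ D := he
      simp only [he, if_true]
      rw [noiseS_eq G hA _ k hnd]
      show _ = cv (R p) k e
      show _ = R p (k, e)
      simp only [R, hD, if_true]
      rfl
    · have hD : (k, e) ∉ D := he
      simp only [he, if_false]
      show _ = R p (k, e)
      simp only [R, hD, if_false]
      rfl
  rw [← hB, ← hv, Measure.map_prod_map _ _ cB.measurable cv.measurable,
    Measure.map_map (noiseΦ_meas G A) (cB.measurable.prodMap cv.measurable), hcomp,
    ← Measure.map_map cv.measurable hRm]
  congr 1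

end NoiseIdx

section Phi

variable {V : Type u}

open Classical in
/-- the universal factor map -/
noncomputable def PhiG (G : SimpleGraph V) (U : V → unitInterval) (g : Sym2 V) : Bool :=
  decide (Xi (mG G) G.edgeSet (prA fun v => (splitU (U v)).1)
    (fun k => noiseS G (fun v => (splitU (U v)).1) (fun v => (splitU (U v)).2) k) g)

theorem PhiG_false {G : SimpleGraph V} (U : V → unitInterval) {g : Sym2 V} (hg : g ∉ G.edgeSet) : PhiG G U g = false := by
  unfold PhiG
  rw [decide_eq_false_iff_not]
  intro h
  unfold Xi at h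
  obtain ⟨k, hk⟩ := h.exists
  have : mG G (Lk (mG G) G.edgeSet (prA fun v => (splitU (U v)).1)
    (fun k => noiseS G (fun v => (splitU (U v)).1) (fun v => (splitU (U v)).2) k) k) g = 0 := by
    unfold mG
    rw [if_neg hg]
  rw [this] at hk
  norm_num at hk

/-- The event `Xi` for given labels and label arrays. -/
def XiAB (G : SimpleGraph V) (A : V → unitInterval) (B : V → ℕ × ℕ → unitInterval) (g : Sym2 V) : Prop :=
  Xi (mG G) G.edgeSet (prA A) (fun k => noiseS G A B k) g

lemma PhiG_eq_true {G : SimpleGraph V} (U : V → unitInterval) (g : Sym2 V) :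
    PhiG G U g = true ↔ XiAB G (fun v => (splitU (U v)).1) (fun v => (splitU (U v)).2) g := by
  unfold PhiG XiAB
  simp

variable {Θ : Type*} [MeasurableSpace Θ]

/-- Measurability of the event in all data. -/
lemma XiAB_meas [Countable V] {G : Θ → SimpleGraph V} (hG : ∀ a b, MeasurableSet {θ | (G θ).Adj a b})
    (hm : ∀ e, Measurable (fun p : Θ × (Sym2 V → ℝ) => mG (G p.1) p.2 e))
    {A : Θ → V → unitInterval} (hA : Measurable A) {B : Θ → V → ℕ × ℕ → unitInterval} (hB : Measurable B)
    (g : Sym2 V) : MeasurableSet {θ | XiAB (G θ) (A θ) (B θ) g} := by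
  refine Xi_meas_gen (mm := fun θ => mG (G θ)) hm (D := fun θ => (G θ).edgeSet) ?_
    (pr := fun θ => prA (A θ)) (fun g e => noise_prA_meas hA g e)
    (v := fun θ k => noiseS (G θ) (A θ) (B θ) k) (noise_noiseS_meas hG hA hB) g
  intro e
  induction e using Sym2.ind with
  | _ a b => simpa using hG a b

/-- The labels and label arrays read from the vertex labels. -/
noncomputable def noiseSp (U : V → unitInterval) : (V → unitInterval) × (V → ℕ × ℕ → unitInterval) :=
  (fun v => (splitU (U v)).1, fun v => (splitU (U v)).2)

lemma noiseSp_meas : Measurable (noiseSp (V := V)) := by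
  refine Measurable.prodMk (measurable_pi_iff.2 fun v => ?_) (measurable_pi_iff.2 fun v => ?_)
  · exact measurable_fst.comp (splitU_meas.comp (measurable_pi_apply v))
  · exact measurable_snd.comp (splitU_meas.comp (measurable_pi_apply v))

lemma noiseSp_map : Measure.map (noiseSp (V := V)) (unifV V) =
    (Measure.infinitePi fun _ : V => (volume : Measure unitInterval)).prod (Pb V) := by
  have h1 : Measure.map (fun (U : V → unitInterval) v => splitU (U v)) (unifV V) =
      Measure.infinitePi fun _ : V => Measure.map splitU (volume : Measure unitInterval) :=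
    Measure.infinitePi_map_pi _ (fun _ => splitU_meas)
  rw [splitU_map] at h1
  have h2 := noise_unzip (W := V) (volume : Measure unitInterval)
    (Measure.infinitePi fun _ : ℕ × ℕ => (volume : Measure unitInterval))
  rw [← h1] at h2
  have hm1 : Measurable (fun (U : V → unitInterval) v => splitU (U v)) :=
    measurable_pi_iff.2 fun v => splitU_meas.comp (measurable_pi_apply v)
  rw [Measure.map_map (by
    refine Measurable.prodMk (measurable_pi_iff.2 fun v => ?_) (measurable_pi_iff.2 fun v => ?_)
    · exact measurable_fst.comp (measurable_pi_apply v)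
    · exact measurable_snd.comp (measurable_pi_apply v)) hm1] at h2
  exact h2

end Phi

end Vale.Agent.Lib.P143L
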