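import Vale.Agent.Lib.P143L.Chan

/-!
The round equation: contraction in sup norm, fixed point, measurability, and the two expectation
statements of a round.
-/

namespace Vale.Agent.Lib.P143L

open MeasureTheory Filter Topology
open scoped ENNReal

variable {E : Type*} {m : (E → ℝ) → E → ℝ} {q : (E → ℝ) → Finset E → ℝ}

theorem m_lip (h : LocData m q) {L L' : E → ℝ} {a : ℝ} (hd : ∀ g, |L g - L' g| ≤ a) (e : E) :
    |m L e - m L' e| ≤ a := by
  have ha0 : 0 ≤ a := le_trans (abs_nonneg _) (hd e)
  -- one sided bound
  have key : ∀ {p p' : ℝ}, (0 ≤ p ∧ p ≤ 1) → (0 ≤ p' ∧ p' ≤ 1) →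
      p' * (1 - p) ≤ Real.exp (2 * a) * (p * (1 - p')) → p' - p ≤ a := by
    intro p p' hp hp' hodds
    by_contra hcon
    push Not at hcon
    have ha1 : a < 1 := by linarith [hp.1, hp'.2]
    have h1a : 0 < 1 - a := by linarith
    have hd1 : 1 - (p' - p) ≤ 1 - a := by linarith
    have hd0 : 0 ≤ 1 - (p' - p) := by linarith [hp.1, hp'.2]
    -- x = p (1 - p') is at most (1 - d)^2 / 4
    have hx : p * (1 - p') ≤ (1 - (p' - p)) ^ 2 / 4 := by
      nlinarith [sq_nonneg (p - (1 - p'))]
    have hx0 : 0 ≤ p * (1 - p') := mul_nonneg hp.1 (by linarith [hp'.2])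
    have hexp : (Real.exp a) * (1 - a) ≤ 1 := by
      have h2 : 1 - a ≤ Real.exp (-a) := by
        have := Real.add_one_le_exp (-a)
        linarith
      calc Real.exp a * (1 - a) ≤ Real.exp a * Real.exp (-a) :=
            mul_le_mul_of_nonneg_left h2 (Real.exp_pos a).le
        _ = 1 := by rw [← Real.exp_add]; simp
    have hexp2 : Real.exp (2 * a) * (1 - a) ^ 2 ≤ 1 := by
      have : Real.exp (2 * a) = Real.exp a ^ 2 := by rw [← Real.exp_nat_mul]; norm_num
      rw [this, ← mul_pow]
      have h0 : 0 ≤ Real.exp a * (1 - a) := mul_nonneg (Real.exp_pos a).le h1a.le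
      exact pow_le_one₀ h0 hexp
    have hexp1 : 1 ≤ Real.exp (2 * a) := Real.one_le_exp (by positivity)
    have hd2 : p' - p = p' * (1 - p) - p * (1 - p') := by ring
    have hd3 : p' - p ≤ (Real.exp (2 * a) - 1) * (p * (1 - p')) := by rw [hd2]; nlinarith
    have hd4 : (Real.exp (2 * a) - 1) * (p * (1 - p')) ≤ (Real.exp (2 * a) - 1) * ((1 - a) ^ 2 / 4) := by
      apply mul_le_mul_of_nonneg_left _ (by linarith)
      refine le_trans hx ?_
      have : (1 - (p' - p)) ^ 2 ≤ (1 - a) ^ 2 := by
        apply pow_le_pow_left₀ hd0 hd1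
      linarith
    have hd5 : (Real.exp (2 * a) - 1) * ((1 - a) ^ 2 / 4) ≤ a / 2 := by
      have : (Real.exp (2 * a) - 1) * ((1 - a) ^ 2 / 4)
          = (Real.exp (2 * a) * (1 - a) ^ 2 - (1 - a) ^ 2) / 4 := by ring
      rw [this]
      nlinarith [sq_nonneg a]
    linarith
  have h1 := key (h.m_mem L e) (h.m_mem L' e) (h.odds L L' a e hd)
  have h2 := key (h.m_mem L' e) (h.m_mem L e)
    (h.odds L' L a e (fun g => by rw [abs_sub_comm]; exact hd g))
  rw [abs_le]
  constructor <;> linarith

theorem rd_partL_sub_abs (pr : E → E → Prop) (L : E → ℝ) {z z' : E → ℝ} {a : ℝ}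
    (hzz : ∀ g, |z g - z' g| ≤ a) (e g : E) :
    |partL pr L z e g - partL pr L z' e g| ≤ a := by
  have ha0 : 0 ≤ a := le_trans (abs_nonneg _) (hzz g)
  unfold partL
  by_cases hg : pr g e
  · simpa [hg] using hzz g
  · simpa [hg] using ha0

theorem rd_roundMap_lip (h : LocData m q) (D : Set E) (pr : E → E → Prop) (L : E → ℝ)
    (v : E → unitInterval) {z z' : E → ℝ} {a : ℝ} (hzz : ∀ g, |z g - z' g| ≤ a) (e : E) :
    |roundMap m D pr L v z e - roundMap m D pr L v z' e| ≤ 3 / 8 * a := by
  have ha0 : 0 ≤ a := le_trans (abs_nonneg _) (hzz e)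
  unfold roundMap
  by_cases he : e ∈ D
  · simp only [he, if_true]
    refine le_trans (chanZ_lip (h.m_mem _ _) (h.m_mem _ _) (v e)) ?_
    apply mul_le_mul_of_nonneg_left _ (by norm_num)
    exact m_lip h (rd_partL_sub_abs pr L hzz e) e
  · simp only [he, if_false]
    simpa using (by positivity : 0 ≤ 3 / 8 * a)

theorem rd_roundMap_abs (h : LocData m q) (D : Set E) (pr : E → E → Prop) (L : E → ℝ)
    (v : E → unitInterval) (z : E → ℝ) (e : E) :
    |roundMap m D pr L v z e| ≤ Real.log 2 := by
  unfold roundMap
  by_cases he : e ∈ D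
  · simp only [he, if_true]
    exact chanZ_abs (h.m_mem _ _) (v e)
  · simp only [he, if_false]
    simpa using (Real.log_nonneg (by norm_num) : 0 ≤ Real.log 2)

theorem rd_zIt_abs (h : LocData m q) (D : Set E) (pr : E → E → Prop) (L : E → ℝ)
    (v : E → unitInterval) (j : ℕ) (e : E) : |zIt m D pr L v j e| ≤ Real.log 2 := by
  cases j with
  | zero =>
    simpa [zIt] using (Real.log_nonneg (by norm_num) : 0 ≤ Real.log 2)
  | succ j => exact rd_roundMap_abs h D pr L v _ e

theorem rd_zIt_succ_dist (h : LocData m q) (D : Set E) (pr : E → E → Prop) (L : E → ℝ)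
    (v : E → unitInterval) (j : ℕ) (e : E) :
    |zIt m D pr L v (j + 1) e - zIt m D pr L v j e| ≤ Real.log 2 * (3 / 8) ^ j := by
  induction j generalizing e with
  | zero =>
    have := rd_roundMap_abs h D pr L v (zIt m D pr L v 0) e
    simpa [zIt] using this
  | succ j ih =>
    have h1 := rd_roundMap_lip h D pr L v (z := zIt m D pr L v (j + 1)) (z' := zIt m D pr L v j) ih e
    calc |zIt m D pr L v (j + 1 + 1) e - zIt m D pr L v (j + 1) e|
        ≤ 3 / 8 * (Real.log 2 * (3 / 8) ^ j) := h1
      _ = Real.log 2 * (3 / 8) ^ (j + 1) := by ring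

theorem rd_zIt_cauchy (h : LocData m q) (D : Set E) (pr : E → E → Prop) (L : E → ℝ)
    (v : E → unitInterval) (e : E) : CauchySeq (fun j => zIt m D pr L v j e) := by
  refine cauchySeq_of_le_geometric (3 / 8) (Real.log 2) (by norm_num) (fun j => ?_)
  rw [Real.dist_eq, abs_sub_comm]
  exact rd_zIt_succ_dist h D pr L v j e

theorem zFix_tendsto_iter (h : LocData m q) (D : Set E) (pr : E → E → Prop) (L : E → ℝ) (v : E → unitInterval) (e : E) :
    Tendsto (fun j => zIt m D pr L v j e) atTop (𝓝 (zFix m D pr L v e)) := by
  obtain ⟨a, ha⟩ := cauchySeq_tendsto_of_complete (rd_zIt_cauchy h D pr L v e)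
  unfold zFix
  rw [ha.limUnder_eq]
  exact ha

theorem zFix_abs (h : LocData m q) (D : Set E) (pr : E → E → Prop) (L : E → ℝ) (v : E → unitInterval) (e : E) :
    |zFix m D pr L v e| ≤ Real.log 2 :=
  le_of_tendsto ((zFix_tendsto_iter h D pr L v e).abs)
    (Eventually.of_forall fun j => rd_zIt_abs h D pr L v j e)

theorem rd_zIt_dist_zFix (h : LocData m q) (D : Set E) (pr : E → E → Prop) (L : E → ℝ)
    (v : E → unitInterval) (j : ℕ) (e : E) :
    |zIt m D pr L v j e - zFix m D pr L v e| ≤ Real.log 2 * (3 / 8) ^ j / (1 - 3 / 8) := by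
  have := dist_le_of_le_geometric_of_tendsto (3 / 8) (Real.log 2) (by norm_num)
    (f := fun j => zIt m D pr L v j e) (fun j => by
      rw [Real.dist_eq, abs_sub_comm]
      exact rd_zIt_succ_dist h D pr L v j e) (zFix_tendsto_iter h D pr L v e) j
  rwa [Real.dist_eq] at this

theorem zFix_eq (h : LocData m q) (D : Set E) (pr : E → E → Prop) (L : E → ℝ) (v : E → unitInterval) :
    roundMap m D pr L v (zFix m D pr L v) = zFix m D pr L v := by
  funext e
  have h1 : Tendsto (fun j => roundMap m D pr L v (zIt m D pr L v j) e) atTop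
      (𝓝 (zFix m D pr L v e)) := by
    have := zFix_tendsto_iter h D pr L v e
    exact (tendsto_add_atTop_iff_nat 1).mpr this
  have h2 : Tendsto (fun j => roundMap m D pr L v (zIt m D pr L v j) e) atTop
      (𝓝 (roundMap m D pr L v (zFix m D pr L v) e)) := by
    rw [tendsto_iff_dist_tendsto_zero]
    have hb : Tendsto (fun j : ℕ => 3 / 8 * (Real.log 2 * (3 / 8 : ℝ) ^ j / (1 - 3 / 8))) atTop (𝓝 0) := by
      have h3 : Tendsto (fun j : ℕ => (3 / 8 : ℝ) ^ j) atTop (𝓝 0) :=
        tendsto_pow_atTop_nhds_zero_of_lt_one (by norm_num) (by norm_num)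
      have h4 := (h3.const_mul (Real.log 2)).div_const (1 - 3 / 8 : ℝ) |>.const_mul (3 / 8 : ℝ)
      simpa using h4
    refine squeeze_zero (fun _ => dist_nonneg) (fun j => ?_) hb
    rw [Real.dist_eq]
    exact rd_roundMap_lip h D pr L v (rd_zIt_dist_zFix h D pr L v j) e
  exact tendsto_nhds_unique h2 h1

theorem zFix_unique (h : LocData m q) (D : Set E) (pr : E → E → Prop) (L : E → ℝ) (v : E → unitInterval)
    {w : E → ℝ} {C : ℝ} (hC : ∀ e, |w e| ≤ C) (hw : roundMap m D pr L v w = w) : w = zFix m D pr L v := by
  funext e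
  have hdist : ∀ j (g : E), |w g - zIt m D pr L v j g| ≤ C * (3 / 8) ^ j := by
    intro j
    induction j with
    | zero =>
      intro g
      simpa [zIt] using hC g
    | succ j ih =>
      intro g
      have h1 := rd_roundMap_lip h D pr L v ih g
      rw [hw] at h1
      calc |w g - zIt m D pr L v (j + 1) g| ≤ 3 / 8 * (C * (3 / 8) ^ j) := h1
        _ = C * (3 / 8) ^ (j + 1) := by ring
  have hb : Tendsto (fun j : ℕ => C * (3 / 8 : ℝ) ^ j) atTop (𝓝 0) := by
    have h3 : Tendsto (fun j : ℕ => (3 / 8 : ℝ) ^ j) atTop (𝓝 0) :=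
      tendsto_pow_atTop_nhds_zero_of_lt_one (by norm_num) (by norm_num)
    simpa using h3.const_mul C
  have h1 : Tendsto (fun j => zIt m D pr L v j e) atTop (𝓝 (w e)) := by
    rw [tendsto_iff_dist_tendsto_zero]
    refine squeeze_zero (fun _ => dist_nonneg) (fun j => ?_) hb
    rw [Real.dist_eq, abs_sub_comm]
    exact hdist j e
  exact tendsto_nhds_unique h1 (zFix_tendsto_iter h D pr L v e)

/-- the solution vanishes off `D` -/
theorem rd_zFix_off (h : LocData m q) {D : Set E} (pr : E → E → Prop) (L : E → ℝ) (v : E → unitInterval)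
    {e : E} (he : e ∉ D) : zFix m D pr L v e = 0 := by
  have := congrFun (zFix_eq h D pr L v) e
  rw [← this]
  simp [roundMap, he]

/-- only the noise on `D` matters -/
theorem rd_zFix_congr (h : LocData m q) (D : Set E) (pr : E → E → Prop) (L : E → ℝ)
    {v v' : E → unitInterval} (hv : ∀ e ∈ D, v e = v' e) :
    zFix m D pr L v = zFix m D pr L v' := by
  refine zFix_unique h D pr L v' (zFix_abs h D pr L v) ?_
  funext e
  have h1 := congrFun (zFix_eq h D pr L v) e
  rw [← h1]
  unfold roundMap
  by_cases he : e ∈ D
  · simp only [he, if_true, hv e he]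
  · simp only [he, if_false]

/-! ### Measurability -/

theorem zFix_meas [Countable E] {Θ : Type*} [MeasurableSpace Θ]
    (mm : Θ → (E → ℝ) → E → ℝ) (qq : Θ → (E → ℝ) → Finset E → ℝ) (hh : ∀ θ, LocData (mm θ) (qq θ))
    (hmeas : ∀ e, Measurable (fun p : Θ × (E → ℝ) => mm p.1 p.2 e))
    (D : Θ → Set E) (hD : ∀ e, MeasurableSet {θ | e ∈ D θ})
    (pr : Θ → E → E → Prop) (hpr : ∀ g e, MeasurableSet {θ | pr θ g e})
    {L : Θ → E → ℝ} (hL : Measurable L) {v : Θ → E → unitInterval} (hv : Measurable v) :
    Measurable (fun θ => zFix (mm θ) (D θ) (pr θ) (L θ) (v θ)) := by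
  classical
  have hit : ∀ j, Measurable (fun θ => zIt (mm θ) (D θ) (pr θ) (L θ) (v θ) j) := by
    intro j
    induction j with
    | zero =>
      simp only [zIt]
      exact measurable_const
    | succ j ih =>
      refine measurable_pi_iff.mpr fun e => ?_
      simp only [zIt, roundMap]
      refine Measurable.ite (hD e) ?_ measurable_const
      have hpart : Measurable (fun θ => partL (pr θ) (L θ) (zIt (mm θ) (D θ) (pr θ) (L θ) (v θ) j) e) := by
        refine measurable_pi_iff.mpr fun g => ?_
        simp only [partL]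
        refine ((measurable_pi_iff.mp hL g)).add ?_
        exact Measurable.ite (hpr g e) ((measurable_pi_iff.mp ih g)) measurable_const
      have h1 : Measurable (fun θ => mm θ (partL (pr θ) (L θ) (zIt (mm θ) (D θ) (pr θ) (L θ) (v θ) j) e) e) :=
        (hmeas e).comp (measurable_id.prodMk hpart)
      have h2 : Measurable (fun θ => v θ e) := measurable_pi_iff.mp hv e
      have h3 := h1.prodMk h2
      have h4 := measurable_chanZ.comp h3
      exact h4
  refine measurable_pi_iff.mpr fun e => ?_
  refine measurable_of_tendsto_metrizable (fun j => measurable_pi_iff.mp (hit j) e) ?_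
  rw [tendsto_pi_nhds]
  intro θ
  exact zFix_tendsto_iter (hh θ) _ _ _ _ e

/-- measurability in the noise -/
theorem rd_zFix_meas_v [Countable E] (h : LocData m q) (D : Set E) (pr : E → E → Prop) (L : E → ℝ) :
    Measurable (fun v : E → unitInterval => zFix m D pr L v) := by
  refine zFix_meas (Θ := E → unitInterval) (fun _ => m) (fun _ => q) (fun _ => h) ?_ (fun _ => D)
    (fun _ => MeasurableSet.const _) (fun _ => pr) (fun _ _ => MeasurableSet.const _)
    (L := fun _ => L) measurable_const (v := fun v => v) measurable_id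
  intro e
  exact (h.m_meas e).comp measurable_snd

/-! ### The last edge of a finite set -/

/-- the last edge of a finite set does not interact with the earlier edges -/
theorem rd_zFix_insert_max [DecidableEq E] (h : LocData m q) {pr : E → E → Prop} {K : Type*} [LinearOrder K]
    (key : E → K) (hpr : ∀ g e, pr g e ↔ key g < key e) {D : Set E} {a : E} (ha : a ∉ D)
    (hmax : ∀ g ∈ D, key g < key a) (L : E → ℝ) (v : E → unitInterval) :
    zFix m (insert a D) pr L v =
      Function.update (zFix m D pr L v) a
        (chanZ (m (fun g => L g + zFix m D pr L v g) a) (v a)) := by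
  symm
  set z := zFix m D pr L v with hz
  set r := chanZ (m (fun g => L g + z g) a) (v a) with hr
  have hz0 : z a = 0 := rd_zFix_off h pr L v ha
  refine zFix_unique h (insert a D) pr L v (C := Real.log 2) ?_ ?_
  · intro g
    by_cases hg : g = a
    · subst hg
      simp only [Function.update_self]
      exact chanZ_abs (h.m_mem _ _) (v g)
    · simp only [Function.update_of_ne hg]
      exact zFix_abs h D pr L v g
  · funext g
    by_cases hg : g = a
    · subst hg
      simp only [Function.update_self]
      have hp : partL pr L (Function.update z g r) g = fun g' => L g' + z g' := by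
        funext g'
        unfold partL
        by_cases hg' : pr g' g
        · have hne : g' ≠ g := by
            rintro rfl
            exact lt_irrefl _ ((hpr _ _).mp hg')
          simp [hg', Function.update_of_ne hne]
        · have hnot : g' ∉ D := fun hD => hg' ((hpr _ _).mpr (hmax g' hD))
          have : z g' = 0 := rd_zFix_off h pr L v hnot
          simp [hg', this]
      simp only [roundMap, Set.mem_insert_iff, true_or, if_true]
      rw [hp]
    · simp only [Function.update_of_ne hg]
      have hz1 := congrFun (zFix_eq h D pr L v) g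
      by_cases hgD : g ∈ D
      · have hp : partL pr L (Function.update z a r) g = partL pr L z g := by
          funext g'
          unfold partL
          by_cases hg' : g' = a
          · subst hg'
            have : ¬ pr g' g := by
              intro hc
              exact lt_asymm ((hpr _ _).mp hc) (hmax g hgD)
            simp [this]
          · simp [Function.update_of_ne hg']
        have hm : g ∈ insert a D := Or.inr hgD
        simp only [roundMap, hm, if_true] at hz1 ⊢
        simp only [hgD, if_true] at hz1
        rw [hp, hz1]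
      · have hm : g ∉ insert a D := by
          intro hc
          rcases hc with hc | hc
          · exact hg hc
          · exact hgD hc
        simp only [roundMap, hm, if_false]
        exact (rd_zFix_off h pr L v hgD).symm

/-! ### Integration over one coordinate -/

/-- replacing one coordinate of the noise preserves the law -/
theorem rd_mp_update [DecidableEq E] (e : E) :
    MeasurePreserving (fun p : (E → unitInterval) × unitInterval => Function.update p.1 e p.2)
      ((Pz E).prod (volume : Measure unitInterval)) (Pz E) := by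
  have hmeas : Measurable (fun p : (E → unitInterval) × unitInterval => Function.update p.1 e p.2) := by
    refine measurable_pi_iff.mpr fun i => ?_
    by_cases hi : i = e
    · subst hi
      simpa using measurable_snd
    · simp only [Function.update_of_ne hi]
      exact (measurable_pi_apply i).comp measurable_fst
  refine ⟨hmeas, ?_⟩
  refine Measure.eq_infinitePi _ fun s t ht => ?_
  have hmeasS : MeasurableSet (Set.pi (s : Set E) t) :=
    MeasurableSet.pi s.countable_toSet fun i _ => ht i
  rw [Measure.map_apply hmeas hmeasS]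
  by_cases hes : e ∈ s
  · have hpre : (fun p : (E → unitInterval) × unitInterval => Function.update p.1 e p.2) ⁻¹'
        (Set.pi (s : Set E) t) = (Set.pi ((s.erase e : Finset E) : Set E) t) ×ˢ (t e) := by
      ext ⟨x, y⟩
      simp only [Set.mem_preimage, Set.mem_pi, Finset.mem_coe, Set.mem_prod, Finset.mem_erase]
      constructor
      · intro h1
        refine ⟨fun i hi => ?_, ?_⟩
        · have := h1 i hi.2
          rwa [Function.update_of_ne hi.1] at this
        · have := h1 e hes
          rwa [Function.update_self] at this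
      · rintro ⟨h1, h2⟩ i hi
        by_cases hie : i = e
        · subst hie; simpa using h2
        · rw [Function.update_of_ne hie]
          exact h1 i ⟨hie, hi⟩
    rw [hpre, Measure.prod_prod, Measure.infinitePi_pi _ (fun i _ => ht i), mul_comm,
      Finset.mul_prod_erase s (fun i => (volume : Measure unitInterval) (t i)) hes]
  · have hpre : (fun p : (E → unitInterval) × unitInterval => Function.update p.1 e p.2) ⁻¹'
        (Set.pi (s : Set E) t) = (Set.pi (s : Set E) t) ×ˢ Set.univ := by
      ext ⟨x, y⟩
      simp only [Set.mem_preimage, Set.mem_pi, Finset.mem_coe, Set.mem_prod, Set.mem_univ, and_true]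
      constructor
      · intro h1 i hi
        have := h1 i hi
        rwa [Function.update_of_ne (by rintro rfl; exact hes hi)] at this
      · intro h1 i hi
        rw [Function.update_of_ne (by rintro rfl; exact hes hi)]
        exact h1 i hi
    rw [hpre, Measure.prod_prod, Measure.infinitePi_pi _ (fun i _ => ht i)]
    simp

/-- integrate one coordinate first -/
theorem rd_integral_update [DecidableEq E] (e : E) {F : (E → unitInterval) → ℝ} (hF : Measurable F)
    {C : ℝ} (hC : ∀ v, |F v| ≤ C) :
    ∫ v, F v ∂(Pz E) = ∫ v, (∫ t : unitInterval, F (Function.update v e t)) ∂(Pz E) := by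
  have hmp := rd_mp_update (E := E) e
  have hint : Integrable (fun p : (E → unitInterval) × unitInterval => F (Function.update p.1 e p.2))
      ((Pz E).prod (volume : Measure unitInterval)) := by
    refine Integrable.of_bound (hF.comp hmp.measurable).aestronglyMeasurable C ?_
    exact Eventually.of_forall fun p => by simpa using hC _
  have h1 : ∫ v, F v ∂(Pz E) =
      ∫ p, F (Function.update p.1 e p.2) ∂((Pz E).prod (volume : Measure unitInterval)) := by
    conv_lhs => rw [← hmp.map_eq]
    rw [integral_map hmp.measurable.aemeasurable hF.aestronglyMeasurable]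
  rw [h1, integral_prod _ hint]

/-! ### One round on a finite set -/

theorem rd_sum_tilt_eq [DecidableEq E] {L z : E → ℝ} {a : E} (hz : z a = 0) (r : ℝ) :
    (fun g => L g + Function.update z a r g) = tiltE (fun g => L g + z g) a r := by
  funext g
  unfold tiltE
  by_cases hg : g = a
  · subst hg
    simp [hz]
  · simp [hg]

/-- integrate the noise of the last edge first -/
theorem rd_step_integral [Countable E] [DecidableEq E] (h : LocData m q) {pr : E → E → Prop} {K : Type*}
    [LinearOrder K] (key : E → K) (hpr : ∀ g e, pr g e ↔ key g < key e) {D : Set E} {a : E} (ha : a ∉ D)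
    (hmax : ∀ g ∈ D, key g < key a) (L : E → ℝ) {G : (E → ℝ) → ℝ} (hG : Measurable G) {C : ℝ}
    (hC : ∀ x, |G x| ≤ C) :
    ∫ v, G (fun g => L g + zFix m (insert a D) pr L v g) ∂(Pz E) =
      ∫ v, (∫ t : unitInterval, G (tiltE (fun g => L g + zFix m D pr L v g) a
        (chanZ (m (fun g => L g + zFix m D pr L v g) a) t))) ∂(Pz E) := by
  have hmeas : Measurable (fun v : E → unitInterval => G (fun g => L g + zFix m (insert a D) pr L v g)) := by
    refine hG.comp (measurable_pi_iff.mpr fun g => ?_)
    exact measurable_const.add (measurable_pi_iff.mp (rd_zFix_meas_v h (insert a D) pr L) g)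
  rw [rd_integral_update a hmeas (fun v => hC _)]
  refine integral_congr_ae (Eventually.of_forall fun v => ?_)
  refine integral_congr_ae (Eventually.of_forall fun t => ?_)
  simp only
  have h1 : zFix m D pr L (Function.update v a t) = zFix m D pr L v := by
    apply rd_zFix_congr h
    intro e he
    have hne : e ≠ a := fun hc => ha (hc ▸ he)
    rw [Function.update_of_ne hne]
  rw [rd_zFix_insert_max h key hpr ha hmax L (Function.update v a t), h1, Function.update_self,
    rd_sum_tilt_eq (rd_zFix_off h pr L v ha)]

open Classical in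
theorem rd_tilt_chan (h : LocData m q) (L : E → ℝ) (a : E) (S : Finset E) {x : ℝ} (hx1 : -1 ≤ x) (hx2 : x ≤ 1) :
    q (tiltE L a (chanL x)) S * (3 + (2 * m L a - 1) * x) = (3 - x) * q L S + 2 * x * q L (insert a S) := by
  have ht := h.tilt L a (chanL x) S
  rw [exp_chanL ⟨hx1, hx2⟩] at ht
  have h3 : (3 - x) ≠ 0 := by
    have : 0 < 3 - x := by linarith
    exact this.ne'
  have e1 : (3 + (2 * m L a - 1) * x) = (1 + 2 * x / (3 - x) * m L a) * (3 - x) := by
    field_simp
    try ring
  have e2 : (3 - x) * q L S + 2 * x * q L (insert a S)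
      = (q L S + 2 * x / (3 - x) * q L (insert a S)) * (3 - x) := by
    field_simp
    try ring
  rw [e1, e2, ← ht]
  ring

open Classical in
theorem rd_inner_mart (h : LocData m q) (L : E → ℝ) (a : E) (S : Finset E) :
    ∫ t : unitInterval, q (tiltE L a (chanZ (m L a) t)) S = q L S :=
  (chan_mart (h.m_mem L a) (F := fun x => q (tiltE L a (chanL x)) S) (A := q L S)
    (B := q L (insert a S)) (fun x hx1 hx2 => rd_tilt_chan h L a S hx1 hx2)).1

theorem rd_phi_nonneg (t : ℝ) : 0 ≤ phi t := Real.sqrt_nonneg _

theorem rd_phi_le_one {t : ℝ} (h0 : 0 ≤ t) (h1 : t ≤ 1) : phi t ≤ 1 := by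
  unfold phi
  calc √(t * (1 - t)) ≤ √1 := Real.sqrt_le_sqrt (by nlinarith)
    _ = 1 := Real.sqrt_one

theorem rd_measurable_phi : Measurable phi := by
  unfold phi
  fun_prop

theorem rd_continuous_phi : Continuous phi := by
  unfold phi
  fun_prop

theorem rd_inner_phi_self (h : LocData m q) (L : E → ℝ) (e : E) :
    ∫ t : unitInterval, phi (m (tiltE L e (chanZ (m L e) t)) e) ≤ 53 / 54 * phi (m L e) := by
  classical
  refine chan_phi_self (h.m_mem L e) (F := fun x => m (tiltE L e (chanL x)) e) (fun x hx1 hx2 => ?_)
  have ht := rd_tilt_chan h L e {e} hx1 hx2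
  rw [Finset.insert_eq_of_mem (Finset.mem_singleton_self e), h.q_single, h.q_single] at ht
  rw [ht]
  ring

theorem rd_inner_phi_other (h : LocData m q) (L : E → ℝ) (a e : E) :
    ∫ t : unitInterval, phi (m (tiltE L a (chanZ (m L a) t)) e) ≤ phi (m L e) := by
  classical
  refine chan_phi_other (h.m_mem L a) (F := fun x => m (tiltE L a (chanL x)) e)
    (A := m L e) (B := q L (insert a {e})) (fun x hx1 hx2 => ?_) (fun x _ _ => h.m_mem _ _)
  have ht := rd_tilt_chan h L a {e} hx1 hx2
  rw [h.q_single, h.q_single] at ht
  exact ht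

theorem rd_round_mart_fin [Countable E] (h : LocData m q) {pr : E → E → Prop} {K : Type*} [LinearOrder K]
    (key : E → K) (hpr : ∀ g e, pr g e ↔ key g < key e) (L : E → ℝ) (S : Finset E) (D : Finset E)
    (hk : Set.InjOn key (D : Set E)) :
    ∫ v, q (fun g => L g + zFix m (D : Set E) pr L v g) S ∂(Pz E) = q L S := by
  classical
  induction D using Finset.induction_on_max_value key with
  | empty =>
    have : ∀ v, (fun g => L g + zFix m ((∅ : Finset E) : Set E) pr L v g) = L := by
      intro v
      funext g
      rw [rd_zFix_off h pr L v (by simp)]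
      simp
    simp only [this]
    simp
  | insert a s ha hmax ih =>
    have hk' : Set.InjOn key (s : Set E) := hk.mono (by simp)
    have hlt : ∀ g ∈ (s : Set E), key g < key a := by
      intro g hg
      refine lt_of_le_of_ne (hmax g hg) (fun hc => ?_)
      have := hk (by simp [Finset.mem_coe.mp hg]) (by simp) hc
      exact ha (this ▸ hg)
    have hcoe : ((insert a s : Finset E) : Set E) = insert a (s : Set E) := by simp
    rw [hcoe, rd_step_integral h key hpr (by simpa using ha) hlt L (h.q_meas S) (C := 1)
      (fun x' => by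
        have := h.q_mem x' S
        rw [abs_le]; constructor <;> linarith [this.1, this.2])]
    simp only [rd_inner_mart h]
    exact ih hk'

open Classical in
theorem rd_round_phi_fin [Countable E] (h : LocData m q) {pr : E → E → Prop} {K : Type*} [LinearOrder K]
    (key : E → K) (hpr : ∀ g e, pr g e ↔ key g < key e) (L : E → ℝ) (e : E) (D : Finset E)
    (hk : Set.InjOn key (D : Set E)) :
    ∫ v, phi (m (fun g => L g + zFix m (D : Set E) pr L v g) e) ∂(Pz E)
      ≤ (if e ∈ D then 53 / 54 else 1) * phi (m L e) := by
  classical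
  induction D using Finset.induction_on_max_value key with
  | empty =>
    have : ∀ v, (fun g => L g + zFix m ((∅ : Finset E) : Set E) pr L v g) = L := by
      intro v
      funext g
      rw [rd_zFix_off h pr L v (by simp)]
      simp
    simp only [this]
    simp
  | insert a s ha hmax ih =>
    have hk' : Set.InjOn key (s : Set E) := hk.mono (by simp)
    have hlt : ∀ g ∈ (s : Set E), key g < key a := by
      intro g hg
      refine lt_of_le_of_ne (hmax g hg) (fun hc => ?_)
      have := hk (by simp [Finset.mem_coe.mp hg]) (by simp) hc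
      exact ha (this ▸ hg)
    have hcoe : ((insert a s : Finset E) : Set E) = insert a (s : Set E) := by simp
    have hGm : Measurable (fun x : E → ℝ => phi (m x e)) := rd_measurable_phi.comp (h.m_meas e)
    have hGb : ∀ x : E → ℝ, |phi (m x e)| ≤ 1 := by
      intro x
      rw [abs_of_nonneg (rd_phi_nonneg _)]
      exact rd_phi_le_one (h.m_mem x e).1 (h.m_mem x e).2
    rw [hcoe, rd_step_integral h key hpr (by simpa using ha) hlt L hGm hGb]
    -- the constant of the last edge
    set c : ℝ := if a = e then 53 / 54 else 1 with hc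
    have hinner : ∀ v, ∫ t : unitInterval, phi (m (tiltE (fun g => L g + zFix m (s : Set E) pr L v g) a
        (chanZ (m (fun g => L g + zFix m (s : Set E) pr L v g) a) t)) e)
        ≤ c * phi (m (fun g => L g + zFix m (s : Set E) pr L v g) e) := by
      intro v
      by_cases hae : a = e
      · subst hae
        simpa [hc] using rd_inner_phi_self h _ a
      · simpa [hc, hae] using rd_inner_phi_other h _ a e
    have hc0 : 0 ≤ c := by
      rw [hc]; split_ifs <;> norm_num
    have hmeas2 : Measurable (fun v : E → unitInterval =>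
        phi (m (fun g => L g + zFix m (s : Set E) pr L v g) e)) := by
      refine hGm.comp (measurable_pi_iff.mpr fun g => ?_)
      exact measurable_const.add (measurable_pi_iff.mp (rd_zFix_meas_v h (s : Set E) pr L) g)
    have hint2 : Integrable (fun v : E → unitInterval =>
        c * phi (m (fun g => L g + zFix m (s : Set E) pr L v g) e)) (Pz E) := by
      refine Integrable.const_mul ?_ c
      exact Integrable.of_bound hmeas2.aestronglyMeasurable 1 (Eventually.of_forall fun v => by
        simpa using hGb _)
    have h1 : ∫ v, (∫ t : unitInterval, phi (m (tiltE (fun g => L g + zFix m (s : Set E) pr L v g) a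
        (chanZ (m (fun g => L g + zFix m (s : Set E) pr L v g) a) t)) e)) ∂(Pz E)
        ≤ ∫ v, c * phi (m (fun g => L g + zFix m (s : Set E) pr L v g) e) ∂(Pz E) := by
      refine integral_mono_of_nonneg (Eventually.of_forall fun v => ?_) hint2
        (Eventually.of_forall hinner)
      exact integral_nonneg fun t => rd_phi_nonneg _
    refine le_trans h1 ?_
    rw [integral_const_mul]
    have h2 := mul_le_mul_of_nonneg_left (ih hk') hc0
    refine le_trans h2 ?_
    rw [← mul_assoc]
    apply mul_le_mul_of_nonneg_right _ (rd_phi_nonneg _)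
    by_cases hae : a = e
    · subst hae
      simp [hc, ha]
    · by_cases hes : e ∈ s
      · simp [hc, hae, hes]
      · have hea : e ≠ a := fun h' => hae h'.symm
        simp [hc, hae, hes, hea]

/-! ### Infinite sets, by compactness -/

theorem rd_mL_contOn (h : LocData m q) (R : ℝ) (e : E) :
    ContinuousOn (fun L => m L e) {L | ∀ g, |L g| ≤ R} := by
  have := h.q_cont {e} R
  simpa only [h.q_single] using this

theorem rd_roundMap_contOn (h : LocData m q) (D : Set E) (pr : E → E → Prop) {L : E → ℝ} {R : ℝ}
    (hL : ∀ g, |L g| ≤ R) (v : E → unitInterval) (e : E) :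
    ContinuousOn (fun z => roundMap m D pr L v z e) {z | ∀ g, |z g| ≤ Real.log 2} := by
  unfold roundMap
  by_cases he : e ∈ D
  · simp only [he, if_true]
    have hpart : Continuous (fun z : E → ℝ => partL pr L z e) := by
      refine continuous_pi fun g => ?_
      unfold partL
      by_cases hg : pr g e
      · simp only [hg, if_true]
        exact continuous_const.add (continuous_apply g)
      · simp only [hg, if_false]
        exact continuous_const
    have hmaps : Set.MapsTo (fun z : E → ℝ => partL pr L z e) {z | ∀ g, |z g| ≤ Real.log 2}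
        {L' | ∀ g, |L' g| ≤ R + Real.log 2} := by
      intro z hz g
      unfold partL
      refine le_trans (abs_add_le _ _) (add_le_add (hL g) ?_)
      by_cases hg : pr g e
      · simpa only [hg, if_true] using hz g
      · simpa only [hg, if_false, abs_zero] using (Real.log_nonneg (by norm_num) : 0 ≤ Real.log 2)
    have h1 : ContinuousOn (fun z : E → ℝ => m (partL pr L z e) e) {z | ∀ g, |z g| ≤ Real.log 2} :=
      (rd_mL_contOn h (R + Real.log 2) e).comp hpart.continuousOn hmaps
    exact (continuousOn_chanZ (v e)).comp h1 (fun z _ => h.m_mem _ _)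
  · simp only [he, if_false]
    exact continuousOn_const

theorem rd_zFix_tendsto (h : LocData m q) {D : Set E} (pr : E → E → Prop) {L : E → ℝ} {R : ℝ}
    (hL : ∀ g, |L g| ≤ R) (v : E → unitInterval) {Dn : ℕ → Set E} (hsub : ∀ n, Dn n ⊆ D)
    (hev : ∀ e ∈ D, ∀ᶠ n in atTop, e ∈ Dn n) :
    Tendsto (fun n => zFix m (Dn n) pr L v) atTop (𝓝 (zFix m D pr L v)) := by
  have hbox : IsCompact {z : E → ℝ | ∀ g, |z g| ≤ Real.log 2} := by
    have : {z : E → ℝ | ∀ g, |z g| ≤ Real.log 2}
        = Set.pi Set.univ (fun _ => Set.Icc (-Real.log 2) (Real.log 2)) := by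
      ext z
      simp only [Set.mem_ofPred_eq, Set.mem_pi, Set.mem_univ, true_implies, Set.mem_Icc, abs_le]
    rw [this]
    exact isCompact_univ_pi fun _ => isCompact_Icc
  refine hbox.tendsto_nhds_of_unique_mapClusterPt
    (Eventually.of_forall fun n => fun g => zFix_abs h _ pr L v g) (fun w hw hcl => ?_)
  refine zFix_unique h D pr L v hw ?_
  funext e
  have hclosed : IsClosed {z ∈ {z : E → ℝ | ∀ g, |z g| ≤ Real.log 2} |
      z e = roundMap m D pr L v z e} :=
    hbox.isClosed.isClosed_eq (continuous_apply e).continuousOn (rd_roundMap_contOn h D pr hL v e)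
  have hev' : ∀ᶠ n in atTop, zFix m (Dn n) pr L v ∈ {z ∈ {z : E → ℝ | ∀ g, |z g| ≤ Real.log 2} |
      z e = roundMap m D pr L v z e} := by
    by_cases he : e ∈ D
    · filter_upwards [hev e he] with n hn
      refine ⟨fun g => zFix_abs h _ pr L v g, ?_⟩
      have h1 := congrFun (zFix_eq h (Dn n) pr L v) e
      calc zFix m (Dn n) pr L v e = roundMap m (Dn n) pr L v (zFix m (Dn n) pr L v) e := h1.symm
        _ = roundMap m D pr L v (zFix m (Dn n) pr L v) e := by simp [roundMap, hn, he]
    · refine Eventually.of_forall fun n => ⟨fun g => zFix_abs h _ pr L v g, ?_⟩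
      have hn : e ∉ Dn n := fun hc => he (hsub n hc)
      rw [rd_zFix_off h pr L v hn]
      simp [roundMap, he]
  exact (hclosed.mem_of_mapClusterPt hcl hev').2.symm

/-- a sequence of finite subsets exhausting `D` -/
theorem rd_exists_fin_exhaust [Countable E] (D : Set E) :
    ∃ Dn : ℕ → Finset E, (∀ n, (Dn n : Set E) ⊆ D) ∧ ∀ e ∈ D, ∀ᶠ n in atTop, e ∈ Dn n := by
  classical
  obtain ⟨x, hx⟩ := Filter.exists_seq_tendsto (atTop : Filter (Finset E))
  refine ⟨fun n => (x n).filter (· ∈ D), fun n g hg => ?_, fun e he => ?_⟩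
  · simpa using (Finset.mem_filter.mp (Finset.mem_coe.mp hg)).2
  · have := (tendsto_atTop.mp hx) {e}
    filter_upwards [this] with n hn
    exact Finset.mem_filter.mpr ⟨hn (Finset.mem_singleton_self e), he⟩

/-- round in expectation, for countable E -/
theorem round_mart [Countable E] (h : LocData m q) (D : Set E) {pr : E → E → Prop} {K : Type*} [LinearOrder K]
    (key : E → K) (hk : Set.InjOn key D) (hpr : ∀ g e, pr g e ↔ key g < key e)
    {L : E → ℝ} {R : ℝ} (hL : ∀ g, |L g| ≤ R) (S : Finset E) :
    ∫ v, q (fun g => L g + zFix m D pr L v g) S ∂(Pz E) = q L S := by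
  obtain ⟨Dn, hsub, hev⟩ := rd_exists_fin_exhaust D
  have hfin : ∀ n, ∫ v, q (fun g => L g + zFix m (Dn n : Set E) pr L v g) S ∂(Pz E) = q L S :=
    fun n => rd_round_mart_fin h key hpr L S (Dn n) (hk.mono (hsub n))
  have hlim : Tendsto (fun n => ∫ v, q (fun g => L g + zFix m (Dn n : Set E) pr L v g) S ∂(Pz E)) atTop
      (𝓝 (∫ v, q (fun g => L g + zFix m D pr L v g) S ∂(Pz E))) := by
    refine tendsto_integral_of_dominated_convergence (fun _ => (1 : ℝ)) (fun n => ?_)
      (integrable_const _) (fun n => Eventually.of_forall fun v => ?_)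
      (Eventually.of_forall fun v => ?_)
    · refine ((h.q_meas S).comp (measurable_pi_iff.mpr fun g => ?_)).aestronglyMeasurable
      exact measurable_const.add (measurable_pi_iff.mp (rd_zFix_meas_v h (Dn n : Set E) pr L) g)
    · have := h.q_mem (fun g => L g + zFix m (Dn n : Set E) pr L v g) S
      rw [Real.norm_eq_abs, abs_le]
      constructor <;> linarith [this.1, this.2]
    · have hcont := (h.q_cont S (R + Real.log 2))
      have hbox : ∀ (D' : Set E), (fun g => L g + zFix m D' pr L v g) ∈ {L' : E → ℝ | ∀ g, |L' g| ≤ R + Real.log 2} :=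
        fun D' g => le_trans (abs_add_le _ _) (add_le_add (hL g) (zFix_abs h D' pr L v g))
      have hw := (hcont _ (hbox D)).tendsto
      refine hw.comp (tendsto_nhdsWithin_iff.mpr ⟨?_, Eventually.of_forall fun n => hbox _⟩)
      rw [tendsto_pi_nhds]
      intro g
      exact tendsto_const_nhds.add
        ((tendsto_pi_nhds.mp (rd_zFix_tendsto h pr hL v (Dn := fun n => (Dn n : Set E)) hsub hev)) g)
  simp only [hfin] at hlim
  exact (tendsto_nhds_unique hlim tendsto_const_nhds)

theorem round_phi [Countable E] (h : LocData m q) (D : Set E) {pr : E → E → Prop} {K : Type*} [LinearOrder K]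
    (key : E → K) (hk : Set.InjOn key D) (hpr : ∀ g e, pr g e ↔ key g < key e)
    {L : E → ℝ} {R : ℝ} (hL : ∀ g, |L g| ≤ R) {e : E} (he : e ∈ D) :
    ∫ v, phi (m (fun g => L g + zFix m D pr L v g) e) ∂(Pz E) ≤ 53 / 54 * phi (m L e) := by
  classical
  obtain ⟨Dn, hsub, hev⟩ := rd_exists_fin_exhaust D
  have hGm : Measurable (fun x : E → ℝ => phi (m x e)) := rd_measurable_phi.comp (h.m_meas e)
  have hfin : ∀ᶠ n in atTop, ∫ v, phi (m (fun g => L g + zFix m (Dn n : Set E) pr L v g) e) ∂(Pz E)
      ≤ 53 / 54 * phi (m L e) := by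
    filter_upwards [hev e he] with n hn
    have := rd_round_phi_fin h key hpr L e (Dn n) (hk.mono (hsub n))
    simpa [hn] using this
  have hlim : Tendsto (fun n => ∫ v, phi (m (fun g => L g + zFix m (Dn n : Set E) pr L v g) e) ∂(Pz E)) atTop
      (𝓝 (∫ v, phi (m (fun g => L g + zFix m D pr L v g) e) ∂(Pz E))) := by
    refine tendsto_integral_of_dominated_convergence (fun _ => (1 : ℝ)) (fun n => ?_)
      (integrable_const _) (fun n => Eventually.of_forall fun v => ?_)
      (Eventually.of_forall fun v => ?_)
    · refine (hGm.comp (measurable_pi_iff.mpr fun g => ?_)).aestronglyMeasurable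
      exact measurable_const.add (measurable_pi_iff.mp (rd_zFix_meas_v h (Dn n : Set E) pr L) g)
    · have := h.m_mem (fun g => L g + zFix m (Dn n : Set E) pr L v g) e
      rw [Real.norm_eq_abs, abs_of_nonneg (rd_phi_nonneg _)]
      exact rd_phi_le_one this.1 this.2
    · have hcont := (rd_mL_contOn h (R + Real.log 2) e)
      have hbox : ∀ (D' : Set E), (fun g => L g + zFix m D' pr L v g) ∈ {L' : E → ℝ | ∀ g, |L' g| ≤ R + Real.log 2} :=
        fun D' g => le_trans (abs_add_le _ _) (add_le_add (hL g) (zFix_abs h D' pr L v g))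
      have hw := (hcont _ (hbox D)).tendsto
      have htz : Tendsto (fun n => fun g => L g + zFix m (Dn n : Set E) pr L v g) atTop
          (𝓝 (fun g => L g + zFix m D pr L v g)) := by
        rw [tendsto_pi_nhds]
        intro g
        exact tendsto_const_nhds.add
          ((tendsto_pi_nhds.mp (rd_zFix_tendsto h pr hL v (Dn := fun n => (Dn n : Set E)) hsub hev)) g)
      have htw := tendsto_nhdsWithin_iff.mpr ⟨htz, Eventually.of_forall fun n => hbox _⟩
      exact rd_continuous_phi.continuousAt.tendsto.comp (hw.comp htw)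
  exact le_of_tendsto hlim hfin

end Vale.Agent.Lib.P143L
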